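import Crest.Agent.R322.Defs

/-! Row 322, task AFF: negative moments of the distance to an affine subspace. -/

set_option autoImplicit false

open MeasureTheory ProbabilityTheory

noncomputable section

namespace Crest.Agent.R322

namespace AFF

open scoped ENNReal

/-- the covering count of a neighbourhood of an affine subspace -/
theorem cover (hCnt : StCnt) (hCell : StCell) (d : ℕ) (hd : 1 ≤ d) (V : Submodule ℝ (E d))
    (z0 : E d) (hz0 : cell d 0 z0 = 0) (m : ℕ) :
    ∃ A : Finset (Fin d → ℤ), (A.card : ℝ) ≤ (33 * 2 ^ m) ^ (Module.finrank ℝ V) * 33 ^ d ∧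
      {z : E d | cell d 0 z = 0 ∧ Metric.infDist (z - z0) (V : Set (E d)) ≤ (2:ℝ)⁻¹ ^ m} ⊆
        ⋃ c ∈ A, cs d m c := by
  classical
  set f := Module.finrank ℝ V with hf
  let b : OrthonormalBasis (Fin f) ℝ V := stdOrthonormalBasis ℝ V
  -- the grid
  let y : (Fin f → ℤ) → E d := fun n =>
    ((b.repr.symm (WithLp.toLp 2 (fun i => (n i : ℝ) / (2 ^ m * Real.sqrt f))) : V) : E d)
  obtain ⟨hGf, hGc⟩ := hCnt f 0 (3 * 2 ^ m) (by
    have : (1:ℝ) ≤ 2 ^ m := one_le_pow₀ (by norm_num)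
    linarith)
  have hB : ∀ v : Fin d → ℝ, {c : Fin d → ℤ | ∑ i, ((c i : ℝ) - v i) ^ 2 ≤ 3 ^ 2 * d}.Finite ∧
      (({c : Fin d → ℤ | ∑ i, ((c i : ℝ) - v i) ^ 2 ≤ 3 ^ 2 * d}).ncard : ℝ) ≤ (11 * 3) ^ d :=
    fun v => hCnt d v 3 (by norm_num)
  let vv : (Fin f → ℤ) → Fin d → ℝ := fun n i => 2 ^ m * Real.sqrt d * (z0 + y n) i
  let A : Finset (Fin d → ℤ) := hGf.toFinset.biUnion fun n => (hB (vv n)).1.toFinset
  refine ⟨A, ?_, ?_⟩
  · have h1 : A.card ≤ ∑ n ∈ hGf.toFinset, ((hB (vv n)).1.toFinset).card :=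
      Finset.card_biUnion_le
    have h2 : (A.card : ℝ) ≤ ∑ n ∈ hGf.toFinset, (33:ℝ) ^ d := by
      refine (by exact_mod_cast h1 : (A.card : ℝ) ≤ ∑ n ∈ hGf.toFinset,
        (((hB (vv n)).1.toFinset).card : ℝ)).trans ?_
      refine Finset.sum_le_sum fun n _ => ?_
      rw [← Set.ncard_eq_toFinset_card _ (hB (vv n)).1]
      refine (hB (vv n)).2.trans (le_of_eq ?_)
      norm_num
    rw [Finset.sum_const, nsmul_eq_mul] at h2
    refine h2.trans (mul_le_mul_of_nonneg_right ?_ (by positivity))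
    rw [← Set.ncard_eq_toFinset_card _ hGf]
    refine hGc.trans (le_of_eq ?_)
    ring
  · intro z hz
    obtain ⟨hz1, hz2⟩ := hz
    have hcell := hCell d 0 hd
    have hzz : ‖z - z0‖ ≤ 1 := by
      have := hcell.2.1 z z0 (by rw [hz1, hz0])
      rw [dist_eq_norm] at this
      simpa using this
    have hVc : IsClosed (V : Set (E d)) := Submodule.closed_of_finiteDimensional V
    obtain ⟨p, hpV, hp⟩ := hVc.exists_infDist_eq_dist ⟨0, V.zero_mem⟩ (z - z0)
    have hpd : ‖(z - z0) - p‖ ≤ (2:ℝ)⁻¹ ^ m := by rw [← dist_eq_norm, ← hp]; exact hz2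
    have hpn : ‖p‖ ≤ 2 := by
      have h1 : ‖(z - z0) - p‖ ≤ ‖z - z0‖ := by
        rw [← dist_eq_norm, ← hp]
        refine (Metric.infDist_le_dist_of_mem V.zero_mem).trans ?_
        rw [dist_eq_norm, sub_zero]
      have h2 : ‖p‖ ≤ ‖z - z0‖ + ‖(z - z0) - p‖ := by
        calc ‖p‖ = ‖(z - z0) - ((z - z0) - p)‖ := by congr 1; abel
          _ ≤ _ := norm_sub_le _ _
      linarith
    set α : EuclideanSpace ℝ (Fin f) := b.repr ⟨p, hpV⟩ with hα
    have hαn : ‖α‖ ≤ 2 := by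
      rw [hα, LinearIsometryEquiv.norm_map]; exact hpn
    have h2m : (0:ℝ) < 2 ^ m := by positivity
    let n : Fin f → ℤ := fun i => ⌊2 ^ m * Real.sqrt f * α i⌋
    have hn1 : ∀ i, |(n i : ℝ) - 2 ^ m * Real.sqrt f * α i| ≤ 1 := by
      intro i
      rw [abs_le]
      have h3 := Int.floor_le (2 ^ m * Real.sqrt f * α i)
      have h4 := Int.lt_floor_add_one (2 ^ m * Real.sqrt f * α i)
      constructor
      · show -1 ≤ (⌊2 ^ m * Real.sqrt f * α i⌋ : ℝ) - _
        linarith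
      · show (⌊2 ^ m * Real.sqrt f * α i⌋ : ℝ) - _ ≤ 1
        linarith
    -- n is in the grid
    have hnG : n ∈ hGf.toFinset := by
      rw [Set.Finite.mem_toFinset]
      show ∑ i, ((n i : ℝ) - (0 : Fin f → ℝ) i) ^ 2 ≤ (3 * 2 ^ m) ^ 2 * f
      let N : EuclideanSpace ℝ (Fin f) := WithLp.toLp 2 (fun i => (n i : ℝ))
      have hN : ‖N - (2 ^ m * Real.sqrt f) • α‖ ≤ Real.sqrt f := by
        rw [EuclideanSpace.norm_eq]
        refine Real.sqrt_le_sqrt ?_
        calc ∑ i, ‖(N - (2 ^ m * Real.sqrt f) • α) i‖ ^ 2 ≤ ∑ _i : Fin f, (1:ℝ) := by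
              refine Finset.sum_le_sum fun i _ => ?_
              rw [Real.norm_eq_abs]
              have : |(N - (2 ^ m * Real.sqrt f) • α) i| ≤ 1 := by
                simpa [N] using hn1 i
              exact pow_le_one₀ (abs_nonneg _) this
          _ = f := by simp
      have hN2 : ‖N‖ ≤ 3 * 2 ^ m * Real.sqrt f := by
        have h3 : ‖N‖ ≤ ‖N - (2 ^ m * Real.sqrt f) • α‖ + ‖(2 ^ m * Real.sqrt f) • α‖ := by
          calc ‖N‖ = ‖(N - (2 ^ m * Real.sqrt f) • α) + (2 ^ m * Real.sqrt f) • α‖ := by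
                congr 1; abel
            _ ≤ _ := norm_add_le _ _
        rw [norm_smul, Real.norm_eq_abs, abs_of_nonneg (by positivity)] at h3
        have h4 : 2 ^ m * Real.sqrt f * ‖α‖ ≤ 2 ^ m * Real.sqrt f * 2 :=
          mul_le_mul_of_nonneg_left hαn (by positivity)
        have h5 : Real.sqrt f ≤ 2 ^ m * Real.sqrt f :=
          le_mul_of_one_le_left (Real.sqrt_nonneg _) (one_le_pow₀ (by norm_num))
        linarith
      have h6 : ∑ i, ((n i : ℝ) - (0 : Fin f → ℝ) i) ^ 2 = ‖N‖ ^ 2 := by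
        rw [EuclideanSpace.real_norm_sq_eq]
        simp [N]
      rw [h6]
      calc ‖N‖ ^ 2 ≤ (3 * 2 ^ m * Real.sqrt f) ^ 2 := pow_le_pow_left₀ (norm_nonneg _) hN2 2
        _ = _ := by rw [mul_pow _ (Real.sqrt f), Real.sq_sqrt (Nat.cast_nonneg f)]
    -- p is close to y n
    have hpy : ‖p - y n‖ ≤ (2:ℝ)⁻¹ ^ m := by
      let W : EuclideanSpace ℝ (Fin f) := WithLp.toLp 2 (fun i => (n i : ℝ) / (2 ^ m * Real.sqrt f))
      have h3 : ‖p - y n‖ = ‖α - W‖ := by
        have h4 : ‖p - y n‖ = ‖(⟨p, hpV⟩ : V) - b.repr.symm W‖ := rfl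
        rw [h4, ← LinearIsometryEquiv.norm_map b.repr, map_sub,
          LinearIsometryEquiv.apply_symm_apply]
      rw [h3, EuclideanSpace.norm_eq]
      rcases Nat.eq_zero_or_pos f with hf0 | hfp
      · have : ∑ i, ‖(α - W) i‖ ^ 2 = 0 := by
          refine Finset.sum_eq_zero fun i _ => ?_
          have := i.2; omega
        rw [this, Real.sqrt_zero]; positivity
      · have hfr : (0:ℝ) < f := by exact_mod_cast hfp
        have hsf : 0 < Real.sqrt f := Real.sqrt_pos.2 hfr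
        refine Real.sqrt_le_iff.2 ⟨by positivity, ?_⟩
        calc ∑ i, ‖(α - W) i‖ ^ 2 ≤ ∑ _i : Fin f, (1 / (2 ^ m * Real.sqrt f)) ^ 2 := by
              refine Finset.sum_le_sum fun i _ => ?_
              rw [Real.norm_eq_abs]
              refine pow_le_pow_left₀ (abs_nonneg _) ?_ 2
              have h5 : (α - W) i = -(((n i : ℝ) - 2 ^ m * Real.sqrt f * α i) /
                  (2 ^ m * Real.sqrt f)) := by
                have : (α - W) i = α i - (n i : ℝ) / (2 ^ m * Real.sqrt f) := by simp [W]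
                rw [this]; field_simp; ring
              rw [h5, abs_neg, abs_div, abs_of_pos (by positivity : 0 < 2 ^ m * Real.sqrt f)]
              exact div_le_div_of_nonneg_right (hn1 i) (by positivity)
          _ = ((2:ℝ)⁻¹ ^ m) ^ 2 := by
              rw [Finset.sum_const, Finset.card_univ, Fintype.card_fin, nsmul_eq_mul, div_pow,
                mul_pow, Real.sq_sqrt hfr.le, inv_pow]
              field_simp
    -- so z is close to z0 + y n
    have hzy : ‖z - (z0 + y n)‖ ≤ 2 * (2:ℝ)⁻¹ ^ m := by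
      calc ‖z - (z0 + y n)‖ = ‖((z - z0) - p) + (p - y n)‖ := by congr 1; abel
        _ ≤ _ := norm_add_le _ _
        _ ≤ _ := by linarith
    simp only [Set.mem_iUnion]
    refine ⟨cell d m z, ?_, rfl⟩
    rw [Finset.mem_biUnion]
    refine ⟨n, hnG, ?_⟩
    rw [Set.Finite.mem_toFinset]
    show ∑ i, ((cell d m z i : ℝ) - vv n i) ^ 2 ≤ 3 ^ 2 * d
    let c : E d := WithLp.toLp 2 (fun i => (cell d m z i : ℝ))
    have hc1 : ‖c - (2 ^ m * Real.sqrt d) • z‖ ≤ Real.sqrt d := by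
      rw [EuclideanSpace.norm_eq]
      refine Real.sqrt_le_sqrt ?_
      refine le_trans (le_of_eq ?_) ((hCell d m hd).2.2.2.2 z)
      refine Finset.sum_congr rfl fun i _ => ?_
      rw [Real.norm_eq_abs, sq_abs]
      simp [c]
    have hc2 : ‖(2 ^ m * Real.sqrt d) • z - (2 ^ m * Real.sqrt d) • (z0 + y n)‖ ≤
        2 * Real.sqrt d := by
      rw [← smul_sub, norm_smul, Real.norm_eq_abs, abs_of_nonneg (by positivity)]
      calc 2 ^ m * Real.sqrt d * ‖z - (z0 + y n)‖ ≤ 2 ^ m * Real.sqrt d * (2 * (2:ℝ)⁻¹ ^ m) :=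
            mul_le_mul_of_nonneg_left hzy (by positivity)
        _ = 2 * Real.sqrt d := by rw [inv_pow]; field_simp
    have hc3 : ‖c - (2 ^ m * Real.sqrt d) • (z0 + y n)‖ ≤ 3 * Real.sqrt d := by
      calc ‖c - (2 ^ m * Real.sqrt d) • (z0 + y n)‖ =
            ‖(c - (2 ^ m * Real.sqrt d) • z) +
              ((2 ^ m * Real.sqrt d) • z - (2 ^ m * Real.sqrt d) • (z0 + y n))‖ := by
            congr 1; abel
        _ ≤ _ := norm_add_le _ _
        _ ≤ _ := by linarith
    have hc4 : ∑ i, ((cell d m z i : ℝ) - vv n i) ^ 2 =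
        ‖c - (2 ^ m * Real.sqrt d) • (z0 + y n)‖ ^ 2 := by
      rw [EuclideanSpace.real_norm_sq_eq]
      refine Finset.sum_congr rfl fun i _ => ?_
      simp [c, vv]
      ring
    rw [hc4]
    calc ‖c - (2 ^ m * Real.sqrt d) • (z0 + y n)‖ ^ 2 ≤ (3 * Real.sqrt d) ^ 2 :=
          pow_le_pow_left₀ (norm_nonneg _) hc3 2
      _ = _ := by rw [mul_pow, Real.sq_sqrt (Nat.cast_nonneg d)]

/-- mass of a neighbourhood of an affine subspace -/
theorem mass_le (hCnt : StCnt) (hCell : StCell) (d : ℕ) (hd : 16 ≤ d) (Q : Measure (E d)) (a : ℝ)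
    (hQ : UFro Q a) (V : Submodule ℝ (E d)) (hV : Module.finrank ℝ V ≤ d / 16)
    (z0 : E d) (hz0 : cell d 0 z0 = 0) (m : ℕ) :
    Q.real {z : E d | cell d 0 z = 0 ∧ Metric.infDist (z - z0) (V : Set (E d)) ≤ (2:ℝ)⁻¹ ^ m} ≤
      a * 1089 ^ d * (2:ℝ) ^ (-(11 / 16 : ℝ) * d * m) := by
  have hprob := hQ.prob
  obtain ⟨A, hAc, hA⟩ := cover hCnt hCell d (by omega) V z0 hz0 m
  have ha : 0 ≤ a := zero_le_one.trans hQ.one_le
  refine (measureReal_mono hA (measure_ne_top _ _)).trans ?_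
  refine (measureReal_biUnion_finset_le _ _).trans ?_
  calc ∑ c ∈ A, Q.real (cs d m c) ≤ ∑ _c ∈ A, a * (2:ℝ) ^ (-(3 / 4 : ℝ) * d * m) :=
        Finset.sum_le_sum fun c _ => hQ.fro m c
    _ = A.card * (a * (2:ℝ) ^ (-(3 / 4 : ℝ) * d * m)) := by
        rw [Finset.sum_const, nsmul_eq_mul]
    _ ≤ ((33 * 2 ^ m) ^ (Module.finrank ℝ V) * 33 ^ d) * (a * (2:ℝ) ^ (-(3 / 4 : ℝ) * d * m)) :=
        mul_le_mul_of_nonneg_right hAc (by positivity)
    _ ≤ (33 ^ d * (2:ℝ) ^ ((1 / 16 : ℝ) * d * m) * 33 ^ d) *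
          (a * (2:ℝ) ^ (-(3 / 4 : ℝ) * d * m)) := by
        refine mul_le_mul_of_nonneg_right ?_ (by positivity)
        refine mul_le_mul_of_nonneg_right ?_ (by positivity)
        rw [mul_pow]
        refine mul_le_mul ?_ ?_ (by positivity) (by positivity)
        · exact pow_le_pow_right₀ (by norm_num) (hV.trans (Nat.div_le_self _ _))
        · rw [← pow_mul, ← Real.rpow_natCast]
          refine Real.rpow_le_rpow_of_exponent_le (by norm_num) ?_
          push_cast
          have h1 : (Module.finrank ℝ V : ℝ) ≤ (1 / 16 : ℝ) * d := by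
            have h2 : ((Module.finrank ℝ V : ℕ) : ℝ) ≤ ((d / 16 : ℕ) : ℝ) := by exact_mod_cast hV
            have h3 : ((d / 16 : ℕ) : ℝ) ≤ (d : ℝ) / 16 := Nat.cast_div_le
            linarith
          have hm0 : (0:ℝ) ≤ m := Nat.cast_nonneg m
          nlinarith
    _ = a * 1089 ^ d * (2:ℝ) ^ (-(11 / 16 : ℝ) * d * m) := by
        have h1 : (2:ℝ) ^ (-(11 / 16 : ℝ) * d * m) =
            (2:ℝ) ^ ((1 / 16 : ℝ) * d * m) * (2:ℝ) ^ (-(3 / 4 : ℝ) * d * m) := by
          rw [← Real.rpow_add (by norm_num)]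
          congr 1; ring
        have h2 : (1089:ℝ) ^ d = 33 ^ d * 33 ^ d := by
          rw [← mul_pow]; norm_num
        rw [h1, h2]; ring

end AFF

open AFF in
open scoped ENNReal in
theorem aff : StCnt → StCell → StAff := by
  classical
  intro hCnt hCell
  refine ⟨2178, by norm_num, ?_⟩
  intro d Q a hd hQ V hV z0 hz0
  have hprob := hQ.prob
  have ha : 0 ≤ a := zero_le_one.trans hQ.one_le
  set T : ℕ → Set (E d) := fun m =>
    {z : E d | cell d 0 z = 0 ∧ Metric.infDist (z - z0) (V : Set (E d)) ≤ (2:ℝ)⁻¹ ^ m} with hT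
  have hTm : ∀ m, MeasurableSet (T m) := by
    intro m
    have h1 : MeasurableSet {z : E d | cell d 0 z = 0} := (hCell d 0 (by omega)).1 0
    have h2 : MeasurableSet {z : E d | Metric.infDist (z - z0) (V : Set (E d)) ≤ (2:ℝ)⁻¹ ^ m} := by
      refine (isClosed_le ?_ continuous_const).measurableSet
      exact (Metric.continuous_infDist_pt _).comp (continuous_id.sub continuous_const)
    exact h1.inter h2
  set w : ℕ → ℝ := fun m => (2:ℝ) ^ (((m:ℝ) + 1) * (d / 4)) with hw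
  have hw1 : ∀ m, 1 ≤ w m := by
    intro m
    refine Real.one_le_rpow (by norm_num) (by positivity)
  -- the pointwise bound
  have hpt : ∀ᵐ z ∂Q, (ENNReal.ofReal (Metric.infDist (z - z0) (V : Set (E d)))) ^ (-((d:ℝ) / 4)) ≤
      ∑' m, ENNReal.ofReal (w m) * (T m).indicator 1 z := by
    filter_upwards [hQ.supp] with z hz
    have hzz : ‖z - z0‖ ≤ 1 := by
      have := (hCell d 0 (by omega)).2.1 z z0 (by rw [hz, hz0])
      rw [dist_eq_norm] at this
      simpa using this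
    have hδ1 : Metric.infDist (z - z0) (V : Set (E d)) ≤ 1 := by
      refine (Metric.infDist_le_dist_of_mem V.zero_mem).trans ?_
      rw [dist_eq_norm, sub_zero]; exact hzz
    rcases (Metric.infDist_nonneg : 0 ≤ Metric.infDist (z - z0) (V : Set (E d))).eq_or_lt
      with h0 | h0
    · have hmem : ∀ m, z ∈ T m := fun m => ⟨hz, by rw [← h0]; positivity⟩
      have htop : ∑' m, ENNReal.ofReal (w m) * (T m).indicator 1 z = ⊤ := by
        rw [eq_top_iff]
        have h2 : (∑' _m : ℕ, (1 : ℝ≥0∞)) = ⊤ := ENNReal.tsum_const_eq_top_of_ne_zero one_ne_zero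
        rw [← h2]
        refine ENNReal.tsum_le_tsum fun m => ?_
        rw [Set.indicator_of_mem (hmem m), Pi.one_apply, mul_one]
        rw [← ENNReal.ofReal_one]
        exact ENNReal.ofReal_le_ofReal (hw1 m)
      rw [htop]; exact le_top
    · obtain ⟨n, hn1, hn2⟩ := exists_nat_pow_near_of_lt_one h0 hδ1
        (by norm_num : (0:ℝ) < 2⁻¹) (by norm_num)
      refine le_trans ?_ (ENNReal.le_tsum n)
      rw [Set.indicator_of_mem (show z ∈ T n from ⟨hz, hn2⟩), Pi.one_apply, mul_one,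
        ENNReal.ofReal_rpow_of_pos h0]
      refine ENNReal.ofReal_le_ofReal ?_
      have h3 := Real.rpow_le_rpow_of_nonpos (z := -((d:ℝ) / 4)) (by positivity) hn1.le
        (by have : (0:ℝ) ≤ d := Nat.cast_nonneg d
            linarith)
      refine h3.trans (le_of_eq ?_)
      rw [hw, ← Real.rpow_natCast, Real.inv_rpow (by norm_num), ← Real.rpow_neg (by norm_num),
        ← Real.rpow_mul (by norm_num)]
      congr 1
      push_cast
      ring
  refine (lintegral_mono_ae hpt).trans ?_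
  rw [lintegral_tsum (fun m => ((measurable_one.indicator (hTm m)).const_mul _).aemeasurable)]
  have hterm : ∀ m, ∫⁻ z, ENNReal.ofReal (w m) * (T m).indicator 1 z ∂Q ≤
      ENNReal.ofReal (a * 1089 ^ d * (2:ℝ) ^ ((d:ℝ) / 4) * (1 / 2) ^ m) := by
    intro m
    rw [lintegral_const_mul _ (measurable_one.indicator (hTm m)), lintegral_indicator_one (hTm m)]
    have h1 : Q (T m) = ENNReal.ofReal (Q.real (T m)) := by
      rw [ofReal_measureReal]
    rw [h1, ← ENNReal.ofReal_mul (by positivity)]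
    refine ENNReal.ofReal_le_ofReal ?_
    have h2 := mass_le hCnt hCell d hd Q a hQ V hV z0 hz0 m
    calc w m * Q.real (T m) ≤ w m * (a * 1089 ^ d * (2:ℝ) ^ (-(11 / 16 : ℝ) * d * m)) :=
          mul_le_mul_of_nonneg_left h2 (by positivity)
      _ = a * 1089 ^ d * ((2:ℝ) ^ ((d:ℝ) / 4) * (2:ℝ) ^ (-(7 / 16 : ℝ) * d * m)) := by
          have h3 : w m * (2:ℝ) ^ (-(11 / 16 : ℝ) * d * m) =
              (2:ℝ) ^ ((d:ℝ) / 4) * (2:ℝ) ^ (-(7 / 16 : ℝ) * d * m) := by
            rw [hw]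
            simp only
            rw [← Real.rpow_add (by norm_num), ← Real.rpow_add (by norm_num)]
            congr 1; ring
          rw [← h3]; ring
      _ ≤ a * 1089 ^ d * ((2:ℝ) ^ ((d:ℝ) / 4) * (1 / 2) ^ m) := by
          refine mul_le_mul_of_nonneg_left ?_ (by positivity)
          refine mul_le_mul_of_nonneg_left ?_ (by positivity)
          have h4 : ((1:ℝ) / 2) ^ m = (2:ℝ) ^ (-(m:ℝ)) := by
            rw [Real.rpow_neg (by norm_num), Real.rpow_natCast, one_div, inv_pow]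
          rw [h4]
          refine Real.rpow_le_rpow_of_exponent_le (by norm_num) ?_
          have hd' : (16:ℝ) ≤ d := by exact_mod_cast hd
          have hm0 : (0:ℝ) ≤ m := Nat.cast_nonneg m
          nlinarith
      _ = _ := by ring
  refine (ENNReal.tsum_le_tsum hterm).trans ?_
  have hsum : Summable (fun m : ℕ => a * 1089 ^ d * (2:ℝ) ^ ((d:ℝ) / 4) * ((1:ℝ) / 2) ^ m) :=
    (summable_geometric_of_lt_one (by norm_num) (by norm_num)).mul_left _
  rw [← ENNReal.ofReal_tsum_of_nonneg (fun m => by positivity) hsum]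
  refine ENNReal.ofReal_le_ofReal ?_
  rw [tsum_mul_left, tsum_geometric_of_lt_one (by norm_num) (by norm_num)]
  have h5 : (2:ℝ) ^ ((d:ℝ) / 4) * (1 - 1 / 2)⁻¹ ≤ 2 ^ d := by
    have h6 : ((1:ℝ) - 1 / 2)⁻¹ = (2:ℝ) ^ (1:ℝ) := by norm_num
    rw [h6, ← Real.rpow_add (by norm_num), ← Real.rpow_natCast 2 d]
    refine Real.rpow_le_rpow_of_exponent_le (by norm_num) ?_
    have hd' : (16:ℝ) ≤ d := by exact_mod_cast hd
    linarith
  have h7 : (2178:ℝ) ^ d = 1089 ^ d * 2 ^ d := by rw [← mul_pow]; norm_num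
  rw [h7, mul_assoc (a * 1089 ^ d), ← mul_assoc a]
  exact mul_le_mul_of_nonneg_left h5 (by positivity)

end Crest.Agent.R322
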