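import Crest.Agent.R322.Defs

set_option autoImplicit false

open MeasureTheory ProbabilityTheory

namespace Crest.Agent.R322

namespace App

lemma dist_of_ixx {d : ℕ} (hd : 1 ≤ d) {τ : ℝ} (hτ : 0 < τ) {x x' : E d}
    (h : ixx τ x = ixx τ x') : dist x x' ≤ τ := by
  have hd0 : (0:ℝ) < d := by exact_mod_cast hd
  have hd1 : (1:ℝ) ≤ d := by exact_mod_cast hd
  have h1 : ∀ i, (x i - x' i) ^ 2 ≤ (τ / d) ^ 2 := by
    intro i
    have h2 : ⌊x i * d / τ⌋ = ⌊x' i * d / τ⌋ := congrFun h i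
    have h3 : |x i * d / τ - x' i * d / τ| < 1 := Int.abs_sub_lt_one_of_floor_eq_floor h2
    have h4 : x i * d / τ - x' i * d / τ = (x i - x' i) / (τ / d) := by
      field_simp
    rw [h4, abs_div, abs_of_pos (show 0 < τ / (d:ℝ) by positivity), div_lt_one (by positivity)] at h3
    rw [← sq_abs (x i - x' i)]
    exact pow_le_pow_left₀ (abs_nonneg _) h3.le 2
  rw [EuclideanSpace.dist_eq]
  calc Real.sqrt (∑ i, dist (x i) (x' i) ^ 2) ≤ Real.sqrt (τ ^ 2) := by
        apply Real.sqrt_le_sqrt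
        calc ∑ i, dist (x i) (x' i) ^ 2 ≤ ∑ _i : Fin d, (τ / d) ^ 2 := by
              refine Finset.sum_le_sum fun i _ => ?_
              rw [Real.dist_eq, sq_abs]
              exact h1 i
          _ = d * (τ / d) ^ 2 := by
              rw [Finset.sum_const, nsmul_eq_mul, Finset.card_univ, Fintype.card_fin]
          _ = τ ^ 2 / d := by field_simp
          _ ≤ τ ^ 2 := div_le_self (sq_nonneg _) hd1
    _ = τ := Real.sqrt_sq hτ.le

lemma dist_of_floor {τ : ℝ} (hτ : 0 < τ) {b b' : ℝ} (h : ⌊b / τ⌋ = ⌊b' / τ⌋) : dist b b' ≤ τ := by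
  have h3 : |b / τ - b' / τ| < 1 := Int.abs_sub_lt_one_of_floor_eq_floor h
  rw [← sub_div, abs_div, abs_of_pos hτ, div_lt_one hτ] at h3
  rw [Real.dist_eq]
  exact h3.le

lemma dist_of_idx {d N : ℕ} (hd : 1 ≤ d) {τ : ℝ} (hτ : 0 < τ)
    {p p' : (Fin N → E d) × (Fin N → ℝ)}
    (h : ∀ n, idx τ (p.1 n) (p.2 n) = idx τ (p'.1 n) (p'.2 n)) : dist p p' ≤ τ := by
  rw [Prod.dist_eq]
  refine max_le ?_ ?_
  · rw [dist_pi_le_iff hτ.le]
    intro n
    exact dist_of_ixx hd hτ (congrArg Prod.fst (h n))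
  · rw [dist_pi_le_iff hτ.le]
    intro n
    exact dist_of_floor hτ (congrArg Prod.snd (h n))

lemma finite_idx {d N : ℕ} {τ : ℝ} (hτ : 0 < τ) {K : Set ((Fin N → E d) × (Fin N → ℝ))}
    (hK : Bornology.IsBounded K) :
    {q | ∃ p ∈ K, ∃ n, idx τ (p.1 n) (p.2 n) = q}.Finite := by
  obtain ⟨R, hR⟩ := hK.exists_norm_le
  refine Set.Finite.subset ((Set.finite_Icc
    ((fun _ => ⌊-R * d / τ⌋) : Fin d → ℤ) ((fun _ => ⌊R * d / τ⌋) : Fin d → ℤ)).prod
    (Set.finite_Icc (⌊-R / τ⌋) (⌊R / τ⌋))) ?_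
  rintro q ⟨p, hp, n, rfl⟩
  have h1 := hR p hp
  have h2 : ‖p.1 n‖ ≤ R := (norm_le_pi_norm p.1 n).trans ((norm_fst_le p).trans h1)
  have h3 : ‖p.2 n‖ ≤ R := (norm_le_pi_norm p.2 n).trans ((norm_snd_le p).trans h1)
  have h4 : ∀ i, |p.1 n i| ≤ R := by
    intro i
    have := EuclideanSpace.norm_eq (p.1 n)
    have h5 : ‖p.1 n i‖ ≤ ‖p.1 n‖ := PiLp.norm_apply_le _ i
    rw [Real.norm_eq_abs] at h5
    exact h5.trans h2
  rw [Real.norm_eq_abs] at h3
  rw [Set.mem_prod, Set.mem_Icc, Set.mem_Icc]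
  refine ⟨⟨?_, ?_⟩, ?_, ?_⟩
  · intro i
    have := neg_le_of_abs_le (h4 i)
    apply Int.floor_le_floor
    gcongr
  · intro i
    have := le_of_abs_le (h4 i)
    apply Int.floor_le_floor
    gcongr
  · have := neg_le_of_abs_le h3
    apply Int.floor_le_floor
    gcongr
  · have := le_of_abs_le h3
    apply Int.floor_le_floor
    gcongr

end App

open App

theorem app : StApp := by
  intro d N U _ _ F hd hF μ _ ε hε
  classical
  -- compact sets
  have hcard : (0:ℝ) < Fintype.card U := by exact_mod_cast Fintype.card_pos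
  have hK : ∀ v : U, ∃ K ⊆ F ⁻¹' {v}, IsCompact K ∧
      μ ((F ⁻¹' {v}) \ K) < ENNReal.ofReal (ε / Fintype.card U) := by
    intro v
    exact (hF v).exists_isCompact_diff_lt (measure_ne_top _ _)
      (by simpa using (by positivity : 0 < ε / Fintype.card U))
  choose K hKF hKc hKμ using hK
  -- separation
  have hsep : ∀ᶠ δ in nhdsWithin (0:ℝ) (Set.Ioi 0), ∀ v w : U, v ≠ w → ∀ p ∈ K v, ∀ p' ∈ K w,
      δ < dist p p' := by
    rw [Filter.eventually_all]
    intro v
    rw [Filter.eventually_all]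
    intro w
    by_cases hvw : v = w
    · exact Filter.Eventually.of_forall fun δ h => absurd hvw h
    have hdis : Disjoint (K v) (K w) := by
      rw [Set.disjoint_left]
      intro p hp hp'
      have h1 : F p = v := hKF v hp
      have h2 : F p = w := hKF w hp'
      exact hvw (h1.symm.trans h2)
    obtain ⟨δ, hδ, hdis'⟩ := hdis.exists_thickenings (hKc v) (hKc w).isClosed
    have : Set.Ioo 0 δ ∈ nhdsWithin (0:ℝ) (Set.Ioi 0) := Ioo_mem_nhdsGT hδ
    filter_upwards [this] with x hx _ p hp p' hp'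
    by_contra hcon
    push Not at hcon
    have h3 : p' ∈ Metric.thickening δ (K v) := by
      rw [Metric.mem_thickening_iff]
      exact ⟨p, hp, by rw [dist_comm]; exact lt_of_le_of_lt hcon hx.2⟩
    have h4 : p' ∈ Metric.thickening δ (K w) := by
      rw [Metric.mem_thickening_iff]
      exact ⟨p', hp', by rw [dist_self]; exact hδ⟩
    exact (Set.disjoint_left.1 hdis') h3 h4
  have hsm : ∀ᶠ δ in nhdsWithin (0:ℝ) (Set.Ioi 0), 0 < δ ∧ δ ≤ 1 := by
    filter_upwards [Ioo_mem_nhdsGT (show (0:ℝ) < 1 by norm_num)] with x hx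
    exact ⟨hx.1, hx.2.le⟩
  obtain ⟨τ, hτ1, hτ0', hτle⟩ := (hsep.and hsm).exists
  refine ⟨τ, hτ0', hτle, ?_⟩
  set KK : Set ((Fin N → E d) × (Fin N → ℝ)) := ⋃ v, K v with hKK
  have hKKc : IsCompact KK := isCompact_iUnion hKc
  have hfin := finite_idx hτ0' hKKc.isBounded
  set S := hfin.toFinset with hS
  have hmemS : ∀ p ∈ KK, ∀ n, idx τ (p.1 n) (p.2 n) ∈ S := by
    intro p hp n
    rw [hS, Set.Finite.mem_toFinset]
    exact ⟨p, hp, n, rfl⟩
  refine ⟨S, fun y => if h : ∃ p ∈ KK, Bx τ S p = y then F h.choose else Classical.arbitrary U, ?_⟩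
  have hgood : ∀ p ∈ KK, F p = (fun y => if h : ∃ p ∈ KK, Bx τ S p = y then F h.choose
      else Classical.arbitrary U) (Bx τ S p) := by
    intro p hp
    have hex : ∃ p' ∈ KK, Bx τ S p' = Bx τ S p := ⟨p, hp, rfl⟩
    simp only [dif_pos hex]
    obtain ⟨hp', heq⟩ := hex.choose_spec
    set p' := hex.choose with hp'def
    have h1 : Bx τ S p = some (fun n => ⟨idx τ (p.1 n) (p.2 n), hmemS p hp n⟩) := by
      unfold Bx
      rw [dif_pos (hmemS p hp)]
    have h2 : Bx τ S p' = some (fun n => ⟨idx τ (p'.1 n) (p'.2 n), hmemS p' hp' n⟩) := by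
      unfold Bx
      rw [dif_pos (hmemS p' hp')]
    rw [h1, h2] at heq
    have h3 : ∀ n, idx τ (p.1 n) (p.2 n) = idx τ (p'.1 n) (p'.2 n) := by
      intro n
      have h4 := congrFun (Option.some.inj heq) n
      exact (congrArg Subtype.val h4).symm
    have h5 := dist_of_idx hd hτ0' h3
    rw [hKK, Set.mem_iUnion] at hp hp'
    obtain ⟨v, hv⟩ := hp
    obtain ⟨w, hw⟩ := hp'
    have h6 : F p = v := hKF v hv
    have h7 : F p' = w := hKF w hw
    rw [h6, h7]
    by_contra hne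
    exact absurd (hτ1 v w hne p hv p' hw) (not_lt.2 h5)
  have hsub : {p | F p ≠ (fun y => if h : ∃ p ∈ KK, Bx τ S p = y then F h.choose
      else Classical.arbitrary U) (Bx τ S p)} ⊆ ⋃ v ∈ (Finset.univ : Finset U),
      (F ⁻¹' {v}) \ K v := by
    intro p hp
    rw [Set.mem_iUnion₂]
    refine ⟨F p, Finset.mem_univ _, rfl, fun h => ?_⟩
    exact hp (hgood p (Set.mem_iUnion.2 ⟨F p, h⟩))
  refine (measureReal_mono hsub (measure_ne_top _ _)).trans ?_
  refine (measureReal_biUnion_finset_le _ _).trans ?_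
  calc ∑ v, μ.real ((F ⁻¹' {v}) \ K v) ≤ ∑ _v : U, ε / Fintype.card U := by
        refine Finset.sum_le_sum fun v _ => ?_
        rw [measureReal_def]
        exact ENNReal.toReal_le_of_le_ofReal (by positivity) (hKμ v).le
    _ = ε := by
        rw [Finset.sum_const, nsmul_eq_mul, Finset.card_univ]
        field_simp

end Crest.Agent.R322
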