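import Crest.Agent.R322.Defs

/-!
# Row 322: assembly of the target from the interface propositions
-/

set_option autoImplicit false

namespace Crest.Agent.R322

/-- all the leaf tasks give the target -/
theorem asm
    (cnt : StCnt) (pm : StPm) (cap : StCap) (cellf : StCell) (kapf : StKap)
    (val : StKap → StVal) (potnn : StPm → StPotNN) (irrs : StCnt → StPm → StCell → StIrr)
    (fin : StCnt → StPm → StCell → StFin) (stage : StPm → StCap → StCell → StStage)
    (win : StPm → StKap → StCell → StWL0 → StWin) (slab : StSlab) (g1 : StSlab → StG1)
    (gb : StG1 → StGB) (h0 : StH0) (aff : StCnt → StCell → StAff) (mom : StAff → StMom)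
    (rep : StRep) (app : StApp) (miapp : StApp → StKap → StMIApp)
    (wl0 : StCell → StKap → StRep → StGB → StH0 → StMom → StMIApp → StWL0)
    (step : StKap → StWin → StStage → StStep)
    (core : StCnt → StPm → StCap → StCell → StKap → StVal → StPotNN → StIrr → StFin → StStep →
      StCore)
    (learn : StPm → StKap → StVal → StLearn) (refl : StPm → StKap → StRefl)
    (main : StPm → StCap → StKap → StVal → StCore → StLearn → StRefl → StMain) : StMain := by
  have hval := val kapf
  have hpot := potnn pm
  have hirr := irrs cnt pm cellf
  have hfin := fin cnt pm cellf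
  have hstage := stage pm cap cellf
  have hgb := gb (g1 slab)
  have hmom := mom (aff cnt cellf)
  have hmi := miapp app kapf
  have hwl0 := wl0 cellf kapf rep hgb h0 hmom hmi
  have hwin := win pm kapf cellf hwl0
  have hstep := step kapf hwin hstage
  have hcore := core cnt pm cap cellf kapf hval hpot hirr hfin hstep
  exact main pm cap kapf hval hcore (learn pm kapf hval) (refl pm kapf)

end Crest.Agent.R322
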