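import Crest.Agent.R322.PM

set_option autoImplicit false

open MeasureTheory ProbabilityTheory Set Metric
open scoped Pointwise ENNReal

namespace Crest.Agent.R322

namespace CAPaux

lemma cone_subset (d : ℕ) (y : E d) (r : ℝ) (hr1 : r ≤ 1) :
    Ioo (0 : ℝ) 1 • (closedBall y r ∩ sphere (0 : E d) 1) ⊆
      (1 - r) • (Ioo (0 : ℝ) 1 • (closedBall y r ∩ sphere (0 : E d) 1)) ∪
        closedBall y (2 * r) := by
  intro z hz
  obtain ⟨t, ⟨ht0, ht1⟩, x, ⟨hxy, hx1⟩, rfl⟩ := Set.mem_smul.1 hz
  rw [mem_closedBall] at hxy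
  rw [mem_sphere_iff_norm, sub_zero] at hx1
  by_cases h : t < 1 - r
  · left
    have h0 : 0 < 1 - r := lt_trans ht0 h
    refine Set.mem_smul_set.2 ⟨(t / (1 - r)) • x, ?_, ?_⟩
    · exact Set.mem_smul.2 ⟨t / (1 - r), ⟨div_pos ht0 h0, (div_lt_one h0).2 h⟩, x,
        ⟨mem_closedBall.2 hxy, by rw [mem_sphere_iff_norm, sub_zero, hx1]⟩, rfl⟩
    · rw [smul_smul, mul_div_cancel₀ _ h0.ne']
  · right
    rw [mem_closedBall]
    have h1 : dist (t • x) x ≤ r := by
      rw [dist_eq_norm, show t • x - x = (t - 1) • x by rw [sub_smul, one_smul], norm_smul, hx1,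
        mul_one, Real.norm_eq_abs, abs_le]
      constructor <;> linarith
    linarith [dist_triangle (t • x) x y]

end CAPaux

theorem cap : StCap := by
  intro d hd y r hr hr1
  haveI : Nonempty (Fin d) := ⟨⟨0, hd⟩⟩
  set K : Set (E d) := Ioo (0 : ℝ) 1 • (closedBall y r ∩ sphere (0 : E d) 1) with hK
  set V : ℝ := (volume : Measure (E d)).real (ball (0 : E d) 1) with hV
  have hVpos : 0 < V := ENNReal.toReal_pos (PMaux.vol_ball_ne_zero d) (PMaux.vol_ball_ne_top d)
  have hP : (Pm d).real (closedBall y r) = V⁻¹ * (volume : Measure (E d)).real K := by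
    rw [measureReal_def, PMaux.Pm_apply d hd measurableSet_closedBall, ENNReal.toReal_mul,
      ENNReal.toReal_inv]
    rfl
  have hKsub : K ⊆ ball (0 : E d) 1 := by
    intro z hz
    obtain ⟨t, ⟨ht0, ht1⟩, x, ⟨_, hx1⟩, rfl⟩ := Set.mem_smul.1 hz
    rw [mem_sphere_iff_norm, sub_zero] at hx1
    rw [mem_ball_zero_iff, norm_smul, hx1, mul_one, Real.norm_eq_abs, abs_of_pos ht0]
    exact ht1
  have hKfin : (volume : Measure (E d)) K ≠ ∞ :=
    ((measure_mono hKsub).trans_lt measure_ball_lt_top).ne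
  have h1r : 0 ≤ 1 - r := by linarith
  have hfr : Module.finrank ℝ (E d) = d := PMaux.finrank_E d
  have hsm : (volume : Measure (E d)).real ((1 - r) • K) =
      (1 - r) ^ d * (volume : Measure (E d)).real K := by
    rw [measureReal_def, Measure.addHaar_smul_of_nonneg _ h1r, hfr, ENNReal.toReal_mul,
      ENNReal.toReal_ofReal (pow_nonneg h1r d)]
    rfl
  have hbl : (volume : Measure (E d)).real (closedBall y (2 * r)) = (2 * r) ^ d * V := by
    rw [measureReal_def, Measure.addHaar_closedBall _ _ (by positivity), hfr, ENNReal.toReal_mul,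
      ENNReal.toReal_ofReal (by positivity)]
    rfl
  have hfin2 : (volume : Measure (E d)) ((1 - r) • K ∪ closedBall y (2 * r)) ≠ ∞ := by
    refine (measure_union_lt_top ?_ measure_closedBall_lt_top).ne
    rw [Measure.addHaar_smul_of_nonneg _ h1r]
    exact ENNReal.mul_lt_top ENNReal.ofReal_lt_top hKfin.lt_top
  have hmain : (volume : Measure (E d)).real K ≤
      (1 - r) ^ d * (volume : Measure (E d)).real K + (2 * r) ^ d * V := by
    calc (volume : Measure (E d)).real K
        ≤ (volume : Measure (E d)).real ((1 - r) • K ∪ closedBall y (2 * r)) :=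
          measureReal_mono (CAPaux.cone_subset d y r hr1) hfin2
      _ ≤ _ := by
          rw [← hsm, ← hbl]
          exact measureReal_union_le _ _
  have hpow : (1 - r) ^ d ≤ 1 - r := by
    calc (1 - r) ^ d ≤ (1 - r) ^ 1 := pow_le_pow_of_le_one h1r (by linarith) hd
      _ = 1 - r := pow_one _
  have hK0 : 0 ≤ (volume : Measure (E d)).real K := measureReal_nonneg
  have h3 : r * (volume : Measure (E d)).real K ≤ (2 * r) ^ d * V := by
    have := mul_le_mul_of_nonneg_right hpow hK0
    linarith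
  have h4 : r * (V⁻¹ * (volume : Measure (E d)).real K) ≤ (2 * r) ^ d := by
    have := mul_le_mul_of_nonneg_left h3 (inv_pos.2 hVpos).le
    calc r * (V⁻¹ * (volume : Measure (E d)).real K)
        = V⁻¹ * (r * (volume : Measure (E d)).real K) := by ring
      _ ≤ V⁻¹ * ((2 * r) ^ d * V) := this
      _ = (2 * r) ^ d := by field_simp
  have h5 : (2 * r) ^ d = r * (2 ^ d * r ^ (d - 1)) := by
    obtain ⟨e, rfl⟩ := Nat.exists_eq_add_of_le hd
    simp only [Nat.add_sub_cancel_left, mul_pow]
    ring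
  rw [hP]
  rw [h5] at h4
  exact le_of_mul_le_mul_left h4 hr

end Crest.Agent.R322
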