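import Mathlib
import Crest.Prelude.Def_StreamLearn

/-!
# Row 322 (S0499): one-pass learning of a vector from noiseless Gaussian measurements — interface

Closed propositions `StXxx`; the tasks (table `r322_tasks`) prove them.
-/

set_option autoImplicit false

open MeasureTheory ProbabilityTheory

namespace Crest.Agent.R322

/-- Euclidean space, same as `Crest.StreamLearn.E`. -/
abbrev E (d : ℕ) := EuclideanSpace ℝ (Fin d)

/-- the uniform law of the signal, pushed to `E d` -/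
noncomputable def Pm (d : ℕ) : Measure (E d) :=
  (Crest.StreamLearn.sphereUniform d).map (Subtype.val : Metric.sphere (0 : E d) 1 → E d)

/-- dyadic cells: side `2^-k / √d` -/
noncomputable def cell (d k : ℕ) (s : E d) : Fin d → ℤ :=
  fun i => ⌊(2:ℝ) ^ k * Real.sqrt d * s i⌋

/-- the cell set -/
def cs (d k : ℕ) (c : Fin d → ℤ) : Set (E d) := {s | cell d k s = c}

/-- `N` independent standard Gaussian rows -/
noncomputable def rows (d N : ℕ) : Measure (Fin N → E d) := Measure.pi fun _ => stdGaussian (E d)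

/-- the measurements -/
noncomputable def meas {d N : ℕ} (X : Fin N → E d) (s : E d) : Fin N → ℝ :=
  fun n => inner ℝ (X n) s

/-- a map into a finite type all of whose fibres are measurable -/
def MeasFin {α U : Type} [MeasurableSpace α] (f : α → U) : Prop := ∀ v, MeasurableSet (f ⁻¹' {v})

/-- transition kernel of a window -/
noncomputable def kap {d N : ℕ} {U : Type} (F : (Fin N → E d) × (Fin N → ℝ) → U) (s : E d) (v : U) :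
    ℝ := (rows d N).real {X | F (X, meas X s) = v}

open Classical in
/-- success probability (given the signal) of `n` more windows from the memory state `u`:
`F i` is used when `i+1` windows remain. -/
noncomputable def val {d N : ℕ} {U : Type} [Fintype U]
    (F : ℕ → U → (Fin N → E d) × (Fin N → ℝ) → U) (out : U → E d) (r : ℝ) : ℕ → U → E d → ℝ
  | 0, u, s => if dist s (out u) ≤ r then 1 else 0
  | n + 1, u, s => ∑ v, kap (F n u) s v * val F out r n v s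

/- the equation lemmas of `val` are generated here, once, so that later files share them -/
open Classical in
theorem val_zero_eq {d N : ℕ} {U : Type} [Fintype U]
    (F : ℕ → U → (Fin N → E d) × (Fin N → ℝ) → U) (out : U → E d) (r : ℝ) (u : U) (s : E d) :
    val F out r 0 u s = if dist s (out u) ≤ r then 1 else 0 := by
  rw [val.eq_def]

theorem val_succ_eq {d N : ℕ} {U : Type} [Fintype U]
    (F : ℕ → U → (Fin N → E d) × (Fin N → ℝ) → U) (out : U → E d) (r : ℝ) (n : ℕ) (u : U)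
    (s : E d) :
    val F out r (n + 1) u s = ∑ v, kap (F n u) s v * val F out r n v s := by
  simp only [val]

/-- `x log x` -/
noncomputable def xlx (x : ℝ) : ℝ := x * Real.log x

/-- mutual information of a finite-valued message with kernel `κ` under the prior `Q` -/
noncomputable def MI {Z U : Type} [MeasurableSpace Z] [Fintype U] (Q : Measure Z)
    (κ : Z → U → ℝ) : ℝ := ∑ v, ((∫ z, xlx (κ z v) ∂Q) - xlx (∫ z, κ z v ∂Q))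

/-! ## Geometry of the sphere and the cells -/

/-- number of integer points in a ball of radius `R √D` -/
def StCnt : Prop := ∀ (D : ℕ) (v : Fin D → ℝ) (R : ℝ), 1 ≤ R →
  {c : Fin D → ℤ | ∑ i, ((c i : ℝ) - v i) ^ 2 ≤ R ^ 2 * D}.Finite ∧
  (({c : Fin D → ℤ | ∑ i, ((c i : ℝ) - v i) ^ 2 ≤ R ^ 2 * D}).ncard : ℝ) ≤ (11 * R) ^ D

/-- basic facts on `Pm` -/
def StPm : Prop := ∀ d : ℕ, 1 ≤ d → IsProbabilityMeasure (Pm d) ∧ (∀ᵐ s ∂(Pm d), ‖s‖ = 1) ∧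
  (∀ f : E d ≃ₗᵢ[ℝ] E d, (Pm d).map f = Pm d)

/-- small balls -/
def StCap : Prop := ∀ d : ℕ, 1 ≤ d → ∀ (y : E d) (r : ℝ), 0 < r → r ≤ 1 →
  (Pm d).real (Metric.closedBall y r) ≤ 2 ^ d * r ^ (d - 1)

/-- basic facts on cells -/
def StCell : Prop := ∀ d k : ℕ, 1 ≤ d →
  (∀ c, MeasurableSet (cs d k c)) ∧
  (∀ s s' : E d, cell d k s = cell d k s' → dist s s' ≤ (2:ℝ)⁻¹ ^ k) ∧
  (∀ (m : ℕ) (s s' : E d), cell d (k + m) s = cell d (k + m) s' → cell d k s = cell d k s') ∧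
  (∀ c : Fin d → ℤ, ∀ m : ℕ, {c' | ∃ s, cell d k s = c ∧ cell d (k + m) s = c'}.Finite) ∧
  (∀ s : E d, ∑ i, ((cell d k s i : ℝ) - (2:ℝ) ^ k * Real.sqrt d * s i) ^ 2 ≤ d)

/-! ## Kernels -/

def StKap : Prop := ∀ (d N : ℕ) (U : Type) [Fintype U] (F : (Fin N → E d) × (Fin N → ℝ) → U),
  MeasFin F → (∀ v, Measurable (fun s => kap F s v)) ∧ (∀ s v, 0 ≤ kap F s v) ∧
  (∀ s v, kap F s v ≤ 1) ∧ (∀ s, ∑ v, kap F s v = 1)

def StVal : Prop := ∀ (d N : ℕ) (U : Type) [Fintype U]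
  (F : ℕ → U → (Fin N → E d) × (Fin N → ℝ) → U) (out : U → E d) (r : ℝ),
  (∀ i u, MeasFin (F i u)) → ∀ n u, Measurable (fun s => val F out r n u s) ∧
    (∀ s, 0 ≤ val F out r n u s) ∧ (∀ s, val F out r n u s ≤ 1)

/-! ## Densities, Frostman condition, potential -/

noncomputable def Zm {d : ℕ} (g : E d → ℝ) : ℝ := ∫ s, g s ∂(Pm d)

/-- `Zm g · KL(g Pm / Zm g ‖ Pm(· | cell c))` -/
noncomputable def Pot {d : ℕ} (k : ℕ) (c : Fin d → ℤ) (g : E d → ℝ) : ℝ :=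
  (∫ s, xlx (g s) ∂(Pm d)) - xlx (Zm g) + Zm g * Real.log ((Pm d).real (cs d k c))

structure Dens {d : ℕ} (k : ℕ) (c : Fin d → ℤ) (g : E d → ℝ) (a : ℝ) : Prop where
  meas : Measurable g
  nn : ∀ s, 0 ≤ g s
  le1 : ∀ s, g s ≤ 1
  supp : ∀ s, g s ≠ 0 → cell d k s = c
  one_le : 1 ≤ a
  fro : ∀ (m : ℕ) (c' : Fin d → ℤ), ∫ s in cs d (k + m) c', g s ∂(Pm d) ≤
    a * (2:ℝ) ^ (-(3 / 4 : ℝ) * d * m) * Zm g

def StPotNN : Prop := ∀ (d k : ℕ) (c : Fin d → ℤ) (g : E d → ℝ) (a : ℝ), 1 ≤ d → Dens k c g a →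
  0 ≤ Pot k c g

/-- irregular points -/
def irr (d L : ℕ) : Set (E d) :=
  {s | ∃ k ≤ L, (Pm d).real (cs d k (cell d k s)) < Real.exp (-5 * d) * ((2:ℝ) ^ (k * d))⁻¹}

def StIrr : Prop := ∀ d L : ℕ, 16 ≤ d → MeasurableSet (irr d L) ∧
  (Pm d).real (irr d L) ≤ (L + 1) * Real.exp (-d)

def StFin : Prop := ∀ (d k : ℕ) (c : Fin d → ℤ) (g : E d → ℝ) (a : ℝ), 16 ≤ d → Dens k c g a →
  ∀ (y : E d) (q L : ℕ), k < L →
    ∫ s in Metric.closedBall y ((2:ℝ)⁻¹ ^ (L + q)), g s ∂(Pm d) ≤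
      a * (22 * (2:ℝ) ^ (-(3 / 4 : ℝ) * q)) ^ d * Zm g

/-! ## The stage lemma -/

/-- decomposition of a density after a message into Frostman pieces -/
def StStage : Prop := ∀ (d k L : ℕ) (c : Fin d → ℤ) (g : E d → ℝ) (Γ : ℝ), 16 ≤ d →
  Measurable g → (∀ s, 0 ≤ g s) → (∀ s, g s ≤ 1) → (∀ s, g s ≠ 0 → cell d k s = c) →
  k ≤ L → 6 * (d:ℝ) + L ≤ Γ * d →
  Real.exp (-5 * d) * ((2:ℝ) ^ (k * d))⁻¹ ≤ (Pm d).real (cs d k c) →
  ∃ (J : Finset (ℕ × (Fin d → ℤ))) (h : ℕ × (Fin d → ℤ) → E d → ℝ) (b : ℕ × (Fin d → ℤ) → ℝ),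
    (∀ j ∈ J, Dens (k + j.1) j.2 (h j) (b j)) ∧
    (∀ s, ∑ j ∈ J, h j s = g s) ∧
    (∑ j ∈ J, Zm (h j) * Real.log (b j) ≤ (Γ * d + 2) * Zm g + ∑ j ∈ J, (j.1:ℝ) * Zm (h j)) ∧
    (∑ j ∈ J, Pot (k + j.1) j.2 (h j) ≤ Pot k c g + 2 * Zm g +
      (1 - (d / 4 - 1) * Real.log 2) * ∑ j ∈ J, (j.1:ℝ) * Zm (h j))

/-! ## The window lemma -/

/-- window lemma for densities -/
def StWin : Prop := ∃ C1 : ℝ, 0 < C1 ∧ ∀ (d k : ℕ) (c : Fin d → ℤ) (g : E d → ℝ) (a : ℝ),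
  16 ≤ d → Dens k c g a → ∀ (U : Type) [Fintype U] [Nonempty U]
    (F : (Fin (d / 16) → E d) × (Fin (d / 16) → ℝ) → U), MeasFin F →
    ∑ v, Pot k c (fun s => g s * kap F s v) ≤ Pot k c g +
      Zm g * (32 / d * Real.log (Fintype.card U) + C1 * d + Real.log a / 3)

/-- Frostman measures in the unit cell -/
structure UFro {d : ℕ} (Q : Measure (E d)) (a : ℝ) : Prop where
  prob : IsProbabilityMeasure Q
  supp : ∀ᵐ z ∂Q, cell d 0 z = 0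
  one_le : 1 ≤ a
  fro : ∀ (m : ℕ) (c : Fin d → ℤ), Q.real (cs d m c) ≤ a * (2:ℝ) ^ (-(3 / 4 : ℝ) * d * m)

/-- window lemma in the unit cell -/
def StWL0 : Prop := ∃ C1 : ℝ, 0 < C1 ∧ ∀ (d : ℕ) (Q : Measure (E d)) (a : ℝ), 16 ≤ d → UFro Q a →
  ∀ (U : Type) [Fintype U] [Nonempty U] (F : (Fin (d / 16) → E d) × (Fin (d / 16) → ℝ) → U),
    MeasFin F → MI Q (kap F) ≤
      32 / d * Real.log (Fintype.card U) + C1 * d + Real.log a / 3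

/-- distance of `w k` to the span of the previous vectors -/
noncomputable def dl {d m : ℕ} (w : Fin m → E d) (k : Fin m) : ℝ :=
  Metric.infDist (w k) (Submodule.span ℝ {v | ∃ i : Fin m, i < k ∧ v = w i} : Set (E d))

/-- distance of `z (k+1)` to the affine span of `z 0, …, z k` -/
noncomputable def del {d m : ℕ} (z : Fin (m + 1) → E d) (k : Fin m) : ℝ :=
  dl (fun i : Fin m => z i.succ - z 0) k

/-- Gaussian slab lemma -/
def StSlab : Prop := ∀ (d m : ℕ) (w : Fin m → E d) (r : ℝ), 0 ≤ r → (∀ k, 0 < dl w k) →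
  (stdGaussian (E d)).real {x | ∀ k, |inner ℝ x (w k)| ≤ r} ≤ ∏ k, (r / dl w k)

/-- negative moments of the distance to an affine subspace -/
def StAff : Prop := ∃ C : ℝ, 1 ≤ C ∧ ∀ (d : ℕ) (Q : Measure (E d)) (a : ℝ), 16 ≤ d → UFro Q a →
  ∀ (V : Submodule ℝ (E d)), Module.finrank ℝ V ≤ d / 16 → ∀ z0 : E d, cell d 0 z0 = 0 →
    ∫⁻ z, (ENNReal.ofReal (Metric.infDist (z - z0) (V : Set (E d)))) ^ (-((d:ℝ) / 4)) ∂Q ≤
      ENNReal.ofReal (a * C ^ d)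

/-- iterated negative moments -/
def StMom : Prop := ∃ C : ℝ, 1 ≤ C ∧ ∀ (d m : ℕ) (Q : Measure (E d)) (a : ℝ), 16 ≤ d → UFro Q a →
  m + 1 ≤ d / 16 →
    ∫⁻ z, ∏ k, (ENNReal.ofReal (del z k)) ^ (-((d:ℝ) / 4)) ∂(Measure.pi fun _ : Fin (m + 1) => Q) ≤
      (ENNReal.ofReal (a * C ^ d)) ^ m

open Classical in
/-- the finite replica lemma -/
def StRep : Prop := ∀ (Z : Type) [MeasurableSpace Z] (Q : Measure Z) [IsProbabilityMeasure Q]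
  (Y U : Type) [Fintype Y] [Fintype U] [Nonempty U] (ρ : Y → Z → ℝ) (lam : Y → ℝ) (ψ : Y → U)
  (m N : ℕ) (t Λ H0 D : ℝ) (Gs : (Fin (m + 1) → Z) → ℝ),
  (∀ y, Measurable (ρ y)) → (∀ y z, 0 ≤ ρ y z) → (∀ z, ∑ y, ρ y z = 1) →
  (∀ y, 0 ≤ lam y) → (∀ y z, lam y = 0 → ρ y z = 0) →
  Measurable Gs → (∀ z, 1 ≤ Gs z) → 1 ≤ D → 0 < t → (N:ℝ) < t →
  (∀ᵐ z ∂(Measure.pi fun _ : Fin (m + 1) => Q),
    ∑ y, (∏ j, ρ y (z j)) / (lam y) ^ m ≤ D * (Gs z) ^ N) →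
  (∫⁻ z, ENNReal.ofReal ((Gs z) ^ t) ∂(Measure.pi fun _ : Fin (m + 1) => Q) ≤
    ENNReal.ofReal (Real.exp Λ)) →
  (∑ y, (∫ z, ρ y z ∂Q) * Real.log (lam y / ∫ z, ρ y z ∂Q) ≤ H0) →
  ((m:ℝ) + 1) * MI Q (fun z v => ∑ y with ψ y = v, ρ y z) ≤ Real.log (Fintype.card U) +
    1 / (1 - N / t) * (N / t * Λ + m * H0 + Real.log D)

/-! ### discretisation of the rows -/

noncomputable def ixx {d : ℕ} (τ : ℝ) (x : E d) : Fin d → ℤ := fun i => ⌊x i * d / τ⌋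

noncomputable def idx {d : ℕ} (τ : ℝ) (x : E d) (β : ℝ) : (Fin d → ℤ) × ℤ := (ixx τ x, ⌊β / τ⌋)

noncomputable def rho1 {d : ℕ} (τ : ℝ) (p : (Fin d → ℤ) × ℤ) (z : E d) : ℝ :=
  (stdGaussian (E d)).real {x | idx τ x (inner ℝ x z) = p}

noncomputable def lam1 {d : ℕ} (τ : ℝ) (p : (Fin d → ℤ) × ℤ) : ℝ :=
  (stdGaussian (E d)).real {x | ixx τ x = p.1} * τ

/-- one-row bound -/
def StG1 : Prop := ∀ (d m : ℕ) (τ : ℝ) (z : Fin (m + 1) → E d), 1 ≤ d → 0 < τ → τ ≤ 1 →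
  (∀ j, ‖z j‖ ≤ 1) → (∀ k, 0 < del z k) → ∀ S : Finset ((Fin d → ℤ) × ℤ),
    ∑ p ∈ S, (∏ j, rho1 τ p (z j)) / (lam1 τ p) ^ m ≤ 4 * ∏ k, (3 / del z k)

open Classical in
/-- discretisation of `N` rows -/
noncomputable def Bx {d N : ℕ} (τ : ℝ) (S : Finset ((Fin d → ℤ) × ℤ))
    (p : (Fin N → E d) × (Fin N → ℝ)) : Option (Fin N → S) :=
  if h : ∀ n, idx τ (p.1 n) (p.2 n) ∈ S then some (fun n => ⟨idx τ (p.1 n) (p.2 n), h n⟩) else none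

noncomputable def rhoN {d : ℕ} (N : ℕ) (τ : ℝ) (S : Finset ((Fin d → ℤ) × ℤ))
    (y : Option (Fin N → S)) (z : E d) : ℝ :=
  (rows d N).real {X | Bx τ S (X, meas X z) = y}

noncomputable def lamN {d : ℕ} (N : ℕ) (τ : ℝ) (S : Finset ((Fin d → ℤ) × ℤ)) :
    Option (Fin N → S) → ℝ
  | none => 1
  | some f => ∏ n, lam1 τ (f n).1

/-- the kernel and weights of the discretisation -/
def StGB : Prop := ∀ (d m N : ℕ) (τ : ℝ) (S : Finset ((Fin d → ℤ) × ℤ)), 1 ≤ d → 0 < τ → τ ≤ 1 →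
  (∀ y, Measurable (rhoN N τ S y)) ∧ (∀ y z, 0 ≤ rhoN N τ S y z) ∧
  (∀ z, ∑ y, rhoN N τ S y z = 1) ∧ (∀ y, 0 ≤ lamN N τ S y) ∧
  (∀ y z, lamN N τ S y = 0 → rhoN N τ S y z = 0) ∧
  (∀ z : Fin (m + 1) → E d, (∀ j, ‖z j‖ ≤ 1) → (∀ k, 0 < del z k) → (∀ k, del z k ≤ 1) →
    ∑ y, (∏ j, rhoN N τ S y (z j)) / (lamN N τ S y) ^ m ≤ 2 * (4 * ∏ k, (3 / del z k)) ^ N)

/-- the entropy term -/
def StH0 : Prop := ∀ (d N : ℕ) (τ : ℝ) (S : Finset ((Fin d → ℤ) × ℤ)) (Q : Measure (E d))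
  [IsProbabilityMeasure Q], 1 ≤ d → 1 ≤ N → 0 < τ → τ ≤ 1 → (∀ᵐ z ∂Q, ‖z‖ ≤ 1) →
  ∑ y, (∫ z, rhoN N τ S y z ∂Q) * Real.log (lamN N τ S y / ∫ z, rhoN N τ S y z ∂Q) ≤ 7 * N

/-- approximation of a finite-valued measurable map by box-constant maps -/
def StApp : Prop := ∀ (d N : ℕ) (U : Type) [Fintype U] [Nonempty U]
  (F : (Fin N → E d) × (Fin N → ℝ) → U), 1 ≤ d → MeasFin F →
  ∀ (μ : Measure ((Fin N → E d) × (Fin N → ℝ))) [IsProbabilityMeasure μ] (ε : ℝ), 0 < ε →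
    ∃ τ : ℝ, 0 < τ ∧ τ ≤ 1 ∧ ∃ (S : Finset ((Fin d → ℤ) × ℤ)) (ψ : Option (Fin N → S) → U),
      μ.real {p | F p ≠ ψ (Bx τ S p)} ≤ ε

open Classical in
/-- approximation of the mutual information -/
def StMIApp : Prop := ∀ (d N : ℕ) (U : Type) [Fintype U] [Nonempty U]
  (F : (Fin N → E d) × (Fin N → ℝ) → U), 1 ≤ d → MeasFin F →
  ∀ (Q : Measure (E d)) [IsProbabilityMeasure Q] (ε : ℝ), 0 < ε →
    ∃ τ : ℝ, 0 < τ ∧ τ ≤ 1 ∧ ∃ (S : Finset ((Fin d → ℤ) × ℤ)) (ψ : Option (Fin N → S) → U),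
      MI Q (kap F) ≤ MI Q (fun z v => ∑ y with ψ y = v, rhoN N τ S y z) + ε

/-! ## One window step and the core theorem -/

/-- one window: message, then stage decomposition of every branch -/
def StStep : Prop := ∃ C1 : ℝ, 0 < C1 ∧ ∀ (d k L : ℕ) (c : Fin d → ℤ) (g : E d → ℝ) (a Γ : ℝ),
  16 ≤ d → Dens k c g a → k ≤ L → 6 * (d:ℝ) + L ≤ Γ * d →
  Real.exp (-5 * d) * ((2:ℝ) ^ (k * d))⁻¹ ≤ (Pm d).real (cs d k c) →
  ∀ (U : Type) [Fintype U] [Nonempty U]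
    (F : (Fin (d / 16) → E d) × (Fin (d / 16) → ℝ) → U), MeasFin F →
  ∃ (J : U → Finset (ℕ × (Fin d → ℤ))) (h : U → ℕ × (Fin d → ℤ) → E d → ℝ)
    (b : U → ℕ × (Fin d → ℤ) → ℝ),
    (∀ v, ∀ j ∈ J v, Dens (k + j.1) j.2 (h v j) (b v j)) ∧
    (∀ v s, ∑ j ∈ J v, h v j s = g s * kap F s v) ∧
    (∑ v, ∑ j ∈ J v, Zm (h v j) * Real.log (b v j) ≤
      (Γ * d + 2) * Zm g + ∑ v, ∑ j ∈ J v, (j.1:ℝ) * Zm (h v j)) ∧
    (∑ v, ∑ j ∈ J v, Pot (k + j.1) j.2 (h v j) ≤ Pot k c g +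
      Zm g * (32 / d * Real.log (Fintype.card U) + C1 * d + 2 + Real.log a / 3) +
      (1 - (d / 4 - 1) * Real.log 2) * ∑ v, ∑ j ∈ J v, (j.1:ℝ) * Zm (h v j))

/-- the core theorem -/
def StCore : Prop := ∀ A lam : ℝ, 0 < A → 0 < lam → ∃ c' : ℝ, 0 < c' ∧ ∃ q L0 d0 : ℕ,
  ∀ d ≥ d0, ∀ L : ℕ, L0 ≤ L → (L:ℝ) ≤ lam * d → ∀ (U : Type) [Fintype U] [Nonempty U],
    Real.log (Fintype.card U) ≤ A * (d:ℝ) ^ 2 → ∀ n : ℕ, 1 ≤ n → (n:ℝ) ≤ c' * L →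
    ∀ (F : ℕ → U → (Fin (d / 16) → E d) × (Fin (d / 16) → ℝ) → U), (∀ i u, MeasFin (F i u)) →
    ∀ (out : U → E d) (u0 : U),
      ∫ s, val F out ((2:ℝ)⁻¹ ^ (L + q)) n u0 s ∂(Pm d) ≤ 1 / 2

/-! ## Learners -/

/-- reduction of a learner to windows -/
def StLearn : Prop := ∀ (d T M N n : ℕ), 1 ≤ d → 1 ≤ N → T ≤ n * N →
  ∀ (L : Crest.StreamLearn.RLearner d T M) (ε : ℝ),
  ∃ (U : Type) (_ : Fintype U) (_ : Nonempty U)
    (F : ℕ → U → (Fin N → E d) × (Fin N → ℝ) → U) (out : U → E d) (u0 : U),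
    Fintype.card U ≤ 2 ^ M * (T + 2) ∧ (∀ i u, MeasFin (F i u)) ∧
    L.successProb ε ≤ ∫ s, val F out ε n u0 s ∂(Pm d)

/-- few rows: reflection argument -/
def StRefl : Prop := ∀ (d N : ℕ) (U : Type) [Fintype U]
  (F : ℕ → U → (Fin N → E d) × (Fin N → ℝ) → U) (out : U → E d) (u0 : U), 16 ≤ d → 8 * N ≤ d →
  (∀ i u, MeasFin (F i u)) → ∫ s, val F out (1 / 10) 1 u0 s ∂(Pm d) ≤ 3 / 5

/-- the target -/
def StMain : Prop :=
    ∀ A : ℝ, 0 < A → ∃ c : ℝ, 0 < c ∧ ∃ d₀ : ℕ, ∀ d ≥ d₀, ∀ (M T : ℕ),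
      (M : ℝ) ≤ A * (d : ℝ) ^ 2 → ∀ ε : ℝ, 0 < ε → ε ≤ 1 / 10 →
        ∀ L : Crest.StreamLearn.RLearner d T M,
          2 / 3 ≤ L.successProb ε → c * d * Real.log (1 / ε) ≤ T

end Crest.Agent.R322
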