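import Mathlib
import Crest.Agent.R322.Defs

/-!
# Row 322, task CELL: elementary facts on the dyadic cells (helper12)
-/

set_option autoImplicit false

open MeasureTheory

namespace Crest.Agent.R322

namespace CellAux

theorem cell_coarse {d : ℕ} (k m : ℕ) (s : E d) (i : Fin d) :
    cell d k s i = cell d (k + m) s i / (2 ^ m : ℕ) := by
  unfold cell
  rw [← Int.floor_div_natCast]
  congr 1
  push_cast
  rw [pow_add]
  field_simp

end CellAux

open CellAux in
theorem cell_facts : StCell := by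
  intro d k hd
  have hd0 : (0:ℝ) < d := by exact_mod_cast hd
  have hsq : 0 < Real.sqrt d := Real.sqrt_pos.mpr hd0
  have hk : (0:ℝ) < 2 ^ k := by positivity
  refine ⟨?_, ?_, ?_, ?_, ?_⟩
  · intro c
    have h1 : cs d k c = ⋂ i, {s : E d | ⌊(2:ℝ) ^ k * Real.sqrt d * s i⌋ = c i} := by
      ext s
      simp only [cs, cell, Set.mem_ofPred_eq, Set.mem_iInter]
      exact funext_iff
    rw [h1]
    apply MeasurableSet.iInter
    intro i
    have h2 : Measurable (fun s : E d => ⌊(2:ℝ) ^ k * Real.sqrt d * s i⌋) := by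
      apply Int.measurable_floor.comp
      apply Measurable.const_mul
      fun_prop
    exact h2 (measurableSet_singleton (c i))
  · intro s s' h
    rw [EuclideanSpace.dist_eq]
    have h1 : ∀ i, dist (s i) (s' i) ^ 2 ≤ ((2:ℝ)⁻¹ ^ k) ^ 2 / d := by
      intro i
      have h2 := congrFun h i
      unfold cell at h2
      have h3 := Int.abs_sub_lt_one_of_floor_eq_floor h2
      have h4 : (2:ℝ) ^ k * Real.sqrt d * s i - (2:ℝ) ^ k * Real.sqrt d * s' i =
          (2:ℝ) ^ k * Real.sqrt d * (s i - s' i) := by ring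
      rw [h4, abs_mul, abs_of_pos (by positivity)] at h3
      have h5 : |s i - s' i| ≤ (2:ℝ)⁻¹ ^ k / Real.sqrt d := by
        rw [le_div_iff₀ hsq, inv_pow, ← one_div, le_div_iff₀ hk]
        linarith
      rw [Real.dist_eq]
      calc |s i - s' i| ^ 2 ≤ ((2:ℝ)⁻¹ ^ k / Real.sqrt d) ^ 2 :=
            pow_le_pow_left₀ (abs_nonneg _) h5 2
        _ = ((2:ℝ)⁻¹ ^ k) ^ 2 / d := by rw [div_pow, Real.sq_sqrt hd0.le]
    calc Real.sqrt (∑ i, dist (s i) (s' i) ^ 2) ≤ Real.sqrt (∑ _i : Fin d, ((2:ℝ)⁻¹ ^ k) ^ 2 / d) :=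
          Real.sqrt_le_sqrt (Finset.sum_le_sum fun i _ => h1 i)
      _ = Real.sqrt (((2:ℝ)⁻¹ ^ k) ^ 2) := by
          rw [Finset.sum_const, Finset.card_univ, Fintype.card_fin, nsmul_eq_mul,
            mul_div_cancel₀ _ hd0.ne']
      _ = (2:ℝ)⁻¹ ^ k := Real.sqrt_sq (by positivity)
  · intro m s s' h
    funext i
    rw [cell_coarse k m, cell_coarse k m, h]
  · intro c m
    apply Set.Finite.subset (Set.Finite.pi (fun i =>
      Set.finite_Icc ((2 ^ m : ℕ) * c i) ((2 ^ m : ℕ) * c i + (2 ^ m : ℕ))))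
    rintro c' ⟨s, hs, hs'⟩
    rw [Set.mem_univ_pi]
    intro i
    have h1 := cell_coarse k m s i
    rw [hs, hs'] at h1
    have h2 : (0:ℤ) < (2 ^ m : ℕ) := by positivity
    have h3 := Int.mul_ediv_add_emod (c' i) (2 ^ m : ℕ)
    have h4 := Int.emod_nonneg (c' i) h2.ne'
    have h5 := Int.emod_lt_of_pos (c' i) h2
    rw [← h1] at h3
    rw [Set.mem_Icc]
    constructor <;> linarith
  · intro s
    calc ∑ i, ((cell d k s i : ℝ) - (2:ℝ) ^ k * Real.sqrt d * s i) ^ 2 ≤ ∑ _i : Fin d, (1:ℝ) := by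
          apply Finset.sum_le_sum
          intro i _
          unfold cell
          have h1 := Int.floor_le ((2:ℝ) ^ k * Real.sqrt d * s i)
          have h2 := Int.lt_floor_add_one ((2:ℝ) ^ k * Real.sqrt d * s i)
          nlinarith
      _ = d := by simp

end Crest.Agent.R322
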