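import Mathlib
import Crest.Agent.R322.Defs

/-!
# Row 322, task CNT: integer points in a ball (helper12)
-/

set_option autoImplicit false

namespace Crest.Agent.R322

namespace Cnt

theorem one_sub_inv_le {R : ℝ} (hR : 1 ≤ R) : (1 - Real.exp (-(1 / R)))⁻¹ ≤ 2 * R := by
  have hR0 : 0 < R := by linarith
  have h1 : 1 + 1 / R ≤ Real.exp (1 / R) := by
    have := Real.add_one_le_exp (1 / R); linarith
  have h2 : Real.exp (-(1 / R)) ≤ (1 + 1 / R)⁻¹ := by
    rw [Real.exp_neg]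
    exact inv_anti₀ (by positivity) h1
  have h3 : (1 + 1 / R)⁻¹ = R / (R + 1) := by
    field_simp
  have h4 : (2 * R)⁻¹ ≤ 1 - Real.exp (-(1 / R)) := by
    have h5 : (2 * R)⁻¹ ≤ 1 - R / (R + 1) := by
      have : 1 - R / (R + 1) = (R + 1)⁻¹ := by field_simp; ring
      rw [this]
      exact inv_anti₀ (by linarith) (by linarith)
    linarith
  calc (1 - Real.exp (-(1 / R)))⁻¹ ≤ ((2 * R)⁻¹)⁻¹ := inv_anti₀ (by positivity) h4
    _ = 2 * R := inv_inv _

theorem half {R : ℝ} (hR : 1 ≤ R) (T : Finset ℤ) (φ : ℤ → ℕ) (w : ℤ → ℝ)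
    (hinj : Set.InjOn φ T) (hw : ∀ n ∈ T, (φ n : ℝ) ≤ w n) :
    ∑ n ∈ T, Real.exp (-(w n / R)) ≤ 2 * R := by
  have hR0 : 0 < R := by linarith
  set q := Real.exp (-(1 / R)) with hq
  have hq0 : 0 ≤ q := (Real.exp_pos _).le
  have hq1 : q < 1 := by
    rw [hq, Real.exp_lt_one_iff]
    have : 0 < 1 / R := by positivity
    linarith
  calc ∑ n ∈ T, Real.exp (-(w n / R)) ≤ ∑ n ∈ T, q ^ (φ n) := by
        apply Finset.sum_le_sum
        intro n hn
        rw [hq, ← Real.exp_nat_mul]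
        apply Real.exp_le_exp.mpr
        have h1 := hw n hn
        have h2 : (φ n : ℝ) / R ≤ w n / R := div_le_div_of_nonneg_right h1 hR0.le
        have h3 : (φ n : ℝ) * -(1 / R) = -((φ n : ℝ) / R) := by ring
        rw [h3]; linarith
    _ = ∑ j ∈ T.image φ, q ^ j := by
        rw [Finset.sum_image hinj]
    _ ≤ ∑' j : ℕ, q ^ j :=
        (summable_geometric_of_lt_one hq0 hq1).sum_le_tsum _ fun j _ => pow_nonneg hq0 j
    _ = (1 - q)⁻¹ := tsum_geometric_of_lt_one hq0 hq1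
    _ ≤ 2 * R := one_sub_inv_le hR

theorem one_dim {R : ℝ} (hR : 1 ≤ R) (v : ℝ) (T : Finset ℤ) :
    ∑ n ∈ T, Real.exp (-(|(n:ℝ) - v| / R)) ≤ 4 * R := by
  rw [← Finset.sum_filter_add_sum_filter_not T (fun n : ℤ => v ≤ n)]
  have h1 : ∑ n ∈ T.filter (fun n : ℤ => v ≤ n), Real.exp (-(|(n:ℝ) - v| / R)) ≤ 2 * R := by
    apply half hR _ (fun n => (n - ⌈v⌉).toNat)
    · intro a ha b hb hab
      simp only [Finset.coe_filter, Set.mem_ofPred_eq] at ha hb
      have ha' : ⌈v⌉ ≤ a := Int.ceil_le.mpr ha.2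
      have hb' : ⌈v⌉ ≤ b := Int.ceil_le.mpr hb.2
      simp only at hab
      omega
    · intro n hn
      have hn' : ⌈v⌉ ≤ n := Int.ceil_le.mpr (Finset.mem_filter.mp hn).2
      have h2 : (((n - ⌈v⌉).toNat : ℤ) : ℝ) = ((n - ⌈v⌉ : ℤ) : ℝ) := by
        rw [Int.toNat_of_nonneg (by omega)]
      have h3 : (((n - ⌈v⌉).toNat : ℕ) : ℝ) = (n:ℝ) - ⌈v⌉ := by
        rw [← Int.cast_natCast, h2]; push_cast; ring
      rw [h3]
      have h4 := Int.le_ceil v
      rw [abs_of_nonneg (by linarith [(Finset.mem_filter.mp hn).2])]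
      linarith
  have h2 : ∑ n ∈ T.filter (fun n : ℤ => ¬ v ≤ n), Real.exp (-(|(n:ℝ) - v| / R)) ≤ 2 * R := by
    apply half hR _ (fun n => (⌊v⌋ - n).toNat)
    · intro a ha b hb hab
      simp only [Finset.coe_filter, Set.mem_ofPred_eq, not_le] at ha hb
      have ha' : a ≤ ⌊v⌋ := Int.le_floor.mpr ha.2.le
      have hb' : b ≤ ⌊v⌋ := Int.le_floor.mpr hb.2.le
      simp only at hab
      omega
    · intro n hn
      have hn1 : (n:ℝ) < v := not_le.mp (Finset.mem_filter.mp hn).2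
      have hn' : n ≤ ⌊v⌋ := Int.le_floor.mpr hn1.le
      have h2 : (((⌊v⌋ - n).toNat : ℤ) : ℝ) = ((⌊v⌋ - n : ℤ) : ℝ) := by
        rw [Int.toNat_of_nonneg (by omega)]
      have h3 : (((⌊v⌋ - n).toNat : ℕ) : ℝ) = (⌊v⌋:ℝ) - n := by
        rw [← Int.cast_natCast, h2]; push_cast; ring
      rw [h3]
      have h4 := Int.floor_le v
      rw [abs_of_neg (by linarith)]
      linarith
  linarith

theorem l1 {D : ℕ} {v : Fin D → ℝ} {R : ℝ} (hR : 1 ≤ R) {c : Fin D → ℤ}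
    (h : ∑ i, ((c i : ℝ) - v i) ^ 2 ≤ R ^ 2 * D) : ∑ i, |(c i : ℝ) - v i| / R ≤ D := by
  have hR0 : 0 < R := by linarith
  have h1 : ∀ i, |(c i : ℝ) - v i| / R ≤ ((c i : ℝ) - v i) ^ 2 / (2 * R ^ 2) + 1 / 2 := by
    intro i
    have h2 : 0 ≤ (|(c i : ℝ) - v i| / R - 1) ^ 2 := sq_nonneg _
    have h3 : (|(c i : ℝ) - v i| / R) ^ 2 = ((c i : ℝ) - v i) ^ 2 / R ^ 2 := by
      rw [div_pow, sq_abs]
    have h4 : ((c i : ℝ) - v i) ^ 2 / (2 * R ^ 2) = ((c i : ℝ) - v i) ^ 2 / R ^ 2 / 2 := by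
      field_simp
    rw [h4, ← h3]; nlinarith
  calc ∑ i, |(c i : ℝ) - v i| / R ≤ ∑ i, (((c i : ℝ) - v i) ^ 2 / (2 * R ^ 2) + 1 / 2) :=
        Finset.sum_le_sum fun i _ => h1 i
    _ = (∑ i, ((c i : ℝ) - v i) ^ 2) / (2 * R ^ 2) + D / 2 := by
        rw [Finset.sum_add_distrib, ← Finset.sum_div]
        simp [div_eq_mul_inv]
    _ ≤ (R ^ 2 * D) / (2 * R ^ 2) + D / 2 := by
        have := div_le_div_of_nonneg_right h (by positivity : (0:ℝ) ≤ 2 * R ^ 2)
        linarith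
    _ = D := by field_simp; ring

end Cnt

open Cnt in
theorem cnt : StCnt := by
  intro D v R hR
  classical
  have hR0 : 0 < R := by linarith
  set A := {c : Fin D → ℤ | ∑ i, ((c i : ℝ) - v i) ^ 2 ≤ R ^ 2 * D} with hA
  set T : Fin D → Finset ℤ := fun i => Finset.Icc ⌈v i - R * D⌉ ⌊v i + R * D⌋ with hT
  have hsub : A ⊆ ↑(Fintype.piFinset T) := by
    intro c hc
    have h1 := l1 hR hc
    rw [Finset.mem_coe, Fintype.mem_piFinset]
    intro i
    have h2 : |(c i : ℝ) - v i| / R ≤ D :=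
      (Finset.single_le_sum (f := fun i => |(c i : ℝ) - v i| / R)
        (fun j _ => by positivity) (Finset.mem_univ i)).trans h1
    rw [div_le_iff₀ hR0, abs_le] at h2
    rw [hT, Finset.mem_Icc, Int.ceil_le, Int.le_floor]
    constructor <;> linarith [h2.1, h2.2]
  have hfin : A.Finite := Set.Finite.subset (Finset.finite_toSet _) hsub
  refine ⟨hfin, ?_⟩
  rw [Set.ncard_eq_toFinset_card A hfin]
  calc ((hfin.toFinset.card : ℕ) : ℝ) = ∑ c ∈ hfin.toFinset, (1:ℝ) := by simp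
    _ ≤ ∑ c ∈ hfin.toFinset, Real.exp 1 ^ D * ∏ i, Real.exp (-(|(c i : ℝ) - v i| / R)) := by
        apply Finset.sum_le_sum
        intro c hc
        rw [Set.Finite.mem_toFinset] at hc
        have h1 := l1 hR hc
        rw [← Real.exp_nat_mul, ← Real.exp_sum, ← Real.exp_add]
        apply Real.one_le_exp
        rw [Finset.sum_neg_distrib]; linarith
    _ = Real.exp 1 ^ D * ∑ c ∈ hfin.toFinset, ∏ i, Real.exp (-(|(c i : ℝ) - v i| / R)) := by
        rw [Finset.mul_sum]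
    _ ≤ Real.exp 1 ^ D * ∑ c ∈ Fintype.piFinset T, ∏ i, Real.exp (-(|(c i : ℝ) - v i| / R)) := by
        apply mul_le_mul_of_nonneg_left _ (by positivity)
        apply Finset.sum_le_sum_of_subset_of_nonneg
        · intro c hc
          rw [Set.Finite.mem_toFinset] at hc
          exact Finset.mem_coe.mp (hsub hc)
        · intro c _ _; positivity
    _ = Real.exp 1 ^ D * ∏ i, ∑ n ∈ T i, Real.exp (-(|(n : ℝ) - v i| / R)) := by
        rw [Finset.prod_univ_sum]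
    _ ≤ Real.exp 1 ^ D * ∏ _i : Fin D, (4 * R) := by
        apply mul_le_mul_of_nonneg_left _ (by positivity)
        apply Finset.prod_le_prod
        · intro i _; positivity
        · intro i _; exact one_dim hR (v i) (T i)
    _ = (Real.exp 1 * (4 * R)) ^ D := by
        rw [Finset.prod_const, Finset.card_univ, Fintype.card_fin, mul_pow (Real.exp 1)]
    _ ≤ (11 * R) ^ D := by
        apply pow_le_pow_left₀ (by positivity)
        have := Real.exp_one_lt_d9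
        nlinarith

end Crest.Agent.R322
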