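import Crest.Agent.R322.Defs

/-! Row 322, task CORE: the core theorem. -/

set_option autoImplicit false

open MeasureTheory ProbabilityTheory

namespace Crest.Agent.R322

namespace CORE

/-- bounded measurable functions are integrable -/
theorem integrable_bdd {α : Type*} [MeasurableSpace α] {ν : Measure α} [IsFiniteMeasure ν]
    {f : α → ℝ} (hm : Measurable f) (h0 : ∀ s, 0 ≤ f s) (h1 : ∀ s, f s ≤ 1) : Integrable f ν := by
  refine Integrable.of_bound hm.aestronglyMeasurable 1 (ae_of_all _ fun s => ?_)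
  rw [Real.norm_eq_abs, abs_of_nonneg (h0 s)]
  exact h1 s

theorem Zm_nonneg {d : ℕ} {g : E d → ℝ} (h0 : ∀ s, 0 ≤ g s) : 0 ≤ Zm g :=
  integral_nonneg h0

/-- sum of the pieces -/
theorem sum_pieces {d : ℕ} {U : Type} [Fintype U] {ν : Measure (E d)} [IsFiniteMeasure ν]
    {κ : E d → U → ℝ} (hκ : ∀ s, ∑ v, κ s v = 1) {g : E d → ℝ}
    {J : U → Finset (ℕ × (Fin d → ℤ))} {h : U → ℕ × (Fin d → ℤ) → E d → ℝ}
    (hm : ∀ v, ∀ j ∈ J v, Measurable (h v j)) (h0 : ∀ v, ∀ j ∈ J v, ∀ s, 0 ≤ h v j s)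
    (h1 : ∀ v, ∀ j ∈ J v, ∀ s, h v j s ≤ 1)
    (hs : ∀ v s, ∑ j ∈ J v, h v j s = g s * κ s v) :
    ∑ v, ∑ j ∈ J v, ∫ s, h v j s ∂ν = ∫ s, g s ∂ν := by
  have e1 : ∀ v, ∑ j ∈ J v, ∫ s, h v j s ∂ν = ∫ s, ∑ j ∈ J v, h v j s ∂ν := fun v =>
    (integral_finsetSum _ fun j hj => integrable_bdd (hm v j hj) (h0 v j hj) (h1 v j hj)).symm
  rw [Finset.sum_congr rfl fun v _ => e1 v, ← integral_finsetSum]
  · refine integral_congr_ae (ae_of_all _ fun s => ?_)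
    simp only [hs, ← Finset.mul_sum, hκ, mul_one]
  · intro v _
    exact integrable_finsetSum _ fun j hj => integrable_bdd (hm v j hj) (h0 v j hj) (h1 v j hj)

theorem sum_pieces_val {d : ℕ} {U : Type} [Fintype U] {ν : Measure (E d)} [IsFiniteMeasure ν]
    {κ : E d → U → ℝ} {g : E d → ℝ} {w : U → E d → ℝ}
    {J : U → Finset (ℕ × (Fin d → ℤ))} {h : U → ℕ × (Fin d → ℤ) → E d → ℝ}
    (hm : ∀ v, ∀ j ∈ J v, Measurable (h v j)) (h0 : ∀ v, ∀ j ∈ J v, ∀ s, 0 ≤ h v j s)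
    (h1 : ∀ v, ∀ j ∈ J v, ∀ s, h v j s ≤ 1)
    (wm : ∀ v, Measurable (w v)) (w0 : ∀ v s, 0 ≤ w v s) (w1 : ∀ v s, w v s ≤ 1)
    (hs : ∀ v s, ∑ j ∈ J v, h v j s = g s * κ s v) :
    ∫ s, g s * ∑ v, κ s v * w v s ∂ν = ∑ v, ∑ j ∈ J v, ∫ s, h v j s * w v s ∂ν := by
  have hi : ∀ v, ∀ j ∈ J v, Integrable (fun s => h v j s * w v s) ν := fun v j hj =>
    integrable_bdd ((hm v j hj).mul (wm v)) (fun s => mul_nonneg (h0 v j hj s) (w0 v s))
      (fun s => mul_le_one₀ (h1 v j hj s) (w0 v s) (w1 v s))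
  have e1 : ∀ v, ∑ j ∈ J v, ∫ s, h v j s * w v s ∂ν = ∫ s, ∑ j ∈ J v, h v j s * w v s ∂ν :=
    fun v => (integral_finsetSum _ fun j hj => hi v j hj).symm
  rw [Finset.sum_congr rfl fun v _ => e1 v, ← integral_finsetSum]
  · refine integral_congr_ae (ae_of_all _ fun s => ?_)
    simp only [← Finset.sum_mul, hs, Finset.mul_sum, mul_assoc]
  · intro v _
    exact integrable_finsetSum _ fun j hj => hi v j hj

/-- `min (1, b e^{-x}) ≤ e^{-x/2} + 2 log b / x` -/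
theorem min_bound {b x Z t : ℝ} (hb : 1 ≤ b) (hx : 0 < x) (hZ : 0 ≤ Z) (h1 : t ≤ Z)
    (h2 : t ≤ b * Real.exp (-x) * Z) : t ≤ (Real.exp (-x / 2) + 2 * Real.log b / x) * Z := by
  have hlb : 0 ≤ Real.log b := Real.log_nonneg hb
  rcases le_total (Real.log b) (x / 2) with h | h
  · have hb' : b ≤ Real.exp (x / 2) := by
      rw [← Real.log_le_iff_le_exp (by linarith)]; exact h
    have h3 : b * Real.exp (-x) ≤ Real.exp (-x / 2) := by
      calc b * Real.exp (-x) ≤ Real.exp (x / 2) * Real.exp (-x) :=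
            mul_le_mul_of_nonneg_right hb' (Real.exp_pos _).le
        _ = Real.exp (-x / 2) := by rw [← Real.exp_add]; ring_nf
    refine h2.trans ?_
    refine mul_le_mul_of_nonneg_right (h3.trans ?_) hZ
    have : 0 ≤ 2 * Real.log b / x := by positivity
    linarith
  · refine h1.trans ?_
    have h3 : 1 ≤ 2 * Real.log b / x := by
      rw [le_div_iff₀ hx]; linarith
    have h4 : 0 ≤ Real.exp (-x / 2) := (Real.exp_pos _).le
    nlinarith

theorem log2_bounds : (0.6931 : ℝ) < Real.log 2 ∧ Real.log 2 < 0.6932 :=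
  ⟨by linarith [Real.log_two_gt_d9], by linarith [Real.log_two_lt_d9]⟩

/-- support in the cell gives: `g` lives in `irr` if the cell is irregular -/
theorem irr_case {d k L : ℕ} {c : Fin d → ℤ} {g : E d → ℝ} (hirr : MeasurableSet (irr d L))
    (hsupp : ∀ s, g s ≠ 0 → cell d k s = c) (hk : k ≤ L)
    (hP : (Pm d).real (cs d k c) < Real.exp (-5 * d) * ((2:ℝ) ^ (k * d))⁻¹) :
    ∫ s in irr d L, g s ∂(Pm d) = Zm g := by
  unfold Zm
  rw [← integral_indicator hirr]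
  refine integral_congr_ae (ae_of_all _ fun s => ?_)
  by_cases hs : g s = 0
  · by_cases h : s ∈ irr d L
    · simp [Set.indicator_of_mem h]
    · simp [Set.indicator_of_notMem h, hs]
  · have : s ∈ irr d L := ⟨k, hk, by rw [hsupp s hs]; exact hP⟩
    simp [Set.indicator_of_mem this]

/-- the statement inside `StStep` -/
def StepC (C1 : ℝ) : Prop := ∀ (d k L : ℕ) (c : Fin d → ℤ) (g : E d → ℝ) (a Γ : ℝ),
  16 ≤ d → Dens k c g a → k ≤ L → 6 * (d:ℝ) + L ≤ Γ * d →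
  Real.exp (-5 * d) * ((2:ℝ) ^ (k * d))⁻¹ ≤ (Pm d).real (cs d k c) →
  ∀ (U : Type) [Fintype U] [Nonempty U]
    (F : (Fin (d / 16) → E d) × (Fin (d / 16) → ℝ) → U), MeasFin F →
  ∃ (J : U → Finset (ℕ × (Fin d → ℤ))) (h : U → ℕ × (Fin d → ℤ) → E d → ℝ)
    (b : U → ℕ × (Fin d → ℤ) → ℝ),
    (∀ v, ∀ j ∈ J v, Dens (k + j.1) j.2 (h v j) (b v j)) ∧
    (∀ v s, ∑ j ∈ J v, h v j s = g s * kap F s v) ∧
    (∑ v, ∑ j ∈ J v, Zm (h v j) * Real.log (b v j) ≤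
      (Γ * d + 2) * Zm g + ∑ v, ∑ j ∈ J v, (j.1:ℝ) * Zm (h v j)) ∧
    (∑ v, ∑ j ∈ J v, Pot (k + j.1) j.2 (h v j) ≤ Pot k c g +
      Zm g * (32 / d * Real.log (Fintype.card U) + C1 * d + 2 + Real.log a / 3) +
      (1 - (d / 4 - 1) * Real.log 2) * ∑ v, ∑ j ∈ J v, (j.1:ℝ) * Zm (h v j))

/-- the easy cases: high level or irregular cell -/
theorem easy {d k L : ℕ} {c : Fin d → ℤ} {g w : E d → ℝ} {a X : ℝ} [IsProbabilityMeasure (Pm d)]
    (hirr : MeasurableSet (irr d L)) (hL : 1 ≤ L) (hD : Dens k c g a)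
    (wm : Measurable w) (w0 : ∀ s, 0 ≤ w s) (w1 : ∀ s, w s ≤ 1) (hX : 0 ≤ X)
    (hcase : L ≤ k ∨ (k ≤ L ∧
      (Pm d).real (cs d k c) < Real.exp (-5 * d) * ((2:ℝ) ^ (k * d))⁻¹)) :
    ∫ s, g s * w s ∂(Pm d) ≤ ∫ s in irr d L, g s ∂(Pm d) + (k / L : ℝ) * Zm g + X := by
  have hZ : 0 ≤ Zm g := Zm_nonneg hD.nn
  have hI : 0 ≤ ∫ s in irr d L, g s ∂(Pm d) := integral_nonneg hD.nn
  have hLR : (1 : ℝ) ≤ L := by exact_mod_cast hL
  have hle : ∫ s, g s * w s ∂(Pm d) ≤ Zm g := by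
    unfold Zm
    refine integral_mono (integrable_bdd (hD.meas.mul wm) (fun s => mul_nonneg (hD.nn s) (w0 s))
      (fun s => mul_le_one₀ (hD.le1 s) (w0 s) (w1 s))) (integrable_bdd hD.meas hD.nn hD.le1)
      fun s => ?_
    exact mul_le_of_le_one_right (hD.nn s) (w1 s)
  rcases hcase with h | ⟨hk, hP⟩
  · have : (1:ℝ) ≤ k / L := by
      rw [le_div_iff₀ (by linarith)]; simpa using (by exact_mod_cast h : (L:ℝ) ≤ k)
    nlinarith
  · rw [irr_case hirr hD.supp hk hP]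
    have : 0 ≤ (k / L : ℝ) * Zm g := by positivity
    linarith

/-- the last step for one piece -/
theorem last_step {d L q k : ℕ} {c : Fin d → ℤ} {h : E d → ℝ} {b C3 : ℝ}
    [IsProbabilityMeasure (Pm d)] (hFin : StFin) (hd : 16 ≤ d) (hL : 1 ≤ L)
    (hC3 : C3 = 3 / 4 * q * Real.log 2 - Real.log 22) (hC3p : 0 < C3)
    (hD : Dens k c h b) (y : E d) :
    ∫ s, h s * (if dist s y ≤ (2:ℝ)⁻¹ ^ (L + q) then 1 else 0) ∂(Pm d) ≤
      ((k / L : ℝ) + Real.exp (-(C3 * d) / 2) + 2 * Real.log b / (C3 * d)) * Zm h := by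
  classical
  have hZ : 0 ≤ Zm h := Zm_nonneg hD.nn
  have hLR : (1 : ℝ) ≤ L := by exact_mod_cast hL
  have hdR : (16 : ℝ) ≤ d := by exact_mod_cast hd
  have hlb : 0 ≤ Real.log b := Real.log_nonneg hD.one_le
  have hx : 0 < C3 * d := by positivity
  have wm : Measurable fun s : E d => (if dist s y ≤ (2:ℝ)⁻¹ ^ (L + q) then (1:ℝ) else 0) :=
    Measurable.ite (measurableSet_le (measurable_id.dist measurable_const) measurable_const)
      measurable_const measurable_const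
  have hle : ∫ s, h s * (if dist s y ≤ (2:ℝ)⁻¹ ^ (L + q) then 1 else 0) ∂(Pm d) ≤ Zm h := by
    unfold Zm
    refine integral_mono (integrable_bdd (hD.meas.mul wm) (fun s => mul_nonneg (hD.nn s) ?_)
      (fun s => mul_le_one₀ (hD.le1 s) ?_ ?_)) (integrable_bdd hD.meas hD.nn hD.le1)
      fun s => mul_le_of_le_one_right (hD.nn s) ?_
    all_goals split_ifs <;> norm_num
  rcases Nat.lt_or_ge k L with hk | hk
  · have h1 := hFin d k c h b hd hD y q L hk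
    have h2 : ∫ s, h s * (if dist s y ≤ (2:ℝ)⁻¹ ^ (L + q) then 1 else 0) ∂(Pm d) =
        ∫ s in Metric.closedBall y ((2:ℝ)⁻¹ ^ (L + q)), h s ∂(Pm d) := by
      rw [← integral_indicator Metric.isClosed_closedBall.measurableSet]
      refine integral_congr_ae (ae_of_all _ fun s => ?_)
      by_cases hs : dist s y ≤ (2:ℝ)⁻¹ ^ (L + q)
      · have : s ∈ Metric.closedBall y ((2:ℝ)⁻¹ ^ (L + q)) := hs
        simp only [hs, if_true, mul_one, Set.indicator_of_mem this]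
      · have : s ∉ Metric.closedBall y ((2:ℝ)⁻¹ ^ (L + q)) := hs
        simp only [hs, if_false, mul_zero, Set.indicator_of_notMem this]
    have h3 : (22 * (2:ℝ) ^ (-(3 / 4 : ℝ) * q)) ^ d = Real.exp (-(C3 * d)) := by
      have : (22 * (2:ℝ) ^ (-(3 / 4 : ℝ) * q)) = Real.exp (-C3) := by
        rw [Real.rpow_def_of_pos (by norm_num), hC3]
        conv_lhs => rw [← Real.exp_log (show (0:ℝ) < 22 by norm_num)]
        rw [← Real.exp_add]
        ring_nf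
      rw [this, ← Real.exp_nat_mul]
      ring_nf
    rw [h3] at h1
    rw [h2] at hle ⊢
    have h4 := min_bound hD.one_le hx hZ hle h1
    refine h4.trans (mul_le_mul_of_nonneg_right ?_ hZ)
    have : 0 ≤ (k / L : ℝ) := by positivity
    linarith
  · refine hle.trans ?_
    have : (1:ℝ) ≤ k / L := by
      rw [le_div_iff₀ (by linarith)]; simpa using (by exact_mod_cast hk : (L:ℝ) ≤ k)
    have h4 : 0 ≤ Real.exp (-(C3 * d) / 2) := (Real.exp_pos _).le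
    have h5 : 0 ≤ 2 * Real.log b / (C3 * d) := by positivity
    nlinarith

/-- arithmetic of the last step -/
theorem arith0 {d L Z S T P Po la lU k e C1 A lam Γ B C3 l2 : ℝ} (hd : 36 ≤ d) (hL : 1 ≤ L)
    (hC1 : 0 < C1) (hA : 0 < A) (hlam : 0 < lam) (hΓ : Γ = 6 + lam)
    (hB : B = 32 * A + C1 + Γ + 4) (hC3 : 2 * lam ≤ C3) (hLd : L ≤ lam * d)
    (hl : 0.6931 < l2) (hZ : 0 ≤ Z) (hS : 0 ≤ S) (hP : 0 ≤ P) (hlU : lU ≤ A * d ^ 2)
    (hT : T ≤ (Γ * d + 2) * Z + S)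
    (hPo : P ≤ Po + Z * (32 / d * lU + C1 * d + 2 + la / 3) + (1 - (d / 4 - 1) * l2) * S) :
    k / L * Z + S / L + e * Z + 2 / (C3 * d) * T ≤
      k / L * Z + 16 / (d * L) * (Po + Z * (la / 3) + (0 + 1) * (B * d) * Z) +
        (e + 2 * (Γ + 1) / C3) * Z := by
  have hC3p : 0 < C3 := by linarith
  have hΓp : 0 < Γ := by linarith
  have h1 : 2 / (C3 * d) * T ≤ 2 / (C3 * d) * ((Γ * d + 2) * Z + S) :=
    mul_le_mul_of_nonneg_left hT (by positivity)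
  have h2 : 2 / (C3 * d) * ((Γ * d + 2) * Z) ≤ 2 * (Γ + 1) / C3 * Z := by
    rw [← mul_assoc]
    refine mul_le_mul_of_nonneg_right ?_ hZ
    rw [div_mul_eq_mul_div, div_le_div_iff₀ (by positivity) hC3p]
    nlinarith [mul_pos hC3p (show (0:ℝ) < d by linarith)]
  have h3 : 2 / (C3 * d) * S ≤ S / L := by
    rw [div_mul_eq_mul_div, div_le_div_iff₀ (by positivity) (by linarith)]
    have : 2 * L ≤ C3 * d := by nlinarith
    nlinarith
  have h4 : 2 / L * S ≤ 16 / (d * L) * (((d / 4 - 1) * l2 - 1) * S) := by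
    have : 2 / L * S = 16 / (d * L) * (d / 8 * S) := by
      field_simp; ring
    rw [this]
    refine mul_le_mul_of_nonneg_left (mul_le_mul_of_nonneg_right ?_ hS) (by positivity)
    nlinarith
  have h5 : ((d / 4 - 1) * l2 - 1) * S ≤ Po + Z * (la / 3) + (0 + 1) * (B * d) * Z := by
    have h6 : 32 / d * lU ≤ 32 * A * d := by
      calc 32 / d * lU ≤ 32 / d * (A * d ^ 2) := mul_le_mul_of_nonneg_left hlU (by positivity)
        _ = 32 * A * d := by field_simp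
    have h7 : Z * (32 / d * lU + C1 * d + 2) ≤ Z * (B * d) := by
      refine mul_le_mul_of_nonneg_left ?_ hZ
      rw [hB]; nlinarith
    nlinarith
  have h6 := mul_le_mul_of_nonneg_left h5 (show 0 ≤ 16 / (d * L) by positivity)
  have h7 : 2 / L * S = S / L + S / L := by ring
  have h8 : 2 / (C3 * d) * ((Γ * d + 2) * Z + S) =
    2 / (C3 * d) * ((Γ * d + 2) * Z) + 2 / (C3 * d) * S := by ring
  nlinarith

/-- arithmetic of the induction step -/
theorem arith1 {d L Z S T P Po la lU C1 A lam Γ B l2 m : ℝ} (hd : 36 ≤ d) (hL : 1 ≤ L)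
    (hC1 : 0 < C1) (hA : 0 < A) (hlam : 0 < lam) (hΓ : Γ = 6 + lam)
    (hB : B = 32 * A + C1 + Γ + 4)
    (hl : 0.6931 < l2) (hZ : 0 ≤ Z) (hS : 0 ≤ S) (hlU : lU ≤ A * d ^ 2)
    (hT : T ≤ (Γ * d + 2) * Z + S)
    (hPo : P ≤ Po + Z * (32 / d * lU + C1 * d + 2 + la / 3) + (1 - (d / 4 - 1) * l2) * S) :
    S / L + 16 / (d * L) * (P + T / 3 + m * (B * d) * Z) ≤
      16 / (d * L) * (Po + Z * (la / 3) + (m + 1) * (B * d) * Z) := by
  have h0 : S / L = 16 / (d * L) * (d / 16 * S) := by field_simp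
  rw [h0, ← mul_add]
  refine mul_le_mul_of_nonneg_left ?_ (by positivity)
  have hΓp : 0 < Γ := by linarith
  have h6 : 32 / d * lU ≤ 32 * A * d := by
    calc 32 / d * lU ≤ 32 / d * (A * d ^ 2) := mul_le_mul_of_nonneg_left hlU (by positivity)
      _ = 32 * A * d := by field_simp
  have h7 : Z * (32 / d * lU + C1 * d + 2) + (Γ * d + 2) * Z / 3 ≤ Z * (B * d) := by
    have : Z * (32 / d * lU + C1 * d + 2) + (Γ * d + 2) * Z / 3 =
      Z * (32 / d * lU + C1 * d + 2 + (Γ * d + 2) / 3) := by ring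
    rw [this]
    refine mul_le_mul_of_nonneg_left ?_ hZ
    rw [hB]; nlinarith
  have h8 : (d / 16 + 1 - (d / 4 - 1) * l2 + 1 / 3) * S ≤ 0 :=
    mul_nonpos_of_nonpos_of_nonneg (by nlinarith) hS
  nlinarith

theorem claim_step (hPm : StPm) (hKap : StKap) (hVal : StVal) (hPot : StPotNN)
    (hIrr : StIrr) (hFin : StFin) {C1 : ℝ} (hC1 : 0 < C1) (hStep : StepC C1)
    {A lam : ℝ} (hA : 0 < A) (hlam : 0 < lam) {Γ B C3 : ℝ} (hΓ : Γ = 6 + lam)
    (hB : B = 32 * A + C1 + Γ + 4) {q : ℕ} (hC3 : C3 = 3 / 4 * q * Real.log 2 - Real.log 22)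
    (hC3a : 2 * lam ≤ C3) {d L : ℕ} (hd : 36 ≤ d) (hL : 1 ≤ L) (hLd : (L:ℝ) ≤ lam * d)
    {U : Type} [Fintype U] [Nonempty U] (hU : Real.log (Fintype.card U) ≤ A * (d:ℝ) ^ 2)
    (F : ℕ → U → (Fin (d / 16) → E d) × (Fin (d / 16) → ℝ) → U) (hF : ∀ i u, MeasFin (F i u))
    (out : U → E d) (n : ℕ)
    (ih : n = 0 ∨ ∃ n', n = n' + 1 ∧ ∀ (k : ℕ) (c : Fin d → ℤ) (g : E d → ℝ) (a : ℝ) (u : U),
      Dens k c g a →
      ∫ s, g s * val F out ((2:ℝ)⁻¹ ^ (L + q)) (n' + 1) u s ∂(Pm d) ≤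
        ∫ s in irr d L, g s ∂(Pm d) + (k / L : ℝ) * Zm g +
          16 / (d * L) * (Pot k c g + Zm g * (Real.log a / 3) + (n' + 1) * (B * d) * Zm g) +
          (Real.exp (-(C3 * d) / 2) + 2 * (Γ + 1) / C3) * Zm g) :
    ∀ (k : ℕ) (c : Fin d → ℤ) (g : E d → ℝ) (a : ℝ) (u : U), Dens k c g a →
      ∫ s, g s * val F out ((2:ℝ)⁻¹ ^ (L + q)) (n + 1) u s ∂(Pm d) ≤
        ∫ s in irr d L, g s ∂(Pm d) + (k / L : ℝ) * Zm g +
          16 / (d * L) * (Pot k c g + Zm g * (Real.log a / 3) + (n + 1) * (B * d) * Zm g) +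
          (Real.exp (-(C3 * d) / 2) + 2 * (Γ + 1) / C3) * Zm g := by
  have hd1 : 1 ≤ d := by omega
  have hd16 : 16 ≤ d := by omega
  have hdR : (36 : ℝ) ≤ d := by exact_mod_cast hd
  have hLR : (1 : ℝ) ≤ L := by exact_mod_cast hL
  obtain ⟨hprob, -, -⟩ := hPm d hd1
  obtain ⟨hirrm, -⟩ := hIrr d L hd16
  have hC3pos : 0 < C3 := by linarith
  have hΓpos : 0 < Γ := by linarith
  have hBpos : 0 < B := by linarith
  have hl2 := log2_bounds
  have hρ : 0 ≤ Real.exp (-(C3 * d) / 2) + 2 * (Γ + 1) / C3 := by positivity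
  have hcoef : 0 < 16 / ((d:ℝ) * L) := by positivity
  have hmain : ∀ (k : ℕ) (c : Fin d → ℤ) (g : E d → ℝ) (a : ℝ) (u : U), Dens k c g a → k ≤ L →
      Real.exp (-5 * d) * ((2:ℝ) ^ (k * d))⁻¹ ≤ (Pm d).real (cs d k c) →
      ∃ (J : U → Finset (ℕ × (Fin d → ℤ))) (h : U → ℕ × (Fin d → ℤ) → E d → ℝ)
        (b : U → ℕ × (Fin d → ℤ) → ℝ),
        (∀ v, ∀ j ∈ J v, Dens (k + j.1) j.2 (h v j) (b v j)) ∧
        (∑ v, ∑ j ∈ J v, Zm (h v j) = Zm g) ∧
        (∑ v, ∑ j ∈ J v, ∫ s in irr d L, h v j s ∂(Pm d) = ∫ s in irr d L, g s ∂(Pm d)) ∧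
        (∫ s, g s * val F out ((2:ℝ)⁻¹ ^ (L + q)) (n + 1) u s ∂(Pm d) =
          ∑ v, ∑ j ∈ J v, ∫ s, h v j s * val F out ((2:ℝ)⁻¹ ^ (L + q)) n v s ∂(Pm d)) ∧
        (0 ≤ ∑ v, ∑ j ∈ J v, (j.1:ℝ) * Zm (h v j)) ∧
        (∑ v, ∑ j ∈ J v, Zm (h v j) * Real.log (b v j) ≤
          (Γ * d + 2) * Zm g + ∑ v, ∑ j ∈ J v, (j.1:ℝ) * Zm (h v j)) ∧
        (0 ≤ ∑ v, ∑ j ∈ J v, Pot (k + j.1) j.2 (h v j)) ∧
        (∑ v, ∑ j ∈ J v, Pot (k + j.1) j.2 (h v j) ≤ Pot k c g +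
          Zm g * (32 / d * Real.log (Fintype.card U) + C1 * d + 2 + Real.log a / 3) +
          (1 - (d / 4 - 1) * Real.log 2) * ∑ v, ∑ j ∈ J v, (j.1:ℝ) * Zm (h v j)) := by
    intro k c g a u hD hk hP
    obtain ⟨J, h, b, hJD, hJs, hJl, hJP⟩ := hStep d k L c g a Γ hd16 hD hk
      (by rw [hΓ]; nlinarith) hP U (F n u) (hF n u)
    obtain ⟨-, -, -, hκ⟩ := hKap d (d / 16) U (F n u) (hF n u)
    have hm : ∀ v, ∀ j ∈ J v, Measurable (h v j) := fun v j hj => (hJD v j hj).meas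
    have h0 : ∀ v, ∀ j ∈ J v, ∀ s, 0 ≤ h v j s := fun v j hj => (hJD v j hj).nn
    have h1 : ∀ v, ∀ j ∈ J v, ∀ s, h v j s ≤ 1 := fun v j hj => (hJD v j hj).le1
    refine ⟨J, h, b, hJD, sum_pieces hκ hm h0 h1 hJs, sum_pieces hκ hm h0 h1 hJs, ?_, ?_, hJl,
      ?_, hJP⟩
    · have hv := fun v => hVal d (d / 16) U F out ((2:ℝ)⁻¹ ^ (L + q)) hF n v
      exact sum_pieces_val hm h0 h1 (fun v => (hv v).1) (fun v => (hv v).2.1)
        (fun v => (hv v).2.2) hJs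
    · exact Finset.sum_nonneg fun v _ => Finset.sum_nonneg fun j hj =>
        mul_nonneg (Nat.cast_nonneg _) (Zm_nonneg (h0 v j hj))
    · exact Finset.sum_nonneg fun v _ => Finset.sum_nonneg fun j hj =>
        hPot d _ _ _ _ hd1 (hJD v j hj)
  intro k c g a u hD
  have hZ : 0 ≤ Zm g := Zm_nonneg hD.nn
  have hPotg : 0 ≤ Pot k c g := hPot d k c g a hd1 hD
  have hla : 0 ≤ Real.log a := Real.log_nonneg hD.one_le
  have hX : 0 ≤ 16 / ((d:ℝ) * L) * (Pot k c g + Zm g * (Real.log a / 3) +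
      (n + 1) * (B * d) * Zm g) + (Real.exp (-(C3 * d) / 2) + 2 * (Γ + 1) / C3) * Zm g := by
    positivity
  by_cases hcase : L ≤ k ∨ (k ≤ L ∧
      (Pm d).real (cs d k c) < Real.exp (-5 * d) * ((2:ℝ) ^ (k * d))⁻¹)
  · obtain ⟨v1, v2, v3⟩ := hVal d (d / 16) U F out ((2:ℝ)⁻¹ ^ (L + q)) hF (n + 1) u
    have := easy hirrm hL hD v1 v2 v3 hX hcase
    linarith
  have hk : k < L := by
    by_contra h; exact hcase (Or.inl (not_lt.1 h))
  have hP : Real.exp (-5 * d) * ((2:ℝ) ^ (k * d))⁻¹ ≤ (Pm d).real (cs d k c) := by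
    by_contra h; exact hcase (Or.inr ⟨hk.le, not_le.1 h⟩)
  obtain ⟨J, h, b, hJD, hsZ, hsI, hsV, hS0, hT, hP0, hPP⟩ := hmain k c g a u hD hk.le hP
  rw [hsV]
  rcases ih with rfl | ⟨n', rfl, ih⟩
  · have hb : ∑ v, ∑ j ∈ J v, ∫ s, h v j s * val F out ((2:ℝ)⁻¹ ^ (L + q)) 0 v s ∂(Pm d) ≤
        ∑ v, ∑ j ∈ J v, (((k + j.1 : ℕ) / L : ℝ) + Real.exp (-(C3 * d) / 2) +
          2 * Real.log (b v j) / (C3 * d)) * Zm (h v j) := by
      refine Finset.sum_le_sum fun v _ => Finset.sum_le_sum fun j hj => ?_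
      exact last_step hFin hd16 hL hC3 hC3pos (hJD v j hj) (out v)
    have he : ∑ v, ∑ j ∈ J v, (((k + j.1 : ℕ) / L : ℝ) + Real.exp (-(C3 * d) / 2) +
          2 * Real.log (b v j) / (C3 * d)) * Zm (h v j) =
        (k / L : ℝ) * (∑ v, ∑ j ∈ J v, Zm (h v j)) +
          (∑ v, ∑ j ∈ J v, (j.1:ℝ) * Zm (h v j)) / L +
          Real.exp (-(C3 * d) / 2) * (∑ v, ∑ j ∈ J v, Zm (h v j)) +
          2 / (C3 * d) * (∑ v, ∑ j ∈ J v, Zm (h v j) * Real.log (b v j)) := by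
      simp only [Finset.mul_sum, Finset.sum_div, ← Finset.sum_add_distrib]
      refine Finset.sum_congr rfl fun v _ => Finset.sum_congr rfl fun j _ => ?_
      push_cast
      ring
    rw [he, hsZ] at hb
    have h1 := arith0 (e := Real.exp (-(C3 * d) / 2)) (k := (k:ℝ)) hdR hLR hC1 hA hlam hΓ hB hC3a
      hLd hl2.1 hZ hS0 hP0 hU hT hPP
    have hI : 0 ≤ ∫ s in irr d L, g s ∂(Pm d) := integral_nonneg hD.nn
    push_cast
    linarith
  · have hb : ∑ v, ∑ j ∈ J v, ∫ s, h v j s * val F out ((2:ℝ)⁻¹ ^ (L + q)) (n' + 1) v s ∂(Pm d) ≤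
        ∑ v, ∑ j ∈ J v, (∫ s in irr d L, h v j s ∂(Pm d) + ((k + j.1 : ℕ) / L : ℝ) * Zm (h v j) +
          16 / (d * L) * (Pot (k + j.1) j.2 (h v j) + Zm (h v j) * (Real.log (b v j) / 3) +
            (n' + 1) * (B * d) * Zm (h v j)) +
          (Real.exp (-(C3 * d) / 2) + 2 * (Γ + 1) / C3) * Zm (h v j)) := by
      refine Finset.sum_le_sum fun v _ => Finset.sum_le_sum fun j hj => ?_
      exact ih _ _ _ _ _ (hJD v j hj)
    have he : ∑ v, ∑ j ∈ J v, (∫ s in irr d L, h v j s ∂(Pm d) +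
          ((k + j.1 : ℕ) / L : ℝ) * Zm (h v j) +
          16 / (d * L) * (Pot (k + j.1) j.2 (h v j) + Zm (h v j) * (Real.log (b v j) / 3) +
            (n' + 1) * (B * d) * Zm (h v j)) +
          (Real.exp (-(C3 * d) / 2) + 2 * (Γ + 1) / C3) * Zm (h v j)) =
        (∑ v, ∑ j ∈ J v, ∫ s in irr d L, h v j s ∂(Pm d)) +
        (k / L : ℝ) * (∑ v, ∑ j ∈ J v, Zm (h v j)) +
          (∑ v, ∑ j ∈ J v, (j.1:ℝ) * Zm (h v j)) / L +
          16 / (d * L) * ((∑ v, ∑ j ∈ J v, Pot (k + j.1) j.2 (h v j)) +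
            (∑ v, ∑ j ∈ J v, Zm (h v j) * Real.log (b v j)) / 3 +
            (n' + 1) * (B * d) * (∑ v, ∑ j ∈ J v, Zm (h v j))) +
          (Real.exp (-(C3 * d) / 2) + 2 * (Γ + 1) / C3) * (∑ v, ∑ j ∈ J v, Zm (h v j)) := by
      simp only [Finset.mul_sum, Finset.sum_div, ← Finset.sum_add_distrib]
      refine Finset.sum_congr rfl fun v _ => Finset.sum_congr rfl fun j _ => ?_
      push_cast
      ring
    rw [he, hsZ, hsI] at hb
    have h1 := arith1 (m := (n':ℝ) + 1) hdR hLR hC1 hA hlam hΓ hB hl2.1 hZ hS0 hU hT hPP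
    push_cast
    linarith

theorem claim (hPm : StPm) (hKap : StKap) (hVal : StVal) (hPot : StPotNN)
    (hIrr : StIrr) (hFin : StFin) {C1 : ℝ} (hC1 : 0 < C1) (hStep : StepC C1)
    {A lam : ℝ} (hA : 0 < A) (hlam : 0 < lam) {Γ B C3 : ℝ} (hΓ : Γ = 6 + lam)
    (hB : B = 32 * A + C1 + Γ + 4) {q : ℕ} (hC3 : C3 = 3 / 4 * q * Real.log 2 - Real.log 22)
    (hC3a : 2 * lam ≤ C3) {d L : ℕ} (hd : 36 ≤ d) (hL : 1 ≤ L) (hLd : (L:ℝ) ≤ lam * d)
    {U : Type} [Fintype U] [Nonempty U] (hU : Real.log (Fintype.card U) ≤ A * (d:ℝ) ^ 2)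
    (F : ℕ → U → (Fin (d / 16) → E d) × (Fin (d / 16) → ℝ) → U) (hF : ∀ i u, MeasFin (F i u))
    (out : U → E d) (n : ℕ) :
    ∀ (k : ℕ) (c : Fin d → ℤ) (g : E d → ℝ) (a : ℝ) (u : U), Dens k c g a →
      ∫ s, g s * val F out ((2:ℝ)⁻¹ ^ (L + q)) (n + 1) u s ∂(Pm d) ≤
        ∫ s in irr d L, g s ∂(Pm d) + (k / L : ℝ) * Zm g +
          16 / (d * L) * (Pot k c g + Zm g * (Real.log a / 3) + (n + 1) * (B * d) * Zm g) +
          (Real.exp (-(C3 * d) / 2) + 2 * (Γ + 1) / C3) * Zm g := by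
  induction n with
  | zero =>
    exact claim_step hPm hKap hVal hPot hIrr hFin hC1 hStep hA hlam hΓ hB hC3 hC3a hd hL hLd hU
      F hF out 0 (Or.inl rfl)
  | succ n ih =>
    exact claim_step hPm hKap hVal hPot hIrr hFin hC1 hStep hA hlam hΓ hB hC3 hC3a hd hL hLd hU
      F hF out (n + 1) (Or.inr ⟨n, rfl, ih⟩)

/-- the indicator of a level-0 cell -/
noncomputable def g0 {d : ℕ} (c : Fin d → ℤ) : E d → ℝ := (cs d 0 c).indicator 1

theorem g0_meas (hCell : StCell) {d : ℕ} (hd : 1 ≤ d) (c : Fin d → ℤ) : Measurable (g0 c) :=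
  measurable_one.indicator ((hCell d 0 hd).1 c)

theorem g0_nn {d : ℕ} (c : Fin d → ℤ) (s : E d) : 0 ≤ g0 c s :=
  Set.indicator_nonneg (fun _ _ => zero_le_one) s

theorem g0_le {d : ℕ} (c : Fin d → ℤ) (s : E d) : g0 c s ≤ 1 := by
  unfold g0
  by_cases h : s ∈ cs d 0 c
  · simp [Set.indicator_of_mem h]
  · simp [Set.indicator_of_notMem h]

theorem g0_supp {d : ℕ} (c : Fin d → ℤ) (s : E d) (h : g0 c s ≠ 0) : cell d 0 s = c := by
  by_contra h'
  exact h (Set.indicator_of_notMem (s := cs d 0 c) h' _)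

theorem Zm_g0 (hCell : StCell) {d : ℕ} (hd : 1 ≤ d) (c : Fin d → ℤ) :
    Zm (g0 c) = (Pm d).real (cs d 0 c) := by
  unfold Zm g0
  rw [integral_indicator_one ((hCell d 0 hd).1 c)]

theorem Pot_g0 (hCell : StCell) {d : ℕ} (hd : 1 ≤ d) (c : Fin d → ℤ) :
    Pot 0 c (g0 c) = 0 := by
  unfold Pot
  rw [Zm_g0 hCell hd]
  have : ∀ s, xlx (g0 c s) = 0 := by
    intro s
    unfold g0 xlx
    by_cases h : s ∈ cs d 0 c
    · simp [Set.indicator_of_mem h]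
    · simp [Set.indicator_of_notMem h]
  simp only [this]
  simp [xlx]

theorem cell_small (hPm : StPm) (hCap : StCap) (hCell : StCell) {d : ℕ} (hd : 1 ≤ d) (m : ℕ)
    (c : Fin d → ℤ) : (Pm d).real (cs d m c) ≤ 2 ^ d * ((2:ℝ)⁻¹ ^ m) ^ (d - 1) := by
  obtain ⟨hprob, -, -⟩ := hPm d hd
  rcases (cs d m c).eq_empty_or_nonempty with h | ⟨y, hy⟩
  · rw [h]; simp
  · refine le_trans ?_ (hCap d hd y ((2:ℝ)⁻¹ ^ m) (by positivity)
      (pow_le_one₀ (by norm_num) (by norm_num)))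
    refine measureReal_mono ?_
    intro s hs
    rw [Metric.mem_closedBall]
    exact (hCell d m hd).2.1 s y (by rw [show cell d m s = c from hs, show cell d m y = c from hy])

theorem dens_g0 (hPm : StPm) (hCap : StCap) (hCell : StCell) {d : ℕ} (hd : 16 ≤ d)
    (c : Fin d → ℤ) (hP : Real.exp (-5 * d) * ((2:ℝ) ^ (0 * d))⁻¹ ≤ (Pm d).real (cs d 0 c)) :
    Dens 0 c (g0 c) (Real.exp (6 * d)) := by
  have hd1 : 1 ≤ d := by omega
  obtain ⟨hprob, -, -⟩ := hPm d hd1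
  refine ⟨g0_meas hCell hd1 c, g0_nn c, g0_le c, g0_supp c, Real.one_le_exp (by positivity), ?_⟩
  intro m c'
  rw [zero_add, Zm_g0 hCell hd1]
  have h1 : ∫ s in cs d m c', g0 c s ∂(Pm d) ≤ (Pm d).real (cs d m c') := by
    have : ∫ s in cs d m c', g0 c s ∂(Pm d) ≤ ∫ s in cs d m c', (1:ℝ) ∂(Pm d) :=
      integral_mono (integrable_bdd (g0_meas hCell hd1 c) (g0_nn c) (g0_le c))
        (integrable_const _) (g0_le c)
    simpa using this
  refine h1.trans ((cell_small hPm hCap hCell hd1 m c').trans ?_)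
  rw [zero_mul, pow_zero, inv_one, mul_one] at hP
  have h2 : Real.exp (d:ℝ) ≤ Real.exp (6 * d) * (Pm d).real (cs d 0 c) := by
    calc Real.exp (d:ℝ) = Real.exp (6 * d) * Real.exp (-5 * d) := by
          rw [← Real.exp_add]; ring_nf
      _ ≤ _ := mul_le_mul_of_nonneg_left hP (Real.exp_pos _).le
  have h3 : (2:ℝ) ^ d ≤ Real.exp (d:ℝ) := by
    have : (2:ℝ) ≤ Real.exp 1 := by linarith [Real.exp_one_gt_d9]
    calc (2:ℝ) ^ d ≤ (Real.exp 1) ^ d := pow_le_pow_left₀ (by norm_num) this d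
      _ = Real.exp d := by rw [← Real.exp_nat_mul]; ring_nf
  have h4 : ((2:ℝ)⁻¹ ^ m) ^ (d - 1) ≤ (2:ℝ) ^ (-(3 / 4 : ℝ) * d * m) := by
    have e : ((2:ℝ)⁻¹ ^ m) ^ (d - 1) = (2:ℝ) ^ (-((m * (d - 1) : ℕ) : ℝ)) := by
      rw [← pow_mul, Real.rpow_neg (by norm_num), Real.rpow_natCast, inv_pow]
    rw [e]
    refine Real.rpow_le_rpow_of_exponent_le (by norm_num) ?_
    push_cast [Nat.cast_sub hd1]
    have hdR : (16:ℝ) ≤ d := by exact_mod_cast hd
    have hm : (0:ℝ) ≤ m := Nat.cast_nonneg m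
    nlinarith
  calc 2 ^ d * ((2:ℝ)⁻¹ ^ m) ^ (d - 1) ≤
      (Real.exp (6 * d) * (Pm d).real (cs d 0 c)) * (2:ℝ) ^ (-(3 / 4 : ℝ) * d * m) :=
        mul_le_mul (h3.trans h2) h4 (by positivity) (by positivity)
    _ = _ := by ring

/-- the level-0 cells meeting the unit sphere -/
noncomputable def K0 (d : ℕ) : Finset (Fin d → ℤ) :=
  Fintype.piFinset fun _ => Finset.Icc (-⌈Real.sqrt d⌉) ⌈Real.sqrt d⌉

theorem mem_K0 {d : ℕ} {s : E d} (hs : ‖s‖ = 1) : cell d 0 s ∈ K0 d := by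
  unfold K0
  rw [Fintype.mem_piFinset]
  intro i
  have h1 : |s i| ≤ 1 := by
    have := PiLp.norm_apply_le s i
    rwa [hs, Real.norm_eq_abs] at this
  obtain ⟨h2, h3⟩ := abs_le.1 h1
  have hsq : 0 ≤ Real.sqrt d := Real.sqrt_nonneg _
  have hce := Int.le_ceil (Real.sqrt d)
  rw [Finset.mem_Icc]
  unfold cell
  rw [pow_zero, one_mul]
  constructor
  · rw [Int.le_floor]
    push_cast
    nlinarith
  · rw [← Int.cast_le (R := ℝ)]
    refine (Int.floor_le _).trans ?_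
    nlinarith

theorem sum_g0 {d : ℕ} {s : E d} (hs : ‖s‖ = 1) : ∑ c ∈ K0 d, g0 c s = 1 := by
  classical
  rw [Finset.sum_eq_single (cell d 0 s)]
  · unfold g0
    rw [Set.indicator_of_mem (show s ∈ cs d 0 (cell d 0 s) from rfl)]
    rfl
  · intro c _ hc
    by_contra h
    exact hc (g0_supp c s h).symm
  · intro h
    exact absurd (mem_K0 hs) h

theorem start (hPm : StPm) (hCap : StCap) (hCell : StCell) (hKap : StKap) (hVal : StVal)
    (hPot : StPotNN)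
    (hIrr : StIrr) (hFin : StFin) {C1 : ℝ} (hC1 : 0 < C1) (hStep : StepC C1)
    {A lam : ℝ} (hA : 0 < A) (hlam : 0 < lam) {Γ B C3 : ℝ} (hΓ : Γ = 6 + lam)
    (hB : B = 32 * A + C1 + Γ + 4) {q : ℕ} (hC3 : C3 = 3 / 4 * q * Real.log 2 - Real.log 22)
    (hC3a : 2 * lam ≤ C3) {d L : ℕ} (hd : 36 ≤ d) (hL : 1 ≤ L) (hLd : (L:ℝ) ≤ lam * d)
    {U : Type} [Fintype U] [Nonempty U] (hU : Real.log (Fintype.card U) ≤ A * (d:ℝ) ^ 2)
    (F : ℕ → U → (Fin (d / 16) → E d) × (Fin (d / 16) → ℝ) → U) (hF : ∀ i u, MeasFin (F i u))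
    (out : U → E d) (n : ℕ) (u : U) :
      ∫ s, val F out ((2:ℝ)⁻¹ ^ (L + q)) (n + 1) u s ∂(Pm d) ≤
        (Pm d).real (irr d L) + (16 / L * (2 + (n + 1) * B) +
          (Real.exp (-(C3 * d) / 2) + 2 * (Γ + 1) / C3)) := by
  have hd1 : 1 ≤ d := by omega
  have hd16 : 16 ≤ d := by omega
  have hdR : (36 : ℝ) ≤ d := by exact_mod_cast hd
  have hLR : (1 : ℝ) ≤ L := by exact_mod_cast hL
  obtain ⟨hprob, hnorm, -⟩ := hPm d hd1
  obtain ⟨hirrm, -⟩ := hIrr d L hd16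
  have hC3pos : 0 < C3 := by linarith
  have hΓpos : 0 < Γ := by linarith
  have hBpos : 0 < B := by linarith
  obtain ⟨v1, v2, v3⟩ := hVal d (d / 16) U F out ((2:ℝ)⁻¹ ^ (L + q)) hF (n + 1) u
  set W := val F out ((2:ℝ)⁻¹ ^ (L + q)) (n + 1) u with hW
  set X := 16 / (L:ℝ) * (2 + (n + 1) * B) + (Real.exp (-(C3 * d) / 2) + 2 * (Γ + 1) / C3) with hX
  have hX0 : 0 ≤ X := by positivity
  have hone : ∀ c ∈ K0 d, ∫ s, g0 c s * W s ∂(Pm d) ≤
      ∫ s in irr d L, g0 c s ∂(Pm d) + X * Zm (g0 c) := by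
    intro c _
    have hZ : 0 ≤ Zm (g0 c) := Zm_nonneg (g0_nn c)
    rcases lt_or_ge ((Pm d).real (cs d 0 c)) (Real.exp (-5 * d) * ((2:ℝ) ^ (0 * d))⁻¹) with h | h
    · rw [irr_case hirrm (g0_supp c) (Nat.zero_le _) h]
      have hle : ∫ s, g0 c s * W s ∂(Pm d) ≤ Zm (g0 c) := by
        unfold Zm
        refine integral_mono (integrable_bdd ((g0_meas hCell hd1 c).mul v1)
          (fun s => mul_nonneg (g0_nn c s) (v2 s))
          (fun s => mul_le_one₀ (g0_le c s) (v2 s) (v3 s)))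
          (integrable_bdd (g0_meas hCell hd1 c) (g0_nn c) (g0_le c)) fun s => ?_
        exact mul_le_of_le_one_right (g0_nn c s) (v3 s)
      have := mul_nonneg hX0 hZ
      linarith
    · have hD := dens_g0 hPm hCap hCell hd16 c h
      have h1 := claim hPm hKap hVal hPot hIrr hFin hC1 hStep hA hlam hΓ hB hC3 hC3a hd hL hLd hU
        F hF out n 0 c (g0 c) _ u hD
      rw [Pot_g0 hCell hd1, Real.log_exp] at h1
      refine h1.trans (le_of_eq ?_)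
      rw [hX]
      push_cast
      field_simp
      ring
  have hsum1 : ∫ s, W s ∂(Pm d) = ∑ c ∈ K0 d, ∫ s, g0 c s * W s ∂(Pm d) := by
    rw [← integral_finsetSum]
    · refine integral_congr_ae ?_
      filter_upwards [hnorm] with s hs
      rw [← Finset.sum_mul, sum_g0 hs, one_mul]
    · intro c _
      exact integrable_bdd ((g0_meas hCell hd1 c).mul v1)
        (fun s => mul_nonneg (g0_nn c s) (v2 s))
        (fun s => mul_le_one₀ (g0_le c s) (v2 s) (v3 s))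
  have hsum2 : ∑ c ∈ K0 d, Zm (g0 c) = 1 := by
    unfold Zm
    rw [← integral_finsetSum]
    · have : ∫ s, ∑ c ∈ K0 d, g0 c s ∂(Pm d) = ∫ s, (1:ℝ) ∂(Pm d) := by
        refine integral_congr_ae ?_
        filter_upwards [hnorm] with s hs
        rw [sum_g0 hs]
      rw [this]; simp
    · intro c _
      exact integrable_bdd (g0_meas hCell hd1 c) (g0_nn c) (g0_le c)
  have hsum3 : ∑ c ∈ K0 d, ∫ s in irr d L, g0 c s ∂(Pm d) = (Pm d).real (irr d L) := by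
    rw [← integral_finsetSum]
    · have : ∫ s in irr d L, ∑ c ∈ K0 d, g0 c s ∂(Pm d) = ∫ s in irr d L, (1:ℝ) ∂(Pm d) := by
        refine integral_congr_ae ?_
        filter_upwards [ae_restrict_of_ae hnorm] with s hs
        rw [sum_g0 hs]
      rw [this]; simp
    · intro c _
      exact integrable_bdd (g0_meas hCell hd1 c) (g0_nn c) (g0_le c)
  rw [hsum1]
  refine (Finset.sum_le_sum hone).trans ?_
  rw [Finset.sum_add_distrib, ← Finset.mul_sum, hsum2, hsum3, mul_one]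

end CORE

theorem core : StCnt → StPm → StCap → StCell → StKap → StVal → StPotNN → StIrr → StFin →
    StStep → StCore := by
  intro _ hPm hCap hCell hKap hVal hPot hIrr hFin hStep A lam hA hlam
  obtain ⟨C1, hC1, hStep⟩ := hStep
  set Γ : ℝ := 6 + lam with hΓ
  set B : ℝ := 32 * A + C1 + Γ + 4 with hB
  have hΓpos : 0 < Γ := by positivity
  have hBpos : 0 < B := by positivity
  have hl2 := CORE.log2_bounds
  have hl22 : 0 ≤ Real.log 22 := Real.log_nonneg (by norm_num)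
  set K : ℝ := 2 * lam + 20 * (Γ + 1) with hK
  obtain ⟨q, hq⟩ := exists_nat_ge ((K + Real.log 22) / (3 / 4 * Real.log 2))
  set C3 : ℝ := 3 / 4 * q * Real.log 2 - Real.log 22 with hC3
  have hC3K : K ≤ C3 := by
    rw [div_le_iff₀ (by positivity)] at hq
    rw [hC3]; linarith
  have hC3pos : 0 < C3 := by linarith
  refine ⟨1 / (160 * B), by positivity, q, 320, max 36 ⌈40 * (lam + 1)⌉₊, ?_⟩
  intro d hd L hL0 hLd U _ _ hU n hn hnL F hF out u0
  have hd36 : 36 ≤ d := le_trans (le_max_left _ _) hd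
  have hdl : 40 * (lam + 1) ≤ d := by
    have := le_trans (le_max_right _ _) hd
    exact Nat.ceil_le.1 this
  have hdR : (36:ℝ) ≤ d := by exact_mod_cast hd36
  have hLR : (320:ℝ) ≤ L := by exact_mod_cast hL0
  obtain ⟨n, rfl⟩ : ∃ n', n = n' + 1 := ⟨n - 1, by omega⟩
  have hs := CORE.start hPm hCap hCell hKap hVal hPot hIrr hFin hC1 hStep hA hlam hΓ hB hC3
    (by linarith) hd36 (by omega) hLd hU F hF out n u0
  obtain ⟨-, hirr⟩ := hIrr d L (by omega)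
  have hexp : (lam * d + 1) * Real.exp (-(d:ℝ)) ≤ 1 / 10 := by
    have h1 : (d:ℝ) ^ 2 / 2 ≤ Real.exp d := by
      have := Real.quadratic_le_exp_of_nonneg (show (0:ℝ) ≤ d by linarith)
      linarith
    rw [Real.exp_neg, ← div_eq_mul_inv, div_le_iff₀ (Real.exp_pos _)]
    nlinarith
  have hexp2 : Real.exp (-(d:ℝ)) ≤ 1 / 10 := by
    have h1 : (1:ℝ) + d ≤ Real.exp d := by linarith [Real.add_one_le_exp (d:ℝ)]
    rw [Real.exp_neg, inv_le_comm₀ (Real.exp_pos _) (by norm_num)]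
    linarith
  have h1 : (Pm d).real (irr d L) ≤ 1 / 10 := by
    refine hirr.trans (le_trans ?_ hexp)
    exact mul_le_mul_of_nonneg_right (by linarith) (Real.exp_pos _).le
  have h2 : 16 / (L:ℝ) * (2 + (n + 1) * B) ≤ 2 / 10 := by
    push_cast at hnL
    have h3 : ((n:ℝ) + 1) * B ≤ L / 160 := by
      calc ((n:ℝ) + 1) * B ≤ 1 / (160 * B) * L * B := mul_le_mul_of_nonneg_right hnL hBpos.le
        _ = L / 160 := by field_simp
    rw [div_mul_eq_mul_div, div_le_iff₀ (by linarith)]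
    linarith
  have h3 : Real.exp (-(C3 * d) / 2) ≤ 1 / 10 := by
    refine le_trans (Real.exp_le_exp.2 ?_) hexp2
    nlinarith
  have h4 : 2 * (Γ + 1) / C3 ≤ 1 / 10 := by
    rw [div_le_iff₀ hC3pos]; linarith
  linarith

end Crest.Agent.R322
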