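import Crest.Agent.R322.Defs

set_option autoImplicit false

open MeasureTheory ProbabilityTheory

namespace Crest.Agent.R322

theorem fin_bound : StCnt → StPm → StCell → StFin := by
  intro hcnt hpm hcell d k c g a hd hg y q L hkL
  have hd1 : 1 ≤ d := by omega
  obtain ⟨hprob, -, -⟩ := hpm d hd1
  haveI := hprob
  set K := L + q with hK
  obtain ⟨hmeasc, -, -, -, hdist⟩ := hcell d K hd1
  set v : Fin d → ℝ := fun i => (2:ℝ) ^ K * Real.sqrt d * y i with hv
  obtain ⟨hfin, hcard⟩ := hcnt d v 2 (by norm_num)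
  set T := hfin.toFinset with hT
  have hTcard : (T.card : ℝ) ≤ 22 ^ d := by
    have : (T.card : ℝ) = (({c : Fin d → ℤ | ∑ i, ((c i : ℝ) - v i) ^ 2 ≤ 2 ^ 2 * (d:ℝ)}).ncard : ℝ) := by
      rw [Set.ncard_eq_toFinset_card _ hfin]
    rw [this]
    refine hcard.trans ?_
    norm_num
  obtain ⟨m, hm⟩ : ∃ m, K = k + m := ⟨K - k, by omega⟩
  have hqm : q ≤ m := by omega
  -- integrability
  have hint : Integrable g (Pm d) := by
    refine Integrable.of_bound (C := 1) hg.meas.aestronglyMeasurable ?_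
    refine Filter.Eventually.of_forall fun s => ?_
    rw [Real.norm_eq_abs, abs_of_nonneg (hg.nn s)]
    exact hg.le1 s
  have hcover : ∀ s ∈ Metric.closedBall y ((2:ℝ)⁻¹ ^ K), cell d K s ∈ T := by
    intro s hs
    rw [hT, Set.Finite.mem_toFinset, Set.mem_setOf_eq]
    have h1 := hdist s
    have h2 : ∑ i, ((2:ℝ) ^ K * Real.sqrt d * s i - v i) ^ 2 ≤ d := by
      have e1 : ∀ i, ((2:ℝ) ^ K * Real.sqrt d * s i - v i) ^ 2 =
          ((2:ℝ) ^ K) ^ 2 * d * (s i - y i) ^ 2 := by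
        intro i
        have hs2 : Real.sqrt d ^ 2 = d := Real.sq_sqrt (Nat.cast_nonneg d)
        rw [hv]
        have : (2:ℝ) ^ K * Real.sqrt d * s i - 2 ^ K * Real.sqrt d * y i =
          2 ^ K * Real.sqrt d * (s i - y i) := by ring
        simp only [this]
        rw [mul_pow, mul_pow, hs2]
      rw [Finset.sum_congr rfl fun i _ => e1 i, ← Finset.mul_sum]
      have h3 : ∑ i, (s i - y i) ^ 2 = dist s y ^ 2 := by
        rw [EuclideanSpace.dist_eq, Real.sq_sqrt (Finset.sum_nonneg fun i _ => sq_nonneg _)]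
        refine Finset.sum_congr rfl fun i _ => ?_
        rw [Real.dist_eq, sq_abs]
      rw [h3]
      have h4 : dist s y ≤ (2:ℝ)⁻¹ ^ K := hs
      have h5 : (2:ℝ) ^ K * dist s y ≤ 1 := by
        calc (2:ℝ) ^ K * dist s y ≤ (2:ℝ) ^ K * (2:ℝ)⁻¹ ^ K := by gcongr
          _ = 1 := by rw [← mul_pow]; norm_num
      have h6 : ((2:ℝ) ^ K * dist s y) ^ 2 ≤ 1 := by
        have h7 : 0 ≤ (2:ℝ) ^ K * dist s y := by positivity
        nlinarith
      calc ((2:ℝ) ^ K) ^ 2 * (d:ℝ) * dist s y ^ 2 = (d:ℝ) * ((2:ℝ) ^ K * dist s y) ^ 2 := by ring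
        _ ≤ (d:ℝ) * 1 := by gcongr
        _ = (d:ℝ) := mul_one _
    calc ∑ i, ((cell d K s i : ℝ) - v i) ^ 2 ≤ ∑ i, (2 * ((cell d K s i : ℝ) - 2 ^ K * Real.sqrt d * s i) ^ 2
          + 2 * ((2:ℝ) ^ K * Real.sqrt d * s i - v i) ^ 2) := by
          refine Finset.sum_le_sum fun i _ => ?_
          nlinarith [sq_nonneg (((cell d K s i : ℝ) - 2 ^ K * Real.sqrt d * s i) -
            ((2:ℝ) ^ K * Real.sqrt d * s i - v i))]
      _ = 2 * ∑ i, ((cell d K s i : ℝ) - 2 ^ K * Real.sqrt d * s i) ^ 2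
          + 2 * ∑ i, ((2:ℝ) ^ K * Real.sqrt d * s i - v i) ^ 2 := by
          rw [Finset.sum_add_distrib, Finset.mul_sum, Finset.mul_sum]
      _ ≤ 2 * d + 2 * d := by gcongr
      _ = 2 ^ 2 * d := by ring
  have hZ : 0 ≤ Zm g := integral_nonneg hg.nn
  have ha : 0 ≤ a := le_trans zero_le_one hg.one_le
  have hstep : ∫ s in Metric.closedBall y ((2:ℝ)⁻¹ ^ K), g s ∂(Pm d) ≤
      ∑ c' ∈ T, ∫ s in cs d K c', g s ∂(Pm d) := by
    rw [← integral_indicator (Metric.isClosed_closedBall.measurableSet)]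
    have e2 : ∀ c' ∈ T, ∫ s in cs d K c', g s ∂(Pm d) =
        ∫ s, (cs d K c').indicator g s ∂(Pm d) := fun c' _ =>
      (integral_indicator (hmeasc c')).symm
    rw [Finset.sum_congr rfl e2, ← integral_finsetSum]
    · refine integral_mono (hint.indicator Metric.isClosed_closedBall.measurableSet)
        (integrable_finsetSum _ fun c' _ => hint.indicator (hmeasc c')) ?_
      intro s
      simp only
      by_cases hs : s ∈ Metric.closedBall y ((2:ℝ)⁻¹ ^ K)
      · rw [Set.indicator_of_mem hs]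
        have h8 : (cs d K (cell d K s)).indicator g s = g s :=
          Set.indicator_of_mem (by rfl) _
        rw [← h8]
        exact Finset.single_le_sum (f := fun c' => (cs d K c').indicator g s)
          (fun c' _ => Set.indicator_nonneg (fun x _ => hg.nn x) s) (hcover s hs)
      · rw [Set.indicator_of_notMem hs]
        exact Finset.sum_nonneg fun c' _ => Set.indicator_nonneg (fun x _ => hg.nn x) s
    · exact fun c' _ => hint.indicator (hmeasc c')
  have hpow : (2:ℝ) ^ (-(3 / 4 : ℝ) * d * m) ≤ ((2:ℝ) ^ (-(3 / 4 : ℝ) * q)) ^ d := by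
    rw [← Real.rpow_natCast ((2:ℝ) ^ (-(3 / 4 : ℝ) * q)) d, ← Real.rpow_mul (by norm_num)]
    refine Real.rpow_le_rpow_of_exponent_le (by norm_num) ?_
    have : (q:ℝ) ≤ m := by exact_mod_cast hqm
    nlinarith [mul_le_mul_of_nonneg_left this (Nat.cast_nonneg (α := ℝ) d)]
  calc ∫ s in Metric.closedBall y ((2:ℝ)⁻¹ ^ K), g s ∂(Pm d)
      ≤ ∑ c' ∈ T, ∫ s in cs d K c', g s ∂(Pm d) := hstep
    _ ≤ ∑ c' ∈ T, a * ((2:ℝ) ^ (-(3 / 4 : ℝ) * q)) ^ d * Zm g := by
        refine Finset.sum_le_sum fun c' _ => ?_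
        have := hg.fro m c'
        rw [← hm] at this
        refine this.trans ?_
        gcongr
    _ = T.card * (a * ((2:ℝ) ^ (-(3 / 4 : ℝ) * q)) ^ d * Zm g) := by
        rw [Finset.sum_const, nsmul_eq_mul]
    _ ≤ 22 ^ d * (a * ((2:ℝ) ^ (-(3 / 4 : ℝ) * q)) ^ d * Zm g) := by
        gcongr
    _ = a * (22 * (2:ℝ) ^ (-(3 / 4 : ℝ) * q)) ^ d * Zm g := by
        rw [mul_pow]; ring

end Crest.Agent.R322
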