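import Crest.Agent.R322.Defs

/-! Row 322, task G1: the one-row bound. -/

set_option autoImplicit false

open MeasureTheory ProbabilityTheory

noncomputable section

namespace Crest.Agent.R322

namespace G1

theorem measurable_ixx {d : ℕ} (τ : ℝ) : Measurable (ixx (d := d) τ) := by
  unfold ixx
  refine measurable_pi_lambda _ fun i => ?_
  refine Int.measurable_floor.comp ?_
  have : Measurable (fun x : E d => x i) := by fun_prop
  exact (this.mul_const _).div_const _

theorem measurable_fl {d : ℕ} (τ : ℝ) (z : E d) :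
    Measurable (fun x : E d => ⌊(inner ℝ x z : ℝ) / τ⌋) := by
  refine Int.measurable_floor.comp ?_
  have : Measurable (fun x : E d => (inner ℝ x z : ℝ)) := by fun_prop
  exact this.div_const _

/-- two points of the same box are at distance at most `τ` -/
theorem norm_sub_le {d : ℕ} {τ : ℝ} (hd : 1 ≤ d) (hτ : 0 < τ) {x x' : E d}
    (h : ixx τ x = ixx τ x') : ‖x - x'‖ ≤ τ := by
  have hd' : (1:ℝ) ≤ d := by exact_mod_cast hd
  have h1 : ∀ i, |x i - x' i| ≤ τ / d := by
    intro i
    have h2 := congrFun h i
    simp only [ixx] at h2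
    have h3 := Int.abs_sub_lt_one_of_floor_eq_floor h2
    rw [← sub_div, ← sub_mul, abs_div, abs_mul, abs_of_pos hτ, Nat.abs_cast, div_lt_one hτ] at h3
    rw [le_div_iff₀ (by linarith)]
    exact h3.le
  rw [EuclideanSpace.norm_eq]
  have h2 : ∑ i, ‖(x - x') i‖ ^ 2 ≤ ∑ _i : Fin d, (τ / d) ^ 2 := by
    refine Finset.sum_le_sum fun i _ => ?_
    rw [Real.norm_eq_abs]
    exact pow_le_pow_left₀ (abs_nonneg _) (by simpa using h1 i) 2
  rw [Finset.sum_const, Finset.card_univ, Fintype.card_fin, nsmul_eq_mul] at h2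
  refine Real.sqrt_le_iff.2 ⟨hτ.le, h2.trans ?_⟩
  have : (d:ℝ) * (τ / d) ^ 2 = τ ^ 2 / d := by
    field_simp
  rw [this]
  exact div_le_self (by positivity) hd'

end G1

open G1 in
theorem g1 : StSlab → StG1 := by
  classical
  intro hSl d m τ z hd hτ hτ1 hz hdel S
  have hprob : IsProbabilityMeasure (stdGaussian (E d)) := inferInstance
  set γ := stdGaussian (E d) with hγ
  set slab : Set (E d) := {x | ∀ k : Fin m, |inner ℝ x (z k.succ - z 0)| ≤ 3 * τ} with hslab
  set P : ℝ := ∏ k : Fin m, (3 / del z k) with hP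
  have hPpos : 0 < P := Finset.prod_pos fun k _ => div_pos (by norm_num) (hdel k)
  have hslabm : γ.real slab ≤ τ ^ m * P := by
    have := hSl d m (fun k : Fin m => z k.succ - z 0) (3 * τ) (by positivity) hdel
    refine this.trans (le_of_eq ?_)
    have e1 : τ ^ m = ∏ _k : Fin m, τ := by simp
    rw [hP, e1, ← Finset.prod_mul_distrib]
    refine Finset.prod_congr rfl fun k _ => ?_
    show 3 * τ / del z k = _
    ring
  -- the auxiliary sets
  set f : E d → ℤ := fun x => ⌊(inner ℝ x (z 0) : ℝ) / τ⌋ with hf
  let D : ℤ → (Fin d → ℤ) × ℤ → Set (E d) := fun e p => {x | x ∈ slab ∧ (ixx τ x, f x + e) = p}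
  have hslabmeas : MeasurableSet slab := by
    rw [hslab]
    have : {x : E d | ∀ k : Fin m, |inner ℝ x (z k.succ - z 0)| ≤ 3 * τ} =
        ⋂ k : Fin m, {x | |inner ℝ x (z k.succ - z 0)| ≤ 3 * τ} := by ext; simp
    rw [this]
    exact MeasurableSet.iInter fun k => (isClosed_le (by fun_prop) (by fun_prop)).measurableSet
  have hDmeas : ∀ e p, MeasurableSet (D e p) := by
    intro e p
    have h1 : Measurable (fun x : E d => (ixx τ x, f x + e)) :=
      (measurable_ixx τ).prodMk ((measurable_fl τ (z 0)).add_const e)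
    exact hslabmeas.inter (h1 (measurableSet_singleton p))
  have hsumD : ∀ e, ∑ p ∈ S, γ.real (D e p) ≤ γ.real slab := by
    intro e
    rw [← measureReal_biUnion_finset]
    · refine measureReal_mono ?_
      intro x hx
      simp only [Set.mem_iUnion] at hx
      obtain ⟨p, _, hp⟩ := hx
      exact hp.1
    · intro p _ q _ hpq
      refine Set.disjoint_left.2 fun x hx hy => hpq ?_
      rw [← hx.2, ← hy.2]
    · intro p _; exact hDmeas e p
  -- bound of one term
  have hterm : ∀ p, (∏ j, rho1 τ p (z j)) / (lam1 τ p) ^ m ≤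
      (τ ^ m)⁻¹ * (γ.real (D (-1) p) + γ.real (D 0 p) + γ.real (D 1 p)) := by
    intro p
    set B : Set (E d) := {x | ixx τ x = p.1} with hB
    have hrho : ∀ j, rho1 τ p (z j) ≤ γ.real B := by
      intro j
      refine measureReal_mono ?_
      intro x hx
      have hx' : idx τ x (inner ℝ x (z j)) = p := hx
      show ixx τ x = p.1
      rw [← hx']; rfl
    have hrho0 : ∀ j, 0 ≤ rho1 τ p (z j) := fun j => measureReal_nonneg
    have hR : 0 ≤ (τ ^ m)⁻¹ * (γ.real (D (-1) p) + γ.real (D 0 p) + γ.real (D 1 p)) := by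
      have h1 : 0 ≤ γ.real (D (-1) p) := measureReal_nonneg
      have h2 : 0 ≤ γ.real (D 0 p) := measureReal_nonneg
      have h3 : 0 ≤ γ.real (D 1 p) := measureReal_nonneg
      positivity
    by_cases hall : ∀ j, rho1 τ p (z j) ≠ 0
    · -- every point of the box satisfies the conditions
      have hex : ∀ j, ∃ x : E d, idx τ x (inner ℝ x (z j)) = p := by
        intro j
        by_contra hno
        push Not at hno
        refine hall j ?_
        have : {x : E d | idx τ x (inner ℝ x (z j)) = p} = ∅ := by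
          ext x; simp [hno x]
        unfold rho1
        rw [this]; simp
      have hkey : ∀ x ∈ B, ∀ j, (p.2:ℝ) * τ - τ ≤ inner ℝ x (z j) ∧
          (inner ℝ x (z j) : ℝ) < (p.2:ℝ) * τ + 2 * τ := by
        intro x hx j
        obtain ⟨x', hx'⟩ := hex j
        have h1 : ixx τ x' = p.1 := by rw [← hx']; rfl
        have h2 : ⌊(inner ℝ x' (z j) : ℝ) / τ⌋ = p.2 := by
          rw [← hx']; rfl
        have h3 : ‖x - x'‖ ≤ τ := norm_sub_le hd hτ (by rw [h1]; exact hx)
        have h4 : |(inner ℝ x (z j) : ℝ) - inner ℝ x' (z j)| ≤ τ := by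
          rw [← inner_sub_left]
          refine (abs_real_inner_le_norm _ _).trans ?_
          calc ‖x - x'‖ * ‖z j‖ ≤ τ * 1 :=
                mul_le_mul h3 (hz j) (norm_nonneg _) hτ.le
            _ = τ := mul_one _
        rw [Int.floor_eq_iff] at h2
        have h5 : (p.2:ℝ) * τ ≤ inner ℝ x' (z j) := by
          have := h2.1; rwa [le_div_iff₀ hτ] at this
        have h6 : (inner ℝ x' (z j) : ℝ) < ((p.2:ℝ) + 1) * τ := by
          have := h2.2; rwa [div_lt_iff₀ hτ] at this
        have h7 := abs_le.1 h4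
        constructor
        · linarith [h7.1]
        · linarith [h7.2]
      have hsub : B ⊆ D (-1) p ∪ D 0 p ∪ D 1 p := by
        intro x hx
        have hsl : x ∈ slab := by
          intro k
          rw [inner_sub_right, abs_le]
          have h1 := hkey x hx k.succ
          have h2 := hkey x hx 0
          constructor <;> linarith [h1.1, h1.2, h2.1, h2.2]
        have h0 := hkey x hx 0
        have hfl : (p.2:ℤ) - 1 ≤ f x := by
          rw [hf]
          refine Int.le_floor.2 ?_
          rw [le_div_iff₀ hτ]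
          push_cast
          linarith [h0.1]
        have hfu : f x < p.2 + 2 := by
          rw [hf]
          refine Int.floor_lt.2 ?_
          rw [div_lt_iff₀ hτ]
          push_cast
          linarith [h0.2]
        have hx1 : ixx τ x = p.1 := hx
        have h3 : f x = p.2 - 1 ∨ f x = p.2 ∨ f x = p.2 + 1 := by omega
        rcases h3 with h3 | h3 | h3
        · right
          refine ⟨hsl, Prod.ext hx1 ?_⟩
          show f x + 1 = p.2; omega
        · left; right
          refine ⟨hsl, Prod.ext hx1 ?_⟩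
          show f x + 0 = p.2; omega
        · left; left
          refine ⟨hsl, Prod.ext hx1 ?_⟩
          show f x + -1 = p.2; omega
      have hBle : γ.real B ≤ γ.real (D (-1) p) + γ.real (D 0 p) + γ.real (D 1 p) := by
        refine (measureReal_mono hsub).trans ?_
        refine (measureReal_union_le _ _).trans ?_
        gcongr
        exact measureReal_union_le _ _
      have hBpos : 0 < γ.real B := by
        rcases (measureReal_nonneg : 0 ≤ γ.real B).eq_or_lt with h | h
        · exfalso
          exact hall 0 (le_antisymm ((hrho 0).trans h.ge) (hrho0 0))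
        · exact h
      have hprod : ∏ j, rho1 τ p (z j) ≤ γ.real B ^ (m + 1) := by
        calc ∏ j, rho1 τ p (z j) ≤ ∏ _j : Fin (m + 1), γ.real B :=
              Finset.prod_le_prod (fun j _ => hrho0 j) (fun j _ => hrho j)
          _ = _ := by simp
      have hlam : lam1 τ p = γ.real B * τ := rfl
      rw [hlam, div_le_iff₀ (by positivity)]
      refine hprod.trans ?_
      rw [pow_succ, mul_pow]
      have : (τ ^ m)⁻¹ * (γ.real (D (-1) p) + γ.real (D 0 p) + γ.real (D 1 p)) *
          (γ.real B ^ m * τ ^ m) =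
          γ.real B ^ m * (γ.real (D (-1) p) + γ.real (D 0 p) + γ.real (D 1 p)) := by
        field_simp
      rw [this]
      exact mul_le_mul_of_nonneg_left hBle (by positivity)
    · push Not at hall
      obtain ⟨j, hj⟩ := hall
      rw [Finset.prod_eq_zero (Finset.mem_univ j) hj, zero_div]
      exact hR
  calc ∑ p ∈ S, (∏ j, rho1 τ p (z j)) / (lam1 τ p) ^ m
      ≤ ∑ p ∈ S, (τ ^ m)⁻¹ * (γ.real (D (-1) p) + γ.real (D 0 p) + γ.real (D 1 p)) :=
        Finset.sum_le_sum fun p _ => hterm p
    _ = (τ ^ m)⁻¹ * (∑ p ∈ S, γ.real (D (-1) p) + ∑ p ∈ S, γ.real (D 0 p) +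
          ∑ p ∈ S, γ.real (D 1 p)) := by
        rw [← Finset.mul_sum, Finset.sum_add_distrib, Finset.sum_add_distrib]
    _ ≤ (τ ^ m)⁻¹ * (τ ^ m * P + τ ^ m * P + τ ^ m * P) := by
        refine mul_le_mul_of_nonneg_left ?_ (by positivity)
        linarith [hsumD (-1), hsumD 0, hsumD 1]
    _ = 3 * P := by field_simp; ring
    _ ≤ 4 * P := by linarith

end Crest.Agent.R322
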