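import Crest.Agent.R322.G1

/-! Row 322, task GB: the kernel and the weights of the discretisation. -/

set_option autoImplicit false

open MeasureTheory ProbabilityTheory

noncomputable section

namespace Crest.Agent.R322

namespace GB

theorem measurable_idx {d : ℕ} (τ : ℝ) : Measurable (fun p : E d × ℝ => idx τ p.1 p.2) := by
  unfold idx
  refine ((G1.measurable_ixx τ).comp measurable_fst).prodMk ?_
  exact Int.measurable_floor.comp (measurable_snd.div_const _)

/-- the fibres of `Bx` -/
theorem measurableSet_Bx {d N : ℕ} (τ : ℝ) (S : Finset ((Fin d → ℤ) × ℤ))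
    (y : Option (Fin N → S)) :
    MeasurableSet {p : (Fin N → E d) × (Fin N → ℝ) | Bx τ S p = y} := by
  classical
  have hn : ∀ n : Fin N, Measurable (fun p : (Fin N → E d) × (Fin N → ℝ) =>
      idx τ (p.1 n) (p.2 n)) := by
    intro n
    have h1 : Measurable (fun p : (Fin N → E d) × (Fin N → ℝ) => ((p.1 n, p.2 n) : E d × ℝ)) :=
      ((measurable_pi_apply n).comp measurable_fst).prodMk
        ((measurable_pi_apply n).comp measurable_snd)
    exact (measurable_idx τ).comp h1
  have hsome : ∀ f : Fin N → S, {p : (Fin N → E d) × (Fin N → ℝ) | Bx τ S p = some f} =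
      ⋂ n, {p | idx τ (p.1 n) (p.2 n) = (f n : (Fin d → ℤ) × ℤ)} := by
    intro f
    ext p
    simp only [Set.mem_setOf_eq, Set.mem_iInter, Bx]
    constructor
    · intro h n
      by_cases hc : ∀ n, idx τ (p.1 n) (p.2 n) ∈ S
      · rw [dif_pos hc] at h
        have := congrFun (Option.some.inj h) n
        rw [← this]
      · rw [dif_neg hc] at h; exact absurd h (by simp)
    · intro h
      have hc : ∀ n, idx τ (p.1 n) (p.2 n) ∈ S := fun n => by rw [h n]; exact (f n).2
      rw [dif_pos hc]
      congr 1
      funext n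
      exact Subtype.ext (h n)
  cases y with
  | some f =>
    rw [hsome]
    exact MeasurableSet.iInter fun n => hn n (measurableSet_singleton _)
  | none =>
    have : {p : (Fin N → E d) × (Fin N → ℝ) | Bx τ S p = none} =
        (⋂ n, {p | idx τ (p.1 n) (p.2 n) ∈ (S : Set ((Fin d → ℤ) × ℤ))})ᶜ := by
      ext p
      simp only [Set.mem_setOf_eq, Set.mem_iInter, Set.mem_compl_iff, Bx, Finset.mem_coe]
      constructor
      · intro h hc
        rw [dif_pos hc] at h
        exact absurd h (by simp)
      · intro h; rw [dif_neg h]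
    rw [this]
    exact (MeasurableSet.iInter fun n => hn n (S.countable_toSet.measurableSet)).compl

theorem measurable_meas_pair {d N : ℕ} :
    Measurable (fun q : E d × (Fin N → E d) => (q.2, meas q.2 q.1)) := by
  refine measurable_snd.prodMk ?_
  refine measurable_pi_lambda _ fun n => ?_
  have : Continuous (fun q : E d × (Fin N → E d) => (inner ℝ (q.2 n) q.1 : ℝ)) := by fun_prop
  exact this.measurable

instance {d N : ℕ} : IsProbabilityMeasure (rows d N) := by unfold rows; infer_instance

theorem rhoN_some {d N : ℕ} (τ : ℝ) (S : Finset ((Fin d → ℤ) × ℤ)) (f : Fin N → S) (z : E d) :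
    rhoN N τ S (some f) z = ∏ n, rho1 τ (f n) z := by
  classical
  unfold rhoN rho1
  have h : {X : Fin N → E d | Bx τ S (X, meas X z) = some f} =
      Set.univ.pi fun n => {x : E d | idx τ x (inner ℝ x z) = (f n : (Fin d → ℤ) × ℤ)} := by
    ext X
    simp only [Set.mem_setOf_eq, Set.mem_pi, Set.mem_univ, true_implies, Bx, meas]
    constructor
    · intro h n
      by_cases hc : ∀ n, idx τ (X n) (inner ℝ (X n) z) ∈ S
      · rw [dif_pos hc] at h
        have := congrFun (Option.some.inj h) n
        rw [← this]
      · rw [dif_neg hc] at h; exact absurd h (by simp)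
    · intro h
      have hc : ∀ n, idx τ (X n) (inner ℝ (X n) z) ∈ S := fun n => by rw [h n]; exact (f n).2
      rw [dif_pos hc]
      congr 1
      funext n
      exact Subtype.ext (h n)
  rw [h]
  unfold rows
  rw [measureReal_def, Measure.pi_pi, ENNReal.toReal_prod]
  rfl

theorem rho1_le {d : ℕ} (τ : ℝ) (p : (Fin d → ℤ) × ℤ) (z : E d) :
    rho1 τ p z ≤ (stdGaussian (E d)).real {x | ixx τ x = p.1} := by
  refine measureReal_mono ?_
  intro x hx
  have hx' : idx τ x (inner ℝ x z) = p := hx
  show ixx τ x = p.1
  rw [← hx']; rfl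

end GB

open GB in
theorem gb : StG1 → StGB := by
  classical
  intro hG d m N τ S hd hτ hτ1
  have hlam0 : ∀ y, 0 ≤ lamN N τ S y := by
    intro y
    cases y with
    | none => exact zero_le_one
    | some f =>
      exact Finset.prod_nonneg fun n _ => mul_nonneg measureReal_nonneg hτ.le
  have hrho0 : ∀ y z, 0 ≤ rhoN N τ S y z := fun y z => measureReal_nonneg
  have hsum : ∀ z, ∑ y, rhoN N τ S y z = 1 := by
    intro z
    unfold rhoN
    have hm : ∀ y, MeasurableSet {X : Fin N → E d | Bx τ S (X, meas X z) = y} := by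
      intro y
      have h1 : Measurable (fun X : Fin N → E d => (X, meas X z)) :=
        measurable_meas_pair.comp measurable_prodMk_left
      exact h1 (measurableSet_Bx τ S y)
    rw [← measureReal_biUnion_finset]
    · have : (⋃ y ∈ (Finset.univ : Finset (Option (Fin N → S))),
          {X : Fin N → E d | Bx τ S (X, meas X z) = y}) = Set.univ := by
        ext X; simp
      rw [this]; exact probReal_univ
    · intro y _ y' _ hne
      refine Set.disjoint_left.2 fun X hX hX' => hne ?_
      rw [← hX, ← hX']
    · intro y _; exact hm y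
  refine ⟨?_, hrho0, hsum, hlam0, ?_, ?_⟩
  · intro y
    unfold rhoN
    have h2 : MeasurableSet ((fun q : E d × (Fin N → E d) => (q.2, meas q.2 q.1)) ⁻¹'
        {p : (Fin N → E d) × (Fin N → ℝ) | Bx τ S p = y}) :=
      measurable_meas_pair (measurableSet_Bx τ S y)
    exact (measurable_measure_prodMk_left h2).ennreal_toReal
  · intro y z hy
    cases y with
    | none => exact absurd hy one_ne_zero
    | some f =>
      rw [rhoN_some]
      have hy' : ∏ n, lam1 τ (f n : (Fin d → ℤ) × ℤ) = 0 := hy
      obtain ⟨n, _, hn⟩ := Finset.prod_eq_zero_iff.1 hy'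
      refine Finset.prod_eq_zero (Finset.mem_univ n) ?_
      have h1 : (stdGaussian (E d)).real {x | ixx τ x = (f n : (Fin d → ℤ) × ℤ).1} = 0 := by
        rcases mul_eq_zero.1 hn with h | h
        · exact h
        · exact absurd h hτ.ne'
      exact le_antisymm ((rho1_le τ _ z).trans h1.le) measureReal_nonneg
  · intro z hz hdel hdel1
    set X : ℝ := (4 * ∏ k, (3 / del z k)) ^ N with hX
    have hbase : 1 ≤ 4 * ∏ k : Fin m, (3 / del z k) := by
      have : (1:ℝ) ≤ ∏ k : Fin m, (3 / del z k) := by
        calc (1:ℝ) = ∏ _k : Fin m, (1:ℝ) := by simp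
          _ ≤ ∏ k : Fin m, (3 / del z k) := by
            refine Finset.prod_le_prod (fun _ _ => zero_le_one) fun k _ => ?_
            rw [le_div_iff₀ (hdel k)]
            linarith [hdel1 k]
      linarith
    have hX1 : 1 ≤ X := one_le_pow₀ hbase
    rw [Fintype.sum_option]
    have hnone : (∏ j, rhoN N τ S none (z j)) / (lamN N τ S none) ^ m ≤ 1 := by
      have : lamN N τ S none = 1 := rfl
      rw [this, one_pow, div_one]
      exact Finset.prod_le_one (fun j _ => hrho0 _ _) (fun j _ => measureReal_le_one)
    have hsome : ∑ f : Fin N → S, (∏ j, rhoN N τ S (some f) (z j)) / (lamN N τ S (some f)) ^ m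
        ≤ X := by
      have h1 : ∀ f : Fin N → S, (∏ j, rhoN N τ S (some f) (z j)) / (lamN N τ S (some f)) ^ m =
          ∏ n, ((∏ j, rho1 τ (f n : (Fin d → ℤ) × ℤ) (z j)) /
            (lam1 τ (f n : (Fin d → ℤ) × ℤ)) ^ m) := by
        intro f
        simp_rw [rhoN_some]
        have : lamN N τ S (some f) = ∏ n, lam1 τ (f n : (Fin d → ℤ) × ℤ) := rfl
        rw [this, Finset.prod_comm, ← Finset.prod_pow, Finset.prod_div_distrib]
      simp_rw [h1]
      have h3 := Fintype.sum_pow (fun p : S => (∏ j, rho1 τ (p : (Fin d → ℤ) × ℤ) (z j)) /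
        (lam1 τ (p : (Fin d → ℤ) × ℤ)) ^ m) N
      rw [← h3, hX]
      refine pow_le_pow_left₀ ?_ ?_ N
      · refine Finset.sum_nonneg fun p _ => div_nonneg (Finset.prod_nonneg fun j _ =>
          measureReal_nonneg) (pow_nonneg (mul_nonneg measureReal_nonneg hτ.le) m)
      · have h2 := hG d m τ z hd hτ hτ1 hz hdel S
        rw [← Finset.sum_coe_sort S] at h2
        exact h2
    linarith

end Crest.Agent.R322
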