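import Crest.Agent.R322.GB

/-! Row 322, task H0: the entropy term. -/

set_option autoImplicit false

open MeasureTheory ProbabilityTheory

noncomputable section

namespace Crest.Agent.R322

namespace H0

/-- the comparison weights on the integers -/
def w0 (τ : ℝ) (j : ℤ) : ℝ := τ / 4 * Real.exp (-τ) ^ j.natAbs

theorem w0_pos {τ : ℝ} (hτ : 0 < τ) (j : ℤ) : 0 < w0 τ j :=
  mul_pos (by linarith) (pow_pos (Real.exp_pos _) _)

theorem half_le {τ : ℝ} (hτ : 0 < τ) (hτ1 : τ ≤ 1) : τ / 2 ≤ 1 - Real.exp (-τ) := by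
  have h1 : Real.exp (-τ) ≤ 1 / (1 + τ) := by
    rw [Real.exp_neg, ← one_div]
    exact one_div_le_one_div_of_le (by linarith) (by linarith [Real.add_one_le_exp τ])
  have h2 : 1 / (1 + τ) ≤ 1 - τ / 2 := by
    rw [div_le_iff₀ (by linarith)]
    nlinarith
  linarith

theorem sum_w0 {τ : ℝ} (hτ : 0 < τ) (hτ1 : τ ≤ 1) (J : Finset ℤ) : ∑ j ∈ J, w0 τ j ≤ 1 := by
  classical
  set r : ℝ := Real.exp (-τ) with hr
  have hr0 : 0 ≤ r := (Real.exp_pos _).le
  have hr1 : r < 1 := by
    have := half_le hτ hτ1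
    linarith
  have hs : Summable (fun n : ℕ => r ^ n) := summable_geometric_of_lt_one hr0 hr1
  have hpart : ∀ K : Finset ℤ, Set.InjOn Int.natAbs (K : Set ℤ) →
      ∑ j ∈ K, r ^ j.natAbs ≤ (1 - r)⁻¹ := by
    intro K hK
    have h1 : ∑ j ∈ K, r ^ j.natAbs = ∑ n ∈ K.image Int.natAbs, r ^ n := by
      rw [Finset.sum_image]
      intro x hx y hy h
      exact hK hx hy h
    rw [h1, ← tsum_geometric_of_lt_one hr0 hr1]
    exact hs.sum_le_tsum _ (fun n _ => pow_nonneg hr0 n)
  have hsplit : ∑ j ∈ J, r ^ j.natAbs =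
      ∑ j ∈ J with 0 ≤ j, r ^ j.natAbs + ∑ j ∈ J with ¬ 0 ≤ j, r ^ j.natAbs :=
    (Finset.sum_filter_add_sum_filter_not J (fun j => 0 ≤ j) _).symm
  have h1 := hpart (J.filter (fun j => 0 ≤ j)) (by
    intro x hx y hy h
    simp only [Finset.coe_filter, Set.mem_setOf_eq] at hx hy
    omega)
  have h2 := hpart (J.filter (fun j => ¬ 0 ≤ j)) (by
    intro x hx y hy h
    simp only [Finset.coe_filter, Set.mem_setOf_eq] at hx hy
    omega)
  have h3 : (1 - r)⁻¹ ≤ 2 / τ := by
    have := half_le hτ hτ1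
    rw [inv_le_comm₀ (by linarith) (by positivity)]
    rw [inv_div]
    exact this
  have h4 : ∑ j ∈ J, w0 τ j = τ / 4 * ∑ j ∈ J, r ^ j.natAbs := by
    rw [Finset.mul_sum]; rfl
  rw [h4, hsplit]
  have h5 : τ / 4 * (2 / τ + 2 / τ) = 1 := by field_simp; norm_num
  calc τ / 4 * (∑ j ∈ J with 0 ≤ j, r ^ j.natAbs + ∑ j ∈ J with ¬ 0 ≤ j, r ^ j.natAbs)
      ≤ τ / 4 * (2 / τ + 2 / τ) := by
        apply mul_le_mul_of_nonneg_left _ (by linarith)
        linarith
    _ = 1 := h5

/-- the Gaussian mass of a box of rows -/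
def ga {d : ℕ} (τ : ℝ) (b : Fin d → ℤ) : ℝ := (stdGaussian (E d)).real {x | ixx τ x = b}

theorem sum_ga {d : ℕ} (τ : ℝ) (K : Finset (Fin d → ℤ)) : ∑ b ∈ K, ga τ b ≤ 1 := by
  classical
  unfold ga
  rw [← measureReal_biUnion_finset]
  · exact measureReal_le_one
  · intro y _ y' _ hne
    refine Set.disjoint_left.2 fun X hX hX' => hne ?_
    have h1 : ixx τ X = y := hX
    have h2 : ixx τ X = y' := hX'
    rw [← h1, ← h2]
  · intro y _
    exact G1.measurable_ixx τ (measurableSet_singleton y)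

theorem sum_gw {d : ℕ} {τ : ℝ} (hτ : 0 < τ) (hτ1 : τ ≤ 1) (S : Finset ((Fin d → ℤ) × ℤ)) :
    ∑ p ∈ S, ga τ p.1 * w0 τ p.2 ≤ 1 := by
  classical
  have hga : ∀ b : Fin d → ℤ, 0 ≤ ga τ b := fun b => measureReal_nonneg
  calc ∑ p ∈ S, ga τ p.1 * w0 τ p.2
      ≤ ∑ p ∈ S.image Prod.fst ×ˢ S.image Prod.snd, ga τ p.1 * w0 τ p.2 := by
        apply Finset.sum_le_sum_of_subset_of_nonneg
        · intro p hp
          rw [Finset.mem_product]
          exact ⟨Finset.mem_image_of_mem _ hp, Finset.mem_image_of_mem _ hp⟩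
        · intro p _ _
          exact mul_nonneg (hga _) (w0_pos hτ _).le
    _ = (∑ b ∈ S.image Prod.fst, ga τ b) * ∑ j ∈ S.image Prod.snd, w0 τ j := by
        rw [Finset.sum_mul_sum, ← Finset.sum_product']
    _ ≤ 1 * 1 := by
        apply mul_le_mul (sum_ga τ _) (sum_w0 hτ hτ1 _) _ zero_le_one
        exact Finset.sum_nonneg fun j _ => (w0_pos hτ j).le
    _ = 1 := one_mul 1

/-- `log (τ / w0 τ j)` -/
def hh (τ : ℝ) (j : ℤ) : ℝ := Real.log 4 + (j.natAbs : ℝ) * τ

theorem hh_nonneg {τ : ℝ} (hτ : 0 < τ) (j : ℤ) : 0 ≤ hh τ j :=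
  add_nonneg (Real.log_nonneg (by norm_num)) (mul_nonneg (Nat.cast_nonneg _) hτ.le)

theorem tau_eq {τ : ℝ} (j : ℤ) : τ = w0 τ j * Real.exp (hh τ j) := by
  unfold w0 hh
  rw [Real.exp_add, Real.exp_log (by norm_num), ← Real.exp_nat_mul]
  have : Real.exp (↑j.natAbs * -τ) * Real.exp (↑j.natAbs * τ) = 1 := by
    rw [← Real.exp_add]; simp
  calc τ = τ * 1 := (mul_one τ).symm
    _ = τ * (Real.exp (↑j.natAbs * -τ) * Real.exp (↑j.natAbs * τ)) := by rw [this]
    _ = _ := by ring

theorem hh_floor {τ : ℝ} (hτ : 0 < τ) (hτ1 : τ ≤ 1) (β : ℝ) :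
    hh τ ⌊β / τ⌋ ≤ Real.log 4 + 1 + |β| := by
  unfold hh
  have h1 : ((⌊β / τ⌋.natAbs : ℕ) : ℝ) = |((⌊β / τ⌋ : ℤ) : ℝ)| := by
    rw [Nat.cast_natAbs, Int.cast_abs]
  rw [h1]
  have h2 : |((⌊β / τ⌋ : ℤ) : ℝ)| ≤ |β / τ| + 1 := by
    rw [abs_le]
    constructor
    · have := Int.lt_floor_add_one (β / τ)
      have h3 := neg_abs_le (β / τ)
      linarith
    · have := Int.floor_le (β / τ)
      have h3 := le_abs_self (β / τ)
      linarith
  have h4 : |β / τ| * τ = |β| := by
    rw [abs_div, abs_of_pos hτ, div_mul_cancel₀ _ hτ.ne']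
  nlinarith

theorem sg_map_inner {d : ℕ} (u : E d) :
    (stdGaussian (E d)).map (fun x => inner ℝ x u) = gaussianReal 0 (‖u‖₊ ^ 2) := by
  have h1 : (fun x : E d => inner ℝ x u) = ⇑(innerSL ℝ u) := by
    ext x; simp [real_inner_comm]
  have h2 := IsGaussian.map_eq_gaussianReal (μ := stdGaussian (E d)) (innerSL ℝ u)
  rw [h1, h2, integral_strongDual_stdGaussian, variance_dual_stdGaussian]
  congr 1
  rw [innerSL_apply_norm]
  ext
  simp

theorem integrable_sq (v : NNReal) : Integrable (fun x : ℝ => x ^ 2) (gaussianReal 0 v) := by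
  have h : MemLp (fun x : ℝ => x) 2 (gaussianReal 0 v) := by
    have := memLp_id_gaussianReal (μ := 0) (v := v) 2
    exact this
  exact h.integrable_sq

theorem integral_sq (v : NNReal) : ∫ x : ℝ, x ^ 2 ∂(gaussianReal 0 v) = v := by
  have h1 := variance_of_integral_eq_zero (μ := gaussianReal 0 v) (X := fun x : ℝ => x)
    (by fun_prop) integral_id_gaussianReal
  rw [variance_fun_id_gaussianReal] at h1
  rw [h1]

theorem integrable_abs_inner {d : ℕ} (z : E d) :
    Integrable (fun x : E d => |(inner ℝ x z : ℝ)|) (stdGaussian (E d)) := by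
  have h1 : Integrable (fun x : ℝ => |x|) (gaussianReal 0 (‖z‖₊ ^ 2)) := by
    have : Integrable (fun x : ℝ => x) (gaussianReal 0 (‖z‖₊ ^ 2)) :=
      (memLp_id_gaussianReal (μ := 0) (v := ‖z‖₊ ^ 2) 1).integrable le_rfl
    exact this.abs
  rw [← sg_map_inner z] at h1
  exact h1.comp_aemeasurable (by fun_prop)

theorem integral_abs_inner {d : ℕ} (z : E d) (hz : ‖z‖ ≤ 1) :
    ∫ x : E d, |(inner ℝ x z : ℝ)| ∂(stdGaussian (E d)) ≤ 1 := by
  have h0 : ∫ x : E d, |(inner ℝ x z : ℝ)| ∂(stdGaussian (E d)) =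
      ∫ x : ℝ, |x| ∂(gaussianReal 0 (‖z‖₊ ^ 2)) := by
    rw [← sg_map_inner z, integral_map (by fun_prop) (by fun_prop)]
  rw [h0]
  have h1 : ∫ x : ℝ, |x| ∂(gaussianReal 0 (‖z‖₊ ^ 2)) ≤
      ∫ x : ℝ, (1 / 2 + 1 / 2 * x ^ 2) ∂(gaussianReal 0 (‖z‖₊ ^ 2)) := by
    refine integral_mono_of_nonneg (ae_of_all _ fun x => abs_nonneg x) ?_
      (ae_of_all _ fun x => ?_)
    · exact (integrable_const _).add ((integrable_sq _).const_mul _)
    · show |x| ≤ 1 / 2 + 1 / 2 * x ^ 2
      nlinarith [sq_nonneg (|x| - 1), sq_abs x]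
  refine h1.trans ?_
  rw [integral_add (integrable_const _) ((integrable_sq _).const_mul _), integral_const_mul,
    integral_sq]
  simp only [integral_const, probReal_univ, smul_eq_mul, one_mul]
  have : ((‖z‖₊ ^ 2 : NNReal) : ℝ) ≤ 1 := by
    have : ((‖z‖₊ ^ 2 : NNReal) : ℝ) = ‖z‖ ^ 2 := by simp
    rw [this]
    exact pow_le_one₀ (norm_nonneg z) hz
  linarith

/-- total `log` weight of a string of boxes -/
def HH {d N : ℕ} (τ : ℝ) (S : Finset ((Fin d → ℤ) × ℤ)) (f : Fin N → S) : ℝ :=
  ∑ n, hh τ (f n : (Fin d → ℤ) × ℤ).2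

theorem measurableSet_fib {d N : ℕ} (τ : ℝ) (S : Finset ((Fin d → ℤ) × ℤ))
    (y : Option (Fin N → S)) (z : E d) :
    MeasurableSet {X : Fin N → E d | Bx τ S (X, meas X z) = y} := by
  have h1 : Measurable (fun X : Fin N → E d => (X, meas X z)) :=
    GB.measurable_meas_pair.comp measurable_prodMk_left
  exact h1 (GB.measurableSet_Bx τ S y)

theorem sum_rho_HH {d N : ℕ} {τ : ℝ} (hτ : 0 < τ) (hτ1 : τ ≤ 1)
    (S : Finset ((Fin d → ℤ) × ℤ)) (z : E d) (hz : ‖z‖ ≤ 1) :
    ∑ f : Fin N → S, rhoN N τ S (some f) z * HH τ S f ≤ N * (Real.log 4 + 2) := by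
  classical
  have h1 : ∀ f : Fin N → S, rhoN N τ S (some f) z * HH τ S f =
      ∫ X, {X : Fin N → E d | Bx τ S (X, meas X z) = some f}.indicator
        (fun _ => HH τ S f) X ∂(rows d N) := by
    intro f
    rw [integral_indicator_const _ (measurableSet_fib τ S (some f) z)]
    rfl
  simp_rw [h1]
  rw [← integral_finsetSum]
  swap
  · intro f _
    exact (integrable_const _).indicator (measurableSet_fib τ S (some f) z)
  have hint : ∀ n : Fin N, Integrable (fun X : Fin N → E d =>
      Real.log 4 + 1 + |(inner ℝ (X n) z : ℝ)|) (rows d N) := by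
    intro n
    refine (integrable_const _).add ?_
    exact (measurePreserving_eval (fun _ : Fin N => stdGaussian (E d)) n).integrable_comp_of_integrable
      (integrable_abs_inner z)
  have hint' : Integrable (fun X : Fin N → E d =>
      ∑ n, (Real.log 4 + 1 + |(inner ℝ (X n) z : ℝ)|)) (rows d N) :=
    integrable_finsetSum _ fun n _ => hint n
  have hlog : 0 ≤ Real.log 4 := Real.log_nonneg (by norm_num)
  have h2 : ∫ X, ∑ f : Fin N → S, {X : Fin N → E d | Bx τ S (X, meas X z) = some f}.indicator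
        (fun _ => HH τ S f) X ∂(rows d N) ≤
      ∫ X, ∑ n, (Real.log 4 + 1 + |(inner ℝ (X n) z : ℝ)|) ∂(rows d N) := by
    refine integral_mono_of_nonneg (ae_of_all _ fun X => ?_) hint' (ae_of_all _ fun X => ?_)
    · refine Finset.sum_nonneg fun f _ => Set.indicator_nonneg (fun _ _ => ?_) _
      exact Finset.sum_nonneg fun n _ => hh_nonneg hτ _
    · show ∑ f : Fin N → S, {X : Fin N → E d | Bx τ S (X, meas X z) = some f}.indicator
        (fun _ => HH τ S f) X ≤ ∑ n, (Real.log 4 + 1 + |(inner ℝ (X n) z : ℝ)|)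
      have hR : 0 ≤ ∑ n : Fin N, (Real.log 4 + 1 + |(inner ℝ (X n) z : ℝ)|) :=
        Finset.sum_nonneg fun n _ => by positivity
      rcases hB : Bx τ S (X, meas X z) with _ | f0
      · rw [Finset.sum_eq_zero]
        · exact hR
        · intro f _
          apply Set.indicator_of_notMem
          intro hX
          have hX' : Bx τ S (X, meas X z) = some f := hX
          rw [hB] at hX'
          exact absurd hX' (by simp)
      · rw [Finset.sum_eq_single f0]
        · rw [Set.indicator_of_mem (show X ∈ {X : Fin N → E d | Bx τ S (X, meas X z) = some f0}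
            from hB)]
          unfold HH
          refine Finset.sum_le_sum fun n _ => ?_
          have h3 : idx τ (X n) (inner ℝ (X n) z) = (f0 n : (Fin d → ℤ) × ℤ) := by
            unfold Bx at hB
            by_cases hc : ∀ n, idx τ (X n) (meas X z n) ∈ S
            · rw [dif_pos hc] at hB
              have := congrFun (Option.some.inj hB) n
              rw [← this]; rfl
            · rw [dif_neg hc] at hB; exact absurd hB (by simp)
          have h4 : (f0 n : (Fin d → ℤ) × ℤ).2 = ⌊(inner ℝ (X n) z : ℝ) / τ⌋ := by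
            rw [← h3]; rfl
          rw [h4]
          exact hh_floor hτ hτ1 _
        · intro f _ hf
          apply Set.indicator_of_notMem
          intro hX
          have hX' : Bx τ S (X, meas X z) = some f := hX
          rw [hB] at hX'
          exact hf (Option.some.inj hX').symm
        · intro h; exact absurd (Finset.mem_univ _) h
  refine h2.trans ?_
  rw [integral_finsetSum _ fun n _ => hint n]
  have h5 : ∀ n : Fin N, ∫ X, (Real.log 4 + 1 + |(inner ℝ (X n) z : ℝ)|) ∂(rows d N) ≤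
      Real.log 4 + 2 := by
    intro n
    have h6 : ∫ X : Fin N → E d, |(inner ℝ (X n) z : ℝ)| ∂(rows d N) =
        ∫ x, |(inner ℝ x z : ℝ)| ∂(stdGaussian (E d)) := by
      have h7 := (measurePreserving_eval (fun _ : Fin N => stdGaussian (E d)) n).map_eq
      rw [← h7, integral_map (measurable_pi_apply n).aemeasurable (by fun_prop)]
      rfl
    have h8 : Integrable (fun X : Fin N → E d => |(inner ℝ (X n) z : ℝ)|) (rows d N) :=
      (measurePreserving_eval (fun _ : Fin N => stdGaussian (E d)) n).integrable_comp_of_integrable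
        (integrable_abs_inner z)
    rw [integral_add (integrable_const _) h8, h6]
    simp only [integral_const, probReal_univ, smul_eq_mul, one_mul]
    linarith [integral_abs_inner z hz]
  calc ∑ n : Fin N, ∫ X, (Real.log 4 + 1 + |(inner ℝ (X n) z : ℝ)|) ∂(rows d N)
      ≤ ∑ _n : Fin N, (Real.log 4 + 2) := Finset.sum_le_sum fun n _ => h5 n
    _ = N * (Real.log 4 + 2) := by simp; ring

end H0

open H0 in
theorem h0 : StH0 := by
  classical
  intro d N τ S Q hQ hd hN hτ hτ1 hnorm
  set q : Option (Fin N → S) → ℝ := fun y => ∫ z, rhoN N τ S y z ∂Q with hq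
  have hrho0 : ∀ y z, 0 ≤ rhoN N τ S y z := fun y z => measureReal_nonneg
  have hrho1 : ∀ y z, rhoN N τ S y z ≤ 1 := fun y z => measureReal_le_one
  have hrhom : ∀ y, Measurable (rhoN N τ S y) := by
    intro y
    unfold rhoN
    have h2 : MeasurableSet ((fun q : E d × (Fin N → E d) => (q.2, meas q.2 q.1)) ⁻¹'
        {p : (Fin N → E d) × (Fin N → ℝ) | Bx τ S p = y}) :=
      GB.measurable_meas_pair (GB.measurableSet_Bx τ S y)
    exact (measurable_measure_prodMk_left h2).ennreal_toReal
  have hrhoi : ∀ y, Integrable (rhoN N τ S y) Q := by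
    intro y
    refine Integrable.of_bound (hrhom y).aestronglyMeasurable 1 (ae_of_all _ fun z => ?_)
    rw [Real.norm_eq_abs, abs_of_nonneg (hrho0 y z)]
    exact hrho1 y z
  have hq0 : ∀ y, 0 ≤ q y := fun y => integral_nonneg fun z => hrho0 y z
  show ∑ y, q y * Real.log (lamN N τ S y / q y) ≤ 7 * N
  rw [Fintype.sum_option]
  -- the exceptional box
  have hnone : q none * Real.log (lamN N τ S none / q none) ≤ 1 := by
    have hl : lamN N τ S none = 1 := rfl
    rw [hl]
    rcases (hq0 none).eq_or_lt with h | h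
    · rw [← h]; simp
    · have h1 := Real.log_le_sub_one_of_pos (show 0 < 1 / q none by positivity)
      have h2 : q none * Real.log (1 / q none) ≤ q none * (1 / q none - 1) :=
        mul_le_mul_of_nonneg_left h1 h.le
      have h3 : q none * (1 / q none - 1) = 1 - q none := by
        field_simp
      linarith [hq0 none]
  -- the other boxes
  set w : (Fin N → S) → ℝ := fun f => ∏ n, (ga τ (f n : (Fin d → ℤ) × ℤ).1 *
    w0 τ (f n : (Fin d → ℤ) × ℤ).2) with hw
  have hw0 : ∀ f, 0 ≤ w f := fun f => Finset.prod_nonneg fun n _ =>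
    mul_nonneg measureReal_nonneg (w0_pos hτ _).le
  have hterm : ∀ f : Fin N → S, q (some f) * Real.log (lamN N τ S (some f) / q (some f)) ≤
      w f + q (some f) * HH τ S f := by
    intro f
    rcases (hq0 (some f)).eq_or_lt with h | h
    · rw [← h]; simpa using hw0 f
    · have hg : ∀ n, 0 < ga τ (f n : (Fin d → ℤ) × ℤ).1 := by
        intro n
        rcases (show 0 ≤ ga τ (f n : (Fin d → ℤ) × ℤ).1 from measureReal_nonneg).eq_or_lt with
          hg | hg
        · exfalso
          have hz : ∀ z, rhoN N τ S (some f) z = 0 := by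
            intro z
            rw [GB.rhoN_some]
            refine Finset.prod_eq_zero (Finset.mem_univ n) ?_
            exact le_antisymm ((GB.rho1_le τ _ z).trans hg.symm.le) measureReal_nonneg
          have : q (some f) = 0 := by
            show ∫ z, rhoN N τ S (some f) z ∂Q = 0
            simp_rw [hz]; simp
          linarith
        · exact hg
      have hwpos : 0 < w f := Finset.prod_pos fun n _ => mul_pos (hg n) (w0_pos hτ _)
      have hl : lamN N τ S (some f) = w f * Real.exp (HH τ S f) := by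
        have : lamN N τ S (some f) = ∏ n, lam1 τ (f n : (Fin d → ℤ) × ℤ) := rfl
        rw [this, hw]
        unfold HH
        rw [Real.exp_sum, ← Finset.prod_mul_distrib]
        refine Finset.prod_congr rfl fun n _ => ?_
        show (stdGaussian (E d)).real {x | ixx τ x = (f n : (Fin d → ℤ) × ℤ).1} * τ = _
        have ht := tau_eq (τ := τ) (f n : (Fin d → ℤ) × ℤ).2
        unfold ga
        rw [mul_assoc, ← ht]
      rw [hl, mul_div_right_comm, Real.log_mul (by positivity) (Real.exp_pos _).ne',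
        Real.log_exp, mul_add]
      have h1 := Real.log_le_sub_one_of_pos (show 0 < w f / q (some f) by positivity)
      have h2 : q (some f) * Real.log (w f / q (some f)) ≤ q (some f) * (w f / q (some f) - 1) :=
        mul_le_mul_of_nonneg_left h1 h.le
      have h3 : q (some f) * (w f / q (some f) - 1) = w f - q (some f) := by
        field_simp
      linarith
  have hsumw : ∑ f, w f ≤ 1 := by
    have h3 := Fintype.sum_pow (fun p : S => ga τ (p : (Fin d → ℤ) × ℤ).1 *
      w0 τ (p : (Fin d → ℤ) × ℤ).2) N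
    rw [hw]
    rw [← h3]
    refine pow_le_one₀ ?_ ?_
    · exact Finset.sum_nonneg fun p _ => mul_nonneg measureReal_nonneg (w0_pos hτ _).le
    · rw [Finset.sum_coe_sort S (fun p => ga τ p.1 * w0 τ p.2)]
      exact sum_gw hτ hτ1 S
  have hsumq : ∑ f, q (some f) * HH τ S f ≤ N * (Real.log 4 + 2) := by
    have h1 : ∑ f, q (some f) * HH τ S f =
        ∫ z, ∑ f : Fin N → S, rhoN N τ S (some f) z * HH τ S f ∂Q := by
      rw [integral_finsetSum]
      · refine Finset.sum_congr rfl fun f _ => ?_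
        rw [integral_mul_const]
      · intro f _
        exact (hrhoi (some f)).mul_const _
    rw [h1]
    calc ∫ z, ∑ f : Fin N → S, rhoN N τ S (some f) z * HH τ S f ∂Q
        ≤ ∫ _z, (N * (Real.log 4 + 2) : ℝ) ∂Q := by
          refine integral_mono_ae ?_ (integrable_const _) ?_
          · exact integrable_finsetSum _ fun f _ => (hrhoi (some f)).mul_const _
          · filter_upwards [hnorm] with z hz
            exact sum_rho_HH hτ hτ1 S z hz
      _ = N * (Real.log 4 + 2) := by simp
  have hlog4 : Real.log 4 ≤ 3 := by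
    have := Real.log_le_sub_one_of_pos (show (0:ℝ) < 4 by norm_num)
    linarith
  have hN' : (1:ℝ) ≤ N := by exact_mod_cast hN
  calc q none * Real.log (lamN N τ S none / q none) +
      ∑ f, q (some f) * Real.log (lamN N τ S (some f) / q (some f))
      ≤ 1 + ∑ f, (w f + q (some f) * HH τ S f) :=
        add_le_add hnone (Finset.sum_le_sum fun f _ => hterm f)
    _ = 1 + (∑ f, w f + ∑ f, q (some f) * HH τ S f) := by rw [Finset.sum_add_distrib]
    _ ≤ 1 + (1 + N * (Real.log 4 + 2)) := by linarith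
    _ ≤ 7 * N := by
      have hl2 : Real.log 4 ≤ 2 := by
        have h4 : Real.log 4 = 2 * Real.log 2 := by
          rw [show (4:ℝ) = 2 ^ 2 by norm_num, Real.log_pow]; norm_num
        rw [h4]
        have := Real.log_two_lt_d9
        linarith
      nlinarith

end Crest.Agent.R322
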