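import Crest.Agent.R322.Defs

set_option autoImplicit false

open MeasureTheory ProbabilityTheory

namespace Crest.Agent.R322

theorem irr_small : StCnt → StPm → StCell → StIrr := by
  intro hcnt hpm hcell d L hd
  have hd1 : 1 ≤ d := by omega
  obtain ⟨hprob, hnorm, -⟩ := hpm d hd1
  haveI := hprob
  set bad : ℕ → Set (Fin d → ℤ) := fun k =>
    {c | (Pm d).real (cs d k c) < Real.exp (-5 * d) * ((2:ℝ) ^ (k * d))⁻¹} with hbad
  have heq : irr d L = ⋃ k ∈ Finset.range (L + 1), ⋃ c ∈ bad k, cs d k c := by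
    ext s
    simp only [irr, Set.mem_setOf_eq, Set.mem_iUnion, Finset.mem_range, hbad, cs, exists_prop]
    constructor
    · rintro ⟨k, hk, h⟩
      exact ⟨k, by omega, cell d k s, h, rfl⟩
    · rintro ⟨k, hk, c, h, hc⟩
      refine ⟨k, by omega, ?_⟩
      rw [← hc] at h
      exact h
  have hmeask : ∀ k, MeasurableSet (⋃ c ∈ bad k, cs d k c) := by
    intro k
    exact MeasurableSet.biUnion (Set.to_countable _) fun c _ => (hcell d k hd1).1 c
  refine ⟨?_, ?_⟩
  · rw [heq]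
    exact Finset.measurableSet_biUnion _ fun k _ => hmeask k
  -- the bound at each level
  have hlev : ∀ k, (Pm d).real (⋃ c ∈ bad k, cs d k c) ≤ Real.exp (-d) := by
    intro k
    obtain ⟨hmeasc, -, -, -, hdist⟩ := hcell d k hd1
    have h2k : (1:ℝ) ≤ 2 ^ k := one_le_pow₀ (by norm_num)
    obtain ⟨hfin, hcard⟩ := hcnt d (fun _ => 0) (2 * 2 ^ k) (by linarith)
    set T := hfin.toFinset with hT
    have hTcard : (T.card : ℝ) ≤ (22 * 2 ^ k) ^ d := by
      have h0 : (T.card : ℝ) = (({c : Fin d → ℤ | ∑ i, ((c i : ℝ) - (fun _ => (0:ℝ)) i) ^ 2 ≤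
          (2 * 2 ^ k) ^ 2 * (d:ℝ)}).ncard : ℝ) := by
        rw [Set.ncard_eq_toFinset_card _ hfin]
      rw [h0]
      refine hcard.trans (le_of_eq ?_)
      ring
    have hunit : ∀ s : E d, ‖s‖ = 1 → cell d k s ∈ T := by
      intro s hs
      rw [hT, Set.Finite.mem_toFinset, Set.mem_setOf_eq]
      have h1 := hdist s
      have h2 : ∑ i, ((2:ℝ) ^ k * Real.sqrt d * s i) ^ 2 = ((2:ℝ) ^ k) ^ 2 * d := by
        have e1 : ∀ i, ((2:ℝ) ^ k * Real.sqrt d * s i) ^ 2 = ((2:ℝ) ^ k) ^ 2 * d * (s i) ^ 2 := by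
          intro i
          have hs2 : Real.sqrt d ^ 2 = d := Real.sq_sqrt (Nat.cast_nonneg d)
          rw [mul_pow, mul_pow, hs2]
        rw [Finset.sum_congr rfl fun i _ => e1 i, ← Finset.mul_sum]
        have h3 : ∑ i, (s i) ^ 2 = 1 := by
          have := EuclideanSpace.norm_sq_eq s
          rw [hs] at this
          simp only [Real.norm_eq_abs, sq_abs] at this
          linarith
        rw [h3, mul_one]
      have h2' : ((2:ℝ)^k)^2 ≥ 1 := by nlinarith
      calc ∑ i, ((cell d k s i : ℝ) - 0) ^ 2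
          ≤ ∑ i, (2 * ((cell d k s i : ℝ) - 2 ^ k * Real.sqrt d * s i) ^ 2
            + 2 * ((2:ℝ) ^ k * Real.sqrt d * s i) ^ 2) := by
            refine Finset.sum_le_sum fun i _ => ?_
            nlinarith [sq_nonneg (((cell d k s i : ℝ) - 2 ^ k * Real.sqrt d * s i) -
              ((2:ℝ) ^ k * Real.sqrt d * s i))]
        _ = 2 * ∑ i, ((cell d k s i : ℝ) - 2 ^ k * Real.sqrt d * s i) ^ 2
            + 2 * ∑ i, ((2:ℝ) ^ k * Real.sqrt d * s i) ^ 2 := by
            rw [Finset.sum_add_distrib, Finset.mul_sum, Finset.mul_sum]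
        _ ≤ 2 * d + 2 * (((2:ℝ) ^ k) ^ 2 * d) := by rw [h2]; gcongr
        _ ≤ (2 * 2 ^ k) ^ 2 * d := by
            have : (0:ℝ) ≤ d := Nat.cast_nonneg d
            nlinarith
    have hsub : (Pm d) (⋃ c ∈ bad k, cs d k c) ≤
        (Pm d) (⋃ c ∈ T.filter (fun c => c ∈ bad k), cs d k c) := by
      refine measure_mono_ae ?_
      filter_upwards [hnorm] with s hs h
      have h' : s ∈ ⋃ c ∈ bad k, cs d k c := h
      rw [Set.mem_iUnion₂] at h'
      obtain ⟨c, hc, hsc⟩ := h'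
      have hsc' : cell d k s = c := hsc
      show s ∈ ⋃ c ∈ T.filter (fun c => c ∈ bad k), cs d k c
      rw [Set.mem_iUnion₂]
      refine ⟨c, ?_, hsc⟩
      rw [Finset.mem_filter]
      exact ⟨hsc' ▸ hunit s hs, hc⟩
    have hsub' : (Pm d).real (⋃ c ∈ bad k, cs d k c) ≤
        (Pm d).real (⋃ c ∈ T.filter (fun c => c ∈ bad k), cs d k c) :=
      ENNReal.toReal_mono (measure_ne_top _ _) hsub
    refine hsub'.trans ?_
    refine (measureReal_biUnion_finset_le _ _).trans ?_
    have h5 : ∑ c ∈ T.filter (fun c => c ∈ bad k), (Pm d).real (cs d k c) ≤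
        ∑ c ∈ T.filter (fun c => c ∈ bad k), Real.exp (-5 * d) * ((2:ℝ) ^ (k * d))⁻¹ := by
      refine Finset.sum_le_sum fun c hc => ?_
      rw [Finset.mem_filter] at hc
      exact le_of_lt hc.2
    refine h5.trans ?_
    rw [Finset.sum_const, nsmul_eq_mul]
    have h6 : (((T.filter (fun c => c ∈ bad k)).card : ℕ) : ℝ) ≤ (22 * 2 ^ k) ^ d := by
      refine le_trans ?_ hTcard
      exact_mod_cast Finset.card_filter_le _ _
    have hpos : 0 ≤ Real.exp (-5 * d) * ((2:ℝ) ^ (k * d))⁻¹ := by positivity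
    calc (((T.filter (fun c => c ∈ bad k)).card : ℕ) : ℝ) * (Real.exp (-5 * d) * ((2:ℝ) ^ (k * d))⁻¹)
        ≤ (22 * 2 ^ k) ^ d * (Real.exp (-5 * d) * ((2:ℝ) ^ (k * d))⁻¹) := by gcongr
      _ = 22 ^ d * Real.exp (-5 * d) * ((2:ℝ) ^ (k * d) * ((2:ℝ) ^ (k * d))⁻¹) := by
          rw [mul_pow, ← pow_mul]; ring
      _ = 22 ^ d * Real.exp (-5 * d) := by
          rw [mul_inv_cancel₀ (by positivity), mul_one]
      _ ≤ (Real.exp 4) ^ d * Real.exp (-5 * d) := by
          have : (22:ℝ) ≤ Real.exp 4 := by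
            have h7 : (2.7:ℝ) ≤ Real.exp 1 := by
              have := Real.exp_one_gt_d9; linarith
            have h8 : Real.exp 4 = Real.exp 1 ^ 4 := by
              rw [← Real.exp_nat_mul]; norm_num
            rw [h8]
            calc (22:ℝ) ≤ 2.7 ^ 4 := by norm_num
              _ ≤ Real.exp 1 ^ 4 := by gcongr
          gcongr
      _ = Real.exp (-d) := by
          rw [← Real.exp_nat_mul, ← Real.exp_add]
          congr 1
          ring
  rw [heq]
  refine (measureReal_biUnion_finset_le _ _).trans ?_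
  calc ∑ k ∈ Finset.range (L + 1), (Pm d).real (⋃ c ∈ bad k, cs d k c)
      ≤ ∑ _k ∈ Finset.range (L + 1), Real.exp (-d) := Finset.sum_le_sum fun k _ => hlev k
    _ = (L + 1) * Real.exp (-d) := by
        rw [Finset.sum_const, nsmul_eq_mul, Finset.card_range]; push_cast; ring

end Crest.Agent.R322
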