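import Crest.Agent.R322.Defs

set_option autoImplicit false

open MeasureTheory ProbabilityTheory

namespace Crest.Agent.R322

theorem kap_facts : StKap := by
  intro d N U _ F hF
  have hP : IsProbabilityMeasure (rows d N) := by unfold rows; infer_instance
  have hc : Continuous (fun p : E d × (Fin N → E d) => (p.2, meas p.2 p.1)) := by
    unfold meas; fun_prop
  have hm := hc.measurable
  refine ⟨fun v => ?_, fun s v => measureReal_nonneg, fun s v => measureReal_le_one, fun s => ?_⟩
  · have h1 : MeasurableSet {p : E d × (Fin N → E d) | F (p.2, meas p.2 p.1) = v} := hm (hF v)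
    exact (measurable_measure_prodMk_left (ν := rows d N) h1).ennreal_toReal
  · have hc' : Continuous (fun X : Fin N → E d => (X, meas X s)) := by
      unfold meas; fun_prop
    have hm' := hc'.measurable
    have h1 : ∀ v ∈ (Finset.univ : Finset U),
        MeasurableSet {X : Fin N → E d | F (X, meas X s) = v} := fun v _ => hm' (hF v)
    have h2 : Set.PairwiseDisjoint (↑(Finset.univ : Finset U))
        (fun v => {X : Fin N → E d | F (X, meas X s) = v}) := by
      intro v _ v' _ hvv
      refine Set.disjoint_left.2 fun X hX hX' => hvv ?_
      rw [← (show F (X, meas X s) = v from hX), ← (show F (X, meas X s) = v' from hX')]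
    have h3 := measureReal_biUnion_finset (μ := rows d N) h2 h1
    have h4 : (⋃ b ∈ (Finset.univ : Finset U), {X : Fin N → E d | F (X, meas X s) = b}) =
        Set.univ := by
      ext X; simp
    rw [h4] at h3
    unfold kap
    rw [← h3]
    exact probReal_univ

end Crest.Agent.R322
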