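import Crest.Agent.R322.Defs

/-!
# Row 322, task LEARN: reduction of a randomized one-pass learner to windows
-/

set_option autoImplicit false

open MeasureTheory ProbabilityTheory

namespace Crest.Agent.R322

namespace LEARN

/-! ## Maps with measurable fibres -/

/-- all fibres are measurable -/
def CM {X S : Type*} [MeasurableSpace X] (g : X → S) : Prop := ∀ v, MeasurableSet (g ⁻¹' {v})

theorem CM.step {X S S' : Type*} [MeasurableSpace X] [Countable S] {g : X → S} (hg : CM g)
    {f : X → S → S'} (hf : ∀ v, CM (fun x => f x v)) : CM (fun x => f x (g x)) := by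
  intro w
  have h : (fun x => f x (g x)) ⁻¹' {w} = ⋃ v, (g ⁻¹' {v}) ∩ ((fun x => f x v) ⁻¹' {w}) := by
    ext x; simp
  rw [h]
  exact MeasurableSet.iUnion fun v => (hg v).inter (hf v w)

theorem CM.foldl {X S ι : Type*} [MeasurableSpace X] [Countable S] (l : List ι)
    {f : ι → X → S → S} (hf : ∀ i v, CM (fun x => f i x v)) {g : X → S} (hg : CM g) :
    CM (fun x => l.foldl (fun st i => f i x st) (g x)) := by
  induction l generalizing g with
  | nil => simpa using hg
  | cons i l ih => simp only [List.foldl_cons]; exact ih (hg.step (hf i))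

theorem CM.comp {X Y S : Type*} [MeasurableSpace X] [MeasurableSpace Y] {g : Y → S} (hg : CM g)
    {h : X → Y} (hh : Measurable h) : CM (fun x => g (h x)) := fun v => hh (hg v)

theorem CM.const {X S : Type*} [MeasurableSpace X] (v : S) : CM (fun _ : X => v) := by
  intro w
  by_cases h : v = w
  · simp [h]
  · have : (fun _ : X => v) ⁻¹' {w} = ∅ := by ext x; simp [h]
    rw [this]; exact MeasurableSet.empty

theorem CM.prodMk {X S S' : Type*} [MeasurableSpace X] {f : X → S} {g : X → S'} (hf : CM f)
    (hg : CM g) : CM (fun x => (f x, g x)) := by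
  rintro ⟨v, w⟩
  have h : (fun x => (f x, g x)) ⁻¹' {(v, w)} = f ⁻¹' {v} ∩ g ⁻¹' {w} := by
    ext x; simp [Prod.ext_iff]
  rw [h]; exact (hf v).inter (hg w)

theorem CM.map {X S S' : Type*} [MeasurableSpace X] [Countable S] {g : X → S} (hg : CM g)
    (f : S → S') : CM (fun x => f (g x)) :=
  hg.step (f := fun _ v => f v) (fun v => CM.const (f v))

theorem CM.ite {X S : Type*} [MeasurableSpace X] {p : X → Prop} [DecidablePred p]
    (hp : MeasurableSet {x | p x}) {f g : X → S} (hf : CM f) (hg : CM g) :
    CM (fun x => if p x then f x else g x) := by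
  intro v
  have h : (fun x => if p x then f x else g x) ⁻¹' {v} =
      ({x | p x} ∩ f ⁻¹' {v}) ∪ ({x | p x}ᶜ ∩ g ⁻¹' {v}) := by
    ext x
    by_cases hx : p x <;> simp [hx]
  rw [h]
  exact (hp.inter (hf v)).union (hp.compl.inter (hg v))

theorem CM.measurable_comp {X S : Type*} [MeasurableSpace X] [Countable S] {f : X → S}
    (hf : CM f) {Y : Type*} [MeasurableSpace Y] (g : S → Y) : Measurable (fun x => g (f x)) := by
  let _ : MeasurableSpace S := ⊤
  have h1 : Measurable f := measurable_to_countable' hf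
  exact (measurable_from_top (f := g)).comp h1

theorem CM.of_measurable_top {X S : Type*} [MeasurableSpace X] {f : X → S}
    (hf : @Measurable X S _ ⊤ f) : CM f := fun v => hf (t := {v}) trivial

/-- expectation of a function of a finite-valued map -/
theorem integral_fin {X U : Type*} [MeasurableSpace X] [Fintype U] (μ : Measure X)
    [IsProbabilityMeasure μ] {f : X → U} (hf : CM f) (g : U → ℝ) :
    ∫ x, g (f x) ∂μ = ∑ v, μ.real {x | f x = v} * g v := by
  classical
  have h1 : ∀ x, g (f x) = ∑ v, ({x | f x = v} : Set X).indicator (fun _ => g v) x := by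
    intro x
    rw [Finset.sum_eq_single (f x)]
    · simp
    · intro v _ hv
      simp [Set.indicator, Ne.symm hv]
    · intro h; exact absurd (Finset.mem_univ _) h
  simp_rw [h1]
  rw [integral_finsetSum]
  · refine Finset.sum_congr rfl fun v _ => ?_
    rw [integral_indicator_const (g v) (show MeasurableSet {x | f x = v} from hf v), smul_eq_mul]
  · intro v _
    exact (integrable_const (g v)).indicator (show MeasurableSet {x | f x = v} from hf v)

theorem integrable_fin {X U : Type*} [MeasurableSpace X] [Fintype U] (μ : Measure X)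
    [IsProbabilityMeasure μ] {f : X → U} (hf : CM f) (g : U → ℝ) :
    Integrable (fun x => g (f x)) μ := by
  have hm : Measurable (fun x => g (f x)) := hf.measurable_comp g
  obtain ⟨C, hC⟩ : ∃ C, ∀ v, ‖g v‖ ≤ C := by
    obtain ⟨C, hC⟩ := (Set.finite_range (fun v => ‖g v‖)).bddAbove
    exact ⟨C, fun v => hC ⟨v, rfl⟩⟩
  exact Integrable.of_bound hm.aestronglyMeasurable C (Filter.Eventually.of_forall fun x => hC _)

/-! ## Folds over rows -/

section Rows

variable {d : ℕ} {U : Type} [Fintype U] (σ : ℕ → U → E d → ℝ → U)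

/-- process `m` rows, the first one having index `a` -/
def fo (m a : ℕ) (u : U) (X : Fin m → E d) (β : Fin m → ℝ) : U :=
  (List.finRange m).foldl (fun (v : U) (j : Fin m) => σ (a + (j : ℕ)) v (X j) (β j)) u

theorem fo_zero (a : ℕ) (u : U) (X : Fin 0 → E d) (β : Fin 0 → ℝ) : fo σ 0 a u X β = u := by
  simp [fo]

theorem fo_succ (m a : ℕ) (u : U) (X : Fin (m + 1) → E d) (β : Fin (m + 1) → ℝ) :
    fo σ (m + 1) a u X β =
      fo σ m (a + 1) (σ a u (X 0) (β 0)) (fun j => X j.succ) (fun j => β j.succ) := by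
  unfold fo
  rw [List.finRange_succ, List.foldl_cons, List.foldl_map]
  have : ∀ j : Fin m, a + ((j.succ : Fin (m + 1)) : ℕ) = a + 1 + (j : ℕ) := by
    intro j; simp; ring
  simp only [this, Fin.val_zero, add_zero]

theorem fo_CM (hσ : ∀ a u, CM (fun p : E d × ℝ => σ a u p.1 p.2)) (m a : ℕ) (u : U) :
    CM (fun p : (Fin m → E d) × (Fin m → ℝ) => fo σ m a u p.1 p.2) := by
  unfold fo
  refine CM.foldl (List.finRange m) (f := fun (j : Fin m)
    (p : (Fin m → E d) × (Fin m → ℝ)) (v : U) => σ (a + (j : ℕ)) v (p.1 j) (p.2 j)) ?_ (CM.const u)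
  intro j v
  exact (hσ (a + j) v).comp (h := fun p : (Fin m → E d) × (Fin m → ℝ) => (p.1 j, p.2 j))
    (((measurable_pi_apply j).comp measurable_fst).prodMk
      ((measurable_pi_apply j).comp measurable_snd))

theorem measurable_meas (m : ℕ) (s : E d) : Measurable (fun X : Fin m → E d => meas X s) := by
  unfold meas
  refine measurable_pi_lambda _ fun n => ?_
  exact (measurable_pi_apply n).inner_const

theorem fo_CM' (hσ : ∀ a u, CM (fun p : E d × ℝ => σ a u p.1 p.2)) (m a : ℕ) (u : U) (s : E d) :
    CM (fun X : Fin m → E d => fo σ m a u X (meas X s)) :=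
  (fo_CM σ hσ m a u).comp (h := fun X : Fin m → E d => (X, meas X s))
    (measurable_id.prodMk (measurable_meas m s))

/-- row-by-row value function -/
noncomputable def W (s : E d) (g : U → ℝ) : ℕ → ℕ → U → ℝ
  | 0, _, u => g u
  | m + 1, a, u => ∫ x, W s g m (a + 1) (σ a u x (inner ℝ x s)) ∂(stdGaussian (E d))

theorem W_zero (s : E d) (g : U → ℝ) (a : ℕ) (u : U) : W σ s g 0 a u = g u := rfl

theorem W_succ (s : E d) (g : U → ℝ) (m a : ℕ) (u : U) : W σ s g (m + 1) a u =
    ∫ x, W σ s g m (a + 1) (σ a u x (inner ℝ x s)) ∂(stdGaussian (E d)) := rfl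

theorem W_add (s : E d) (g : U → ℝ) (m k a : ℕ) (u : U) :
    W σ s g (m + k) a u = W σ s (fun v => W σ s g k (a + m) v) m a u := by
  induction m generalizing a u with
  | zero => simp [W_zero]
  | succ m ih =>
    have h1 : m + 1 + k = (m + k) + 1 := by ring
    rw [h1, W_succ, W_succ]
    refine integral_congr_ae (Filter.Eventually.of_forall fun x => ?_)
    simp only
    rw [ih]
    have h2 : a + 1 + m = a + (m + 1) := by ring
    rw [h2]

theorem W_const (s : E d) (g : U → ℝ) (T : ℕ) (hT : ∀ a, T ≤ a → ∀ u x β, σ a u x β = u)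
    (m a : ℕ) (ha : T ≤ a) (u : U) : W σ s g m a u = g u := by
  induction m generalizing a with
  | zero => rfl
  | succ m ih =>
    rw [W_succ]
    have : ∀ x : E d, W σ s g m (a + 1) (σ a u x (inner ℝ x s)) = g u := by
      intro x
      rw [hT a ha, ih (a + 1) (by omega)]
    simp [this]

theorem integral_fo (hσ : ∀ a u, CM (fun p : E d × ℝ => σ a u p.1 p.2)) (s : E d) (g : U → ℝ)
    (m a : ℕ) (u : U) :
    ∫ X, g (fo σ m a u X (meas X s)) ∂(rows d m) = W σ s g m a u := by
  induction m generalizing a u with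
  | zero =>
    simp only [fo_zero, W_zero]
    have : IsProbabilityMeasure (rows d 0) := by unfold rows; infer_instance
    simp
  | succ m ih =>
    have hp1 : IsProbabilityMeasure (rows d (m + 1)) := by unfold rows; infer_instance
    have hp0 : IsProbabilityMeasure (rows d m) := by unfold rows; infer_instance
    have mp := measurePreserving_piFinSuccAbove (fun _ : Fin (m + 1) => stdGaussian (E d)) 0
    have e1 : ∫ X, g (fo σ (m + 1) a u X (meas X s)) ∂(rows d (m + 1)) =
        ∫ p : E d × (Fin m → E d), g (fo σ m (a + 1) (σ a u p.1 (inner ℝ p.1 s)) p.2 (meas p.2 s))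
          ∂((stdGaussian (E d)).prod (rows d m)) := by
      have h2 := mp.integral_comp' (g := fun p : E d × (Fin m → E d) =>
        g (fo σ m (a + 1) (σ a u p.1 (inner ℝ p.1 s)) p.2 (meas p.2 s)))
      rw [show ((stdGaussian (E d)).prod (rows d m)) = (stdGaussian (E d)).prod
        (Measure.pi fun j : Fin m => stdGaussian (E d)) from rfl, ← h2]
      refine integral_congr_ae (Filter.Eventually.of_forall fun X => ?_)
      simp only
      rw [fo_succ]
      rfl
    rw [e1, W_succ, integral_prod]
    · refine integral_congr_ae (Filter.Eventually.of_forall fun x => ?_)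
      simp only
      rw [ih]
    · refine integrable_fin _ (f := fun p : E d × (Fin m → E d) =>
        fo σ m (a + 1) (σ a u p.1 (inner ℝ p.1 s)) p.2 (meas p.2 s)) ?_ g
      have h3 : CM (fun p : E d × (Fin m → E d) => σ a u p.1 (inner ℝ p.1 s)) :=
        (hσ a u).comp (h := fun p : E d × (Fin m → E d) => (p.1, inner ℝ p.1 s))
          (measurable_fst.prodMk (measurable_fst.inner_const))
      exact h3.step (f := fun (p : E d × (Fin m → E d)) v => fo σ m (a + 1) v p.2 (meas p.2 s))
        (fun v => (fo_CM' σ hσ m (a + 1) v s).comp measurable_snd)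

end Rows

/-! ## Windows -/

section Windows

variable {d : ℕ} {U : Type} [Fintype U] (σ : ℕ → U → E d → ℝ → U)

/-- the window map when `i + 1` windows (out of `n`) remain -/
def WF (N n i : ℕ) (u : U) (p : (Fin N → E d) × (Fin N → ℝ)) : U :=
  fo σ N ((n - 1 - i) * N) u p.1 p.2

theorem WF_meas (hσ : ∀ a u, CM (fun p : E d × ℝ => σ a u p.1 p.2)) (N n i : ℕ) (u : U) :
    MeasFin (WF σ N n i u) := fo_CM σ hσ N _ u

open Classical in
theorem val_eq (hσ : ∀ a u, CM (fun p : E d × ℝ => σ a u p.1 p.2)) (N n : ℕ) (out : U → E d)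
    (r : ℝ) (s : E d) (i : ℕ) (hi : i ≤ n) (u : U) :
    val (WF σ N n) out r i u s =
      W σ s (fun v => if dist s (out v) ≤ r then 1 else 0) (i * N) ((n - i) * N) u := by
  induction i generalizing u with
  | zero => simp [val, W_zero]
  | succ i ih =>
    have hp : IsProbabilityMeasure (rows d N) := by unfold rows; infer_instance
    have h1 : val (WF σ N n) out r (i + 1) u s =
        ∫ X, val (WF σ N n) out r i (fo σ N ((n - 1 - i) * N) u X (meas X s)) s ∂(rows d N) := by
      rw [integral_fin (rows d N) (fo_CM' σ hσ N ((n - 1 - i) * N) u s)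
        (fun v => val (WF σ N n) out r i v s)]
      rfl
    rw [h1, integral_fo σ hσ s (fun v => val (WF σ N n) out r i v s)]
    have h2 : (fun v => val (WF σ N n) out r i v s) = fun v =>
        W σ s (fun v => if dist s (out v) ≤ r then 1 else 0) (i * N) ((n - i) * N) v := by
      funext v; exact ih (by omega) v
    rw [h2]
    have h3 : (i + 1) * N = N + i * N := by ring
    have h4 : (n - (i + 1)) * N = (n - 1 - i) * N := by
      congr 1; omega
    have h5 : (n - i) * N = (n - 1 - i) * N + N := by
      have : n - i = (n - 1 - i) + 1 := by omega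
      rw [this]; ring
    rw [h3, h4, W_add, h5]

end Windows

/-! ## The learner -/

section Learner

open Crest.StreamLearn (RLearner Sphere sphereUniform)

variable {d T M : ℕ} (L : RLearner d T M)

/-- states together with the stopping index -/
abbrev US (L : RLearner d T M) : Type := L.St × Option (Fin (T + 1))

/-- one row -/
noncomputable def stp (ω : L.Ω) (a : ℕ) (u : US L) (x : E d) (β : ℝ) : US L :=
  if h : a < T then
    if u.2.isSome then u else
      if (L.trans ⟨a, h⟩ ω u.1 x β).2 then
        ((L.trans ⟨a, h⟩ ω u.1 x β).1, some ⟨a + 1, Nat.succ_lt_succ h⟩)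
      else ((L.trans ⟨a, h⟩ ω u.1 x β).1, none)
  else u

/-- the initial state -/
noncomputable def u0 (ω : L.Ω) : US L := (L.init ω, if L.stopFirst ω then some 0 else none)

/-- the output -/
noncomputable def ou (ω : L.Ω) (u : US L) : E d := L.out ((u.2.map Fin.val).getD T) ω u.1

theorem stp_CM (ω : L.Ω) (a : ℕ) (u : US L) :
    CM (fun p : E d × ℝ => stp L ω a u p.1 p.2) := by
  letI : MeasurableSpace L.Ω := L.mΩ
  unfold stp
  by_cases h : a < T
  · simp only [h, dif_pos]
    by_cases h2 : u.2.isSome
    · simp only [h2, if_true]; exact CM.const u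
    · simp only [h2]
      have hm : Measurable (fun p : E d × ℝ => ((ω, p) : L.Ω × (E d × ℝ))) := measurable_prodMk_left
      have m1 : CM (fun p : E d × ℝ => (L.trans ⟨a, h⟩ ω u.1 p.1 p.2).1) :=
        (CM.of_measurable_top (L.trans_measurable ⟨a, h⟩ u.1).1).comp hm
      have m2 : Measurable (fun p : E d × ℝ => (L.trans ⟨a, h⟩ ω u.1 p.1 p.2).2) :=
        (L.trans_measurable ⟨a, h⟩ u.1).2.comp hm
      have m3 : MeasurableSet {p : E d × ℝ | (L.trans ⟨a, h⟩ ω u.1 p.1 p.2).2 = true} :=
        m2 (measurableSet_singleton true)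
      exact CM.ite m3 (m1.prodMk (CM.const _)) (m1.prodMk (CM.const _))
  · simp only [h, dif_neg, not_false_iff]; exact CM.const u

theorem stp_id (ω : L.Ω) (a : ℕ) (ha : T ≤ a) (u : US L) (x : E d) (β : ℝ) :
    stp L ω a u x β = u := by
  unfold stp
  rw [dif_neg (by omega)]

theorem run_eq (ω : L.Ω) (s : E d) (xs : Fin T → E d) :
    L.run ω s xs = ((fo (stp L ω) T 0 (u0 L ω) xs (meas xs s)).1,
      (fo (stp L ω) T 0 (u0 L ω) xs (meas xs s)).2.map Fin.val) := by
  have key := List.foldl_hom (l := List.finRange T) (init := u0 L ω)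
    (fun u : US L => ((u.1, u.2.map Fin.val) : L.St × Option ℕ))
    (g₁ := fun (v : US L) (j : Fin T) => stp L ω (0 + (j : ℕ)) v (xs j) (meas xs s j))
    (g₂ := fun st t => if st.2.isSome then st else
      if (L.trans t ω st.1 (xs t) (inner ℝ (xs t) s)).2
      then ((L.trans t ω st.1 (xs t) (inner ℝ (xs t) s)).1, some (t.val + 1))
      else ((L.trans t ω st.1 (xs t) (inner ℝ (xs t) s)).1, none)) ?_
  · unfold RLearner.run
    rw [show (L.init ω, if L.stopFirst ω then some 0 else (none : Option ℕ)) =
      (((u0 L ω).1, (u0 L ω).2.map Fin.val) : L.St × Option ℕ) by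
        unfold u0
        by_cases hh : L.stopFirst ω <;> simp [hh]]
    rw [key]
    rfl
  · intro v t
    unfold stp meas
    simp only [zero_add, Fin.is_lt, dif_pos, Fin.eta, Option.isSome_map]
    by_cases h2 : v.2.isSome
    · simp [h2]
    · simp only [h2]
      by_cases h3 : (L.trans t ω v.1 (xs t) (inner ℝ (xs t) s)).2
      · simp [h3]
      · simp [h3]

theorem output_eq (ω : L.Ω) (s : E d) (xs : Fin T → E d) :
    L.output ω s xs = ou L ω (fo (stp L ω) T 0 (u0 L ω) xs (meas xs s)) := by
  unfold RLearner.output ou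
  rw [run_eq]

/-- joint measurability of the run -/
theorem run_CM : 
    letI : MeasurableSpace L.Ω := L.mΩ
    CM (fun p : Sphere d × (L.Ω × (Fin T → E d)) => L.run p.2.1 (p.1 : E d) p.2.2) := by
  letI : MeasurableSpace L.Ω := L.mΩ
  letI : Fintype L.St := L.fin
  show CM (fun p : Sphere d × (L.Ω × (Fin T → E d)) => L.run p.2.1 (p.1 : E d) p.2.2)
  unfold RLearner.run
  have hω : Measurable (fun p : Sphere d × (L.Ω × (Fin T → E d)) => p.2.1) :=
    measurable_fst.comp measurable_snd
  refine CM.foldl (X := Sphere d × (L.Ω × (Fin T → E d))) (List.finRange T)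
    (f := fun (t : Fin T) (p : Sphere d × (L.Ω × (Fin T → E d))) (st : L.St × Option ℕ) =>
      if st.2.isSome then st else
      if (L.trans t p.2.1 st.1 (p.2.2 t) (inner ℝ (p.2.2 t) (p.1 : E d))).2
      then ((L.trans t p.2.1 st.1 (p.2.2 t) (inner ℝ (p.2.2 t) (p.1 : E d))).1, some (t.val + 1))
      else ((L.trans t p.2.1 st.1 (p.2.2 t) (inner ℝ (p.2.2 t) (p.1 : E d))).1, none)) ?_
    (g := fun p => (L.init p.2.1, if L.stopFirst p.2.1 then some 0 else none)) ?_
  · intro t st
    by_cases h2 : st.2.isSome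
    · simp only [h2, if_true]; exact CM.const st
    · simp only [h2]
      have hx : Measurable (fun p : Sphere d × (L.Ω × (Fin T → E d)) => p.2.2 t) :=
        (measurable_pi_apply t).comp (measurable_snd.comp measurable_snd)
      have hs : Measurable (fun p : Sphere d × (L.Ω × (Fin T → E d)) => (p.1 : E d)) :=
        measurable_subtype_coe.comp measurable_fst
      have hm : Measurable (fun p : Sphere d × (L.Ω × (Fin T → E d)) =>
          ((p.2.1, (p.2.2 t, inner ℝ (p.2.2 t) (p.1 : E d))) : L.Ω × (E d × ℝ))) :=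
        hω.prodMk (hx.prodMk (hx.inner hs))
      have m1 : CM (fun p : Sphere d × (L.Ω × (Fin T → E d)) =>
          (L.trans t p.2.1 st.1 (p.2.2 t) (inner ℝ (p.2.2 t) (p.1 : E d))).1) :=
        (CM.of_measurable_top (L.trans_measurable t st.1).1).comp hm
      have m2 : Measurable (fun p : Sphere d × (L.Ω × (Fin T → E d)) =>
          (L.trans t p.2.1 st.1 (p.2.2 t) (inner ℝ (p.2.2 t) (p.1 : E d))).2) :=
        (L.trans_measurable t st.1).2.comp hm
      have m3 : MeasurableSet {p : Sphere d × (L.Ω × (Fin T → E d)) |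
          (L.trans t p.2.1 st.1 (p.2.2 t) (inner ℝ (p.2.2 t) (p.1 : E d))).2 = true} :=
        m2 (measurableSet_singleton true)
      exact CM.ite m3 (m1.prodMk (CM.const _)) (m1.prodMk (CM.const _))
  · have h1 : CM (fun p : Sphere d × (L.Ω × (Fin T → E d)) => L.init p.2.1) :=
      (CM.of_measurable_top L.init_measurable).comp hω
    have h2 : MeasurableSet {p : Sphere d × (L.Ω × (Fin T → E d)) | L.stopFirst p.2.1 = true} :=
      (L.stopFirst_measurable.comp hω) (measurableSet_singleton true)
    exact h1.prodMk (CM.ite h2 (CM.const _) (CM.const _))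

/-- the success set is measurable -/
theorem succ_meas (ε : ℝ) :
    letI : MeasurableSpace L.Ω := L.mΩ
    MeasurableSet {p : Sphere d × (L.Ω × (Fin T → E d)) |
      Real.arccos (inner ℝ (L.output p.2.1 p.1 p.2.2) (p.1 : E d)) ≤ ε} := by
  letI : MeasurableSpace L.Ω := L.mΩ
  letI : Fintype L.St := L.fin
  show MeasurableSet {p : Sphere d × (L.Ω × (Fin T → E d)) |
      Real.arccos (inner ℝ (L.output p.2.1 p.1 p.2.2) (p.1 : E d)) ≤ ε}
  have h1 : {p : Sphere d × (L.Ω × (Fin T → E d)) |
      Real.arccos (inner ℝ (L.output p.2.1 p.1 p.2.2) (p.1 : E d)) ≤ ε} =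
      ⋃ v : L.St × Option ℕ, ((fun p : Sphere d × (L.Ω × (Fin T → E d)) =>
        L.run p.2.1 (p.1 : E d) p.2.2) ⁻¹' {v}) ∩ {p : Sphere d × (L.Ω × (Fin T → E d)) |
          Real.arccos (inner ℝ (L.out (v.2.getD T) p.2.1 v.1) (p.1 : E d)) ≤ ε} := by
    ext p
    simp only [Set.mem_ofPred_eq, Set.mem_iUnion, Set.mem_inter_iff, Set.mem_preimage,
      Set.mem_singleton_iff]
    constructor
    · intro h
      exact ⟨L.run p.2.1 (p.1 : E d) p.2.2, rfl, h⟩
    · rintro ⟨v, hv, h⟩
      rw [← hv] at h
      exact h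
  rw [h1]
  refine MeasurableSet.iUnion fun v => (run_CM L v).inter ?_
  have hω : Measurable (fun p : Sphere d × (L.Ω × (Fin T → E d)) => p.2.1) :=
    measurable_fst.comp measurable_snd
  have hs : Measurable (fun p : Sphere d × (L.Ω × (Fin T → E d)) => (p.1 : E d)) :=
    measurable_subtype_coe.comp measurable_fst
  have ho : Measurable (fun p : Sphere d × (L.Ω × (Fin T → E d)) =>
      L.out (v.2.getD T) p.2.1 v.1) := (L.out_measurable _ _).comp hω
  exact (Real.continuous_arccos.measurable.comp (ho.inner hs)) measurableSet_Iic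

theorem dist_le_of_arccos {ε : ℝ} {x y : E d} (hx : ‖x‖ = 1) (hy : ‖y‖ = 1)
    (h : Real.arccos (inner ℝ x y) ≤ ε) : dist y x ≤ ε := by
  have h0 : 0 ≤ Real.arccos (inner ℝ x y) := Real.arccos_nonneg _
  have hε : 0 ≤ ε := h0.trans h
  have hin : |inner ℝ x y| ≤ 1 := by
    have := abs_real_inner_le_norm x y
    rw [hx, hy] at this; simpa using this
  have hc : Real.cos (Real.arccos (inner ℝ x y)) = inner ℝ x y :=
    Real.cos_arccos (by linarith [(abs_le.mp hin).1]) (abs_le.mp hin).2
  have h1 : 1 - (Real.arccos (inner ℝ x y)) ^ 2 / 2 ≤ inner ℝ x y := by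
    have := Real.one_sub_sq_div_two_le_cos (x := Real.arccos (inner ℝ x y))
    rw [hc] at this
    exact this
  have h2 : dist y x ^ 2 ≤ ε ^ 2 := by
    rw [dist_eq_norm, norm_sub_sq_real, hx, hy, real_inner_comm]
    nlinarith
  exact abs_le_of_sq_le_sq' h2 hε |>.2

end Learner

end LEARN

open LEARN in
open Crest.StreamLearn (RLearner Sphere sphereUniform) in
open Classical in
theorem learn : StPm → StKap → StVal → StLearn := by
  intro hPm _ hVal d T M N n hd hN hT L ε
  letI : MeasurableSpace L.Ω := L.mΩ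
  letI : Fintype L.St := L.fin
  haveI : IsProbabilityMeasure L.ρ := L.prob
  haveI hPmp : IsProbabilityMeasure (Pm d) := (hPm d hd).1
  haveI hsp : IsProbabilityMeasure (sphereUniform d) := by
    constructor
    have h := hPmp.measure_univ
    unfold Pm at h
    rw [Measure.map_apply measurable_subtype_coe MeasurableSet.univ] at h
    simpa using h
  set π : Measure (Fin T → E d) := Measure.pi fun _ : Fin T => stdGaussian (E d) with hπ
  set S : Set (Sphere d × (L.Ω × (Fin T → E d))) := {p |
      Real.arccos (inner ℝ (L.output p.2.1 p.1 p.2.2) (p.1 : E d)) ≤ ε} with hS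
  have hSm : MeasurableSet S := succ_meas L ε
  -- the total probability
  have e1 : ((sphereUniform d).prod (L.ρ.prod π)) S =
      ∫⁻ ω, ∫⁻ s, π {xs | (s, (ω, xs)) ∈ S} ∂(sphereUniform d) ∂L.ρ := by
    rw [Measure.prod_apply hSm]
    have e2 : ∀ s : Sphere d, (L.ρ.prod π) (Prod.mk s ⁻¹' S) =
        ∫⁻ ω, π {xs | (s, (ω, xs)) ∈ S} ∂L.ρ := by
      intro s
      rw [Measure.prod_apply (measurable_prodMk_left hSm)]
      rfl
    simp_rw [e2]
    refine lintegral_lintegral_swap (f := fun (s : Sphere d) (ω : L.Ω) =>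
      π {xs | (s, (ω, xs)) ∈ S}) ?_
    have hm : MeasurableSet {q : (Sphere d × L.Ω) × (Fin T → E d) |
        (q.1.1, (q.1.2, q.2)) ∈ S} := by
      have : Measurable (fun q : (Sphere d × L.Ω) × (Fin T → E d) =>
          ((q.1.1, (q.1.2, q.2)) : Sphere d × (L.Ω × (Fin T → E d)))) := by fun_prop
      exact this hSm
    exact (measurable_measure_prodMk_left (ν := π) hm).aemeasurable
  have hle1 : ∫⁻ ω, ∫⁻ s, π {xs | (s, (ω, xs)) ∈ S} ∂(sphereUniform d) ∂L.ρ ≠ ⊤ := by
    rw [← e1]; exact measure_ne_top _ _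
  obtain ⟨ω, hω⟩ := exists_lintegral_le hle1
  -- the window data
  have hσ := stp_CM L ω
  refine ⟨US L, inferInstance, ⟨u0 L ω⟩, WF (stp L ω) N n, ou L ω, u0 L ω, ?_,
    fun i u => WF_meas _ hσ N n i u, ?_⟩
  · have h1 : Fintype.card (US L) = Fintype.card L.St * (T + 2) := by
      simp [US, Fintype.card_prod, Fintype.card_option]
    rw [h1]
    exact Nat.mul_le_mul_right _ (by convert L.card_le)
  · have hv := hVal d N (US L) (WF (stp L ω) N n) (ou L ω) ε
      (fun i u => WF_meas _ hσ N n i u) n (u0 L ω)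
    obtain ⟨hv1, hv2, hv3⟩ := hv
    -- pointwise comparison
    have hpt : ∀ s : Sphere d, π {xs | (s, (ω, xs)) ∈ S} ≤
        ENNReal.ofReal (val (WF (stp L ω) N n) (ou L ω) ε n (u0 L ω) (s : E d)) := by
      intro s
      have hns : ‖(s : E d)‖ = 1 := by simpa using s.2
      set g : US L → ℝ := fun v => if dist (s : E d) (ou L ω v) ≤ ε then 1 else 0 with hg
      have h1 : val (WF (stp L ω) N n) (ou L ω) ε n (u0 L ω) (s : E d) =
          W (stp L ω) (s : E d) g T 0 (u0 L ω) := by
        rw [val_eq _ hσ N n (ou L ω) ε (s : E d) n le_rfl]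
        have h2 : n * N = T + (n * N - T) := by omega
        rw [h2, W_add]
        simp only [Nat.sub_self, Nat.zero_mul, Nat.zero_add]
        congr 1
        funext v
        exact W_const _ _ _ T (fun a ha u x β => stp_id L ω a ha u x β) _ _ le_rfl v
      rw [h1, ← integral_fo _ hσ (s : E d) g T 0 (u0 L ω)]
      have hp : IsProbabilityMeasure (rows d T) := by unfold rows; infer_instance
      have hcm := fo_CM' (stp L ω) hσ T 0 (u0 L ω) (s : E d)
      have hmA : MeasurableSet {xs : Fin T → E d |
          dist (s : E d) (ou L ω (fo (stp L ω) T 0 (u0 L ω) xs (meas xs (s : E d)))) ≤ ε} := by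
        have := hcm.measurable_comp (fun v => dist (s : E d) (ou L ω v))
        exact this measurableSet_Iic
      have h3 : ∫ X, g (fo (stp L ω) T 0 (u0 L ω) X (meas X (s : E d))) ∂(rows d T) =
          (rows d T).real {xs : Fin T → E d |
          dist (s : E d) (ou L ω (fo (stp L ω) T 0 (u0 L ω) xs (meas xs (s : E d)))) ≤ ε} := by
        rw [← integral_indicator_one hmA]
        refine integral_congr_ae (Filter.Eventually.of_forall fun xs => ?_)
        simp only [hg, Set.indicator, Pi.one_apply]
        rfl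
      rw [h3, Measure.real, ENNReal.ofReal_toReal (measure_ne_top _ _)]
      refine measure_mono ?_
      intro xs hxs
      have hxs' : Real.arccos (inner ℝ (L.output ω s xs) (s : E d)) ≤ ε := hxs
      have hou : ‖L.output ω s xs‖ = 1 := L.out_unit _ _ _
      have := dist_le_of_arccos hou hns hxs'
      show dist (s : E d) (ou L ω (fo (stp L ω) T 0 (u0 L ω) xs (meas xs (s : E d)))) ≤ ε
      rw [← output_eq]
      exact this
    have hint : Integrable (fun s : Sphere d =>
        val (WF (stp L ω) N n) (ou L ω) ε n (u0 L ω) (s : E d)) (sphereUniform d) := by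
      refine Integrable.of_bound (hv1.comp measurable_subtype_coe).aestronglyMeasurable 1
        (Filter.Eventually.of_forall fun s => ?_)
      rw [Real.norm_eq_abs, abs_of_nonneg (hv2 _)]
      exact hv3 _
    have hI : ∫ s, val (WF (stp L ω) N n) (ou L ω) ε n (u0 L ω) s ∂(Pm d) =
        ∫ s : Sphere d, val (WF (stp L ω) N n) (ou L ω) ε n (u0 L ω) (s : E d)
          ∂(sphereUniform d) := by
      unfold Pm
      exact integral_map measurable_subtype_coe.aemeasurable hv1.aestronglyMeasurable
    rw [hI]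
    have hI0 : 0 ≤ ∫ s : Sphere d, val (WF (stp L ω) N n) (ou L ω) ε n (u0 L ω) (s : E d)
        ∂(sphereUniform d) := integral_nonneg fun s => hv2 _
    have hfin : ((sphereUniform d).prod (L.ρ.prod π)) S ≤ ENNReal.ofReal
        (∫ s : Sphere d, val (WF (stp L ω) N n) (ou L ω) ε n (u0 L ω) (s : E d)
          ∂(sphereUniform d)) := by
      rw [e1]
      refine hω.trans ?_
      rw [ofReal_integral_eq_lintegral_ofReal hint (Filter.Eventually.of_forall fun s => hv2 _)]
      exact lintegral_mono hpt
    have := ENNReal.toReal_mono ENNReal.ofReal_ne_top hfin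
    rw [ENNReal.toReal_ofReal hI0] at this
    exact this

end Crest.Agent.R322
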