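import Crest.Agent.R322.Defs

set_option autoImplicit false

open MeasureTheory ProbabilityTheory Set Metric
open scoped ENNReal

namespace Crest.Agent.R322

namespace MAINaux

lemma kap_nonneg {d N : ℕ} {U : Type} (F : (Fin N → E d) × (Fin N → ℝ) → U) (s : E d) (v : U) :
    0 ≤ kap F s v := measureReal_nonneg

lemma val_mono {d N : ℕ} {U : Type} [Fintype U]
    (F : ℕ → U → (Fin N → E d) × (Fin N → ℝ) → U) (out : U → E d) {r r' : ℝ} (h : r ≤ r') (n : ℕ) :
    ∀ (u : U) (s : E d), val F out r n u s ≤ val F out r' n u s := by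
  induction n with
  | zero =>
    intro u s
    simp only [val]
    split_ifs with h1 h2 h2
    · exact le_rfl
    · exact (h2 (h1.trans h)).elim
    · exact zero_le_one
    · exact le_rfl
  | succ n ih =>
    intro u s
    simp only [val]
    exact Finset.sum_le_sum fun v _ => mul_le_mul_of_nonneg_left (ih v s) (kap_nonneg _ _ _)

open Classical in
lemma val_le_sum {d N : ℕ} {U : Type} [Fintype U] (hK : StKap)
    (F : ℕ → U → (Fin N → E d) × (Fin N → ℝ) → U) (hF : ∀ i u, MeasFin (F i u))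
    (out : U → E d) (r : ℝ) (n : ℕ) :
    ∀ (u : U) (s : E d), val F out r n u s ≤ ∑ u', if dist s (out u') ≤ r then (1:ℝ) else 0 := by
  induction n with
  | zero =>
    intro u s
    simp only [val]
    have h := Finset.single_le_sum (f := fun u' : U => if dist s (out u') ≤ r then (1:ℝ) else 0)
      (fun i _ => by positivity) (Finset.mem_univ u)
    exact h
  | succ n ih =>
    intro u s
    simp only [val]
    obtain ⟨_, h0, _, h1⟩ := hK d N U (F n u) (hF n u)
    calc ∑ v, kap (F n u) s v * val F out r n v s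
        ≤ ∑ v, kap (F n u) s v * (∑ u', if dist s (out u') ≤ r then (1:ℝ) else 0) :=
          Finset.sum_le_sum fun v _ => mul_le_mul_of_nonneg_left (ih v s) (h0 s v)
      _ = _ := by rw [← Finset.sum_mul, h1 s, one_mul]

lemma val_integrable {d N : ℕ} {U : Type} [Fintype U] (hV : StVal)
    (hp : IsProbabilityMeasure (Pm d))
    (F : ℕ → U → (Fin N → E d) × (Fin N → ℝ) → U) (hF : ∀ i u, MeasFin (F i u))
    (out : U → E d) (r : ℝ) (n : ℕ) (u : U) : Integrable (fun s => val F out r n u s) (Pm d) := by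
  obtain ⟨hm, h0, h1⟩ := hV d N U F out r hF n u
  refine Integrable.mono' (integrable_const (1:ℝ)) hm.aestronglyMeasurable
    (Filter.Eventually.of_forall fun s => ?_)
  rw [Real.norm_eq_abs, abs_of_nonneg (h0 s)]
  exact h1 s

open Classical in
/-- counting bound -/
lemma count_bound {d N : ℕ} {U : Type} [Fintype U] (hd : 1 ≤ d) (hCap : StCap) (hK : StKap)
    (hV : StVal) (hp : IsProbabilityMeasure (Pm d))
    (F : ℕ → U → (Fin N → E d) × (Fin N → ℝ) → U) (hF : ∀ i u, MeasFin (F i u))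
    (out : U → E d) (r : ℝ) (hr : 0 < r) (hr1 : r ≤ 1) (n : ℕ) (u : U) :
    ∫ s, val F out r n u s ∂(Pm d) ≤ (Fintype.card U : ℝ) * (2 ^ d * r ^ (d - 1)) := by
  have hi : ∀ u' : U, (fun s : E d => if dist s (out u') ≤ r then (1:ℝ) else 0) =
      (closedBall (out u') r).indicator (fun _ => (1:ℝ)) := by
    intro u'
    funext s
    rw [indicator_apply]
    rfl
  have hint : ∀ u' : U, Integrable (fun s : E d => if dist s (out u') ≤ r then (1:ℝ) else 0) (Pm d) := by
    intro u'
    rw [hi u']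
    exact (integrable_const (1:ℝ)).indicator measurableSet_closedBall
  calc ∫ s, val F out r n u s ∂(Pm d)
      ≤ ∫ s, (∑ u', if dist s (out u') ≤ r then (1:ℝ) else 0) ∂(Pm d) :=
        integral_mono (val_integrable hV hp F hF out r n u)
          (integrable_finsetSum _ fun u' _ => hint u') (fun s => val_le_sum hK F hF out r n u s)
    _ = ∑ u', (Pm d).real (closedBall (out u') r) := by
        rw [integral_finsetSum _ fun u' _ => hint u']
        refine Finset.sum_congr rfl fun u' _ => ?_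
        rw [hi u', integral_indicator measurableSet_closedBall]
        simp
    _ ≤ ∑ _u' : U, (2:ℝ) ^ d * r ^ (d - 1) :=
        Finset.sum_le_sum fun u' _ => hCap d hd (out u') r hr hr1
    _ = _ := by simp

/-- numeric contradiction of case (c) -/
lemma case_c_num (d : ℕ) (A l M T lm : ℝ) (hd : 16 ≤ d) (hA : 0 < A) (hM : M ≤ A * (d:ℝ) ^ 2)
    (hl : (8 * A + 8) * d ≤ l) (hT : T < 1 / 8 * d * l)
    (h : -(1/2) ≤ M * Real.log 2 + lm + d * Real.log 2 - (d - 1) * l) (hlm : lm ≤ T + 1)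
    (hM0 : 0 ≤ M) : False := by
  have hd' : (16:ℝ) ≤ d := by exact_mod_cast hd
  have hl2 : Real.log 2 ≤ 1 := by have := Real.log_two_lt_d9; linarith
  have hl20 : 0 ≤ Real.log 2 := Real.log_nonneg (by norm_num)
  have hlpos : 128 ≤ l := by nlinarith
  have h1 : M * Real.log 2 ≤ 1 / 8 * (d * l) := by
    have h2 : M * Real.log 2 ≤ M := by nlinarith
    have h3 : A * (d:ℝ) ^ 2 ≤ 1 / 8 * (d * l) := by
      have : A * (d:ℝ) ≤ 1 / 8 * l := by nlinarith
      nlinarith
    linarith
  have h4 : (d:ℝ) * Real.log 2 ≤ 1 / 8 * (d * l) := by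
    have h2 : (d:ℝ) * Real.log 2 ≤ d := by nlinarith
    nlinarith
  have h5 : d * l / 2 ≤ (d - 1) * l := by nlinarith
  have h6 : (16:ℝ) * 128 ≤ d * l := by nlinarith
  nlinarith

/-- the log form of the counting bound -/
lemma log_bound (d M T C : ℕ) (ε : ℝ) (hd : 1 ≤ d) (hε : 0 < ε)
    (hC : C ≤ 2 ^ M * (T + 2)) (h : 2 / 3 ≤ (C : ℝ) * (2 ^ d * ε ^ (d - 1))) :
    -(1/2) ≤ (M:ℝ) * Real.log 2 + Real.log (T + 2) + d * Real.log 2 -
      (d - 1) * Real.log (1 / ε) := by
  have h1 : (2:ℝ) / 3 ≤ (2 ^ M * (T + 2)) * (2 ^ d * ε ^ (d - 1)) := by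
    refine h.trans (mul_le_mul_of_nonneg_right ?_ (by positivity))
    exact_mod_cast hC
  have h2 := Real.log_le_log (by norm_num) h1
  have h3 : Real.log ((2 ^ M * ((T:ℝ) + 2)) * (2 ^ d * ε ^ (d - 1))) =
      (M:ℝ) * Real.log 2 + Real.log (T + 2) + (d * Real.log 2 + (d - 1) * Real.log ε) := by
    rw [Real.log_mul (by positivity) (by positivity), Real.log_mul (by positivity) (by positivity),
      Real.log_mul (by positivity) (by positivity), Real.log_pow, Real.log_pow, Real.log_pow,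
      Nat.cast_sub hd]
    norm_num
  have h4 : -(1/2) ≤ Real.log (2 / 3) := by
    have h5 : Real.log (2 / 3 : ℝ) = - Real.log (3 / 2) := by
      rw [← Real.log_inv]; norm_num
    have h6 := Real.log_le_sub_one_of_pos (by norm_num : (0:ℝ) < 3 / 2)
    rw [h5]; linarith
  have h7 : Real.log (1 / ε) = - Real.log ε := by rw [one_div, Real.log_inv]
  rw [h3] at h2
  rw [h7]
  linarith

end MAINaux

open MAINaux in
theorem main : StPm → StCap → StKap → StVal → StCore → StLearn → StRefl → StMain := by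
  intro hPm hCap hK hV hCore hLearn hRefl A hA
  obtain ⟨lam, hlam⟩ : ∃ lam : ℝ, lam = 8 * A + 8 := ⟨_, rfl⟩
  have hlam8 : 8 ≤ lam := by rw [hlam]; linarith
  obtain ⟨c', hc', q, L0, d0, hcore⟩ := hCore (A + lam + 1) (2 * lam) (by linarith) (by linarith)
  obtain ⟨CA, hCA⟩ : ∃ CA : ℝ, CA = 2 * (q + 1) + L0 + 4 / c' + 1 := ⟨_, rfl⟩
  have hCA1 : 1 ≤ CA := by
    rw [hCA]
    have : 0 ≤ 4 / c' := by positivity
    have h2 : (0:ℝ) ≤ 2 * (q + 1) + L0 := by positivity
    linarith
  obtain ⟨c, hc⟩ : ∃ c : ℝ, c = min (1/8) (min (c' / 128) (1 / (8 * CA))) := ⟨_, rfl⟩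
  have hc0 : 0 < c := by
    rw [hc]
    have : 0 < 1 / (8 * CA) := by positivity
    positivity
  have hc1 : c ≤ 1 / 8 := by rw [hc]; exact min_le_left _ _
  have hc2 : c ≤ c' / 128 := by rw [hc]; exact (min_le_right _ _).trans (min_le_left _ _)
  have hc3 : c ≤ 1 / (8 * CA) := by rw [hc]; exact (min_le_right _ _).trans (min_le_right _ _)
  refine ⟨c, hc0, max d0 16, ?_⟩
  intro d hd M T hM ε hε hε1 L hL
  have hd0 : d0 ≤ d := le_trans (le_max_left _ _) hd
  have hd16 : 16 ≤ d := le_trans (le_max_right _ _) hd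
  have hd16' : (16:ℝ) ≤ d := by exact_mod_cast hd16
  obtain ⟨hp, _, _⟩ := hPm d (by omega)
  by_contra hcon
  push Not at hcon
  obtain ⟨l, hl⟩ : ∃ l : ℝ, l = Real.log (1 / ε) := ⟨_, rfl⟩
  rw [← hl] at hcon
  have hl0 : 0 < l := by
    rw [hl]
    apply Real.log_pos
    rw [lt_div_iff₀ hε]; linarith
  have hlε : Real.log ε = -l := by rw [hl, one_div, Real.log_inv, neg_neg]
  -- case (a)
  have hTd : (d:ℝ) < 8 * T := by
    by_contra hT
    push Not at hT
    have hT' : 8 * T ≤ d := by exact_mod_cast hT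
    obtain ⟨U, _, _, F, out, u0, hcard, hF, hs⟩ := hLearn d T M (d / 8) 1 (by omega) (by omega)
      (by omega) L ε
    have h1 : ∫ s, val F out ε 1 u0 s ∂(Pm d) ≤ ∫ s, val F out (1 / 10) 1 u0 s ∂(Pm d) :=
      integral_mono (val_integrable hV hp F hF out _ 1 u0) (val_integrable hV hp F hF out _ 1 u0)
        (fun s => val_mono F out hε1 1 u0 s)
    have h2 := hRefl d (d / 8) U F out u0 hd16 (by omega) hF
    linarith
  -- case (b)
  have hlCA : CA < l := by
    by_contra hb
    push Not at hb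
    have h1 : c * l ≤ 1 / 8 := by
      calc c * l ≤ 1 / (8 * CA) * CA := mul_le_mul hc3 hb hl0.le (by positivity)
        _ = 1 / 8 := by field_simp
    have h2 : c * d * l ≤ d / 8 := by nlinarith
    linarith
  have hT8 : (T:ℝ) < 1 / 8 * d * l := by
    refine hcon.trans_le ?_
    have : 0 ≤ (d:ℝ) * l := by positivity
    nlinarith
  have hlogT : Real.log ((T:ℝ) + 2) ≤ T + 1 := by
    have := Real.log_le_sub_one_of_pos (by positivity : (0:ℝ) < (T:ℝ) + 2)
    linarith
  rcases le_or_gt (lam * d) l with hcase | hcase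
  · -- case (c)
    obtain ⟨U, _, _, F, out, u0, hcard, hF, hs⟩ := hLearn d T M (T + 1) 1 (by omega) (by omega)
      (by omega) L ε
    have h1 := count_bound (by omega) hCap hK hV hp F hF out ε hε (by linarith) 1 u0
    have h2 : (2:ℝ) / 3 ≤ (Fintype.card U : ℝ) * (2 ^ d * ε ^ (d - 1)) := by linarith
    have h3 := log_bound d M T (Fintype.card U) ε (by omega) hε hcard h2
    rw [← hl] at h3
    exact case_c_num d A l M T _ hd16 hA hM (by rw [← hlam]; exact hcase) hT8 h3 hlogT
      (Nat.cast_nonneg M)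
  · -- case (d)
    have hlog2 : 0 < Real.log 2 := Real.log_pos (by norm_num)
    have hlog2' : Real.log 2 < 1 := by have := Real.log_two_lt_d9; linarith
    have hlog2'' : 1 / 2 < Real.log 2 := by have := Real.log_two_gt_d9; linarith
    obtain ⟨K, hK'⟩ : ∃ K : ℕ, K = ⌊l / Real.log 2⌋₊ := ⟨_, rfl⟩
    have hx0 : 0 ≤ l / Real.log 2 := by positivity
    have hxl : l ≤ l / Real.log 2 := by
      rw [le_div_iff₀ hlog2]; nlinarith
    have hxu : l / Real.log 2 ≤ 2 * l := by
      rw [div_le_iff₀ hlog2]; nlinarith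
    have hK1 : (K:ℝ) ≤ l / Real.log 2 := by rw [hK']; exact Nat.floor_le hx0
    have hK2 : l / Real.log 2 < K + 1 := by rw [hK']; exact Nat.lt_floor_add_one _
    have h4c : 0 < 4 / c' := by positivity
    have hqn : (0:ℝ) ≤ q := Nat.cast_nonneg q
    have hL0n : (0:ℝ) ≤ L0 := Nat.cast_nonneg L0
    have hKq : q + L0 ≤ K := by
      have : ((q + L0 : ℕ) : ℝ) < K + 1 := by
        push_cast
        have : 2 * ((q:ℝ) + 1) + L0 + 4 / c' + 1 < l := by rw [← hCA]; exact hlCA
        linarith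
      have h2 : q + L0 < K + 1 := by exact_mod_cast this
      omega
    obtain ⟨L1, hL1⟩ : ∃ L1 : ℕ, L1 = K - q := ⟨_, rfl⟩
    have hL1q : L1 + q = K := by omega
    have hL1r : (L1:ℝ) = K - q := by
      have : (L1:ℝ) + q = K := by exact_mod_cast hL1q
      linarith
    -- number of windows
    have hN1 : 1 ≤ d / 16 := by omega
    obtain ⟨n, hn⟩ : ∃ n : ℕ, n = T / (d / 16) + 1 := ⟨_, rfl⟩
    have hTn : T ≤ n * (d / 16) := by
      rw [hn]
      have := Nat.lt_div_mul_add (a := T) (b := d / 16) (by omega)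
      nlinarith
    have hNd : (d:ℝ) / 32 ≤ ((d / 16 : ℕ) : ℝ) := by
      have : d ≤ 32 * (d / 16) := by omega
      have h2 : (d:ℝ) ≤ 32 * ((d / 16 : ℕ) : ℝ) := by exact_mod_cast this
      linarith
    have hnle : (n:ℝ) ≤ 32 * c * l + 1 := by
      rw [hn]
      push_cast
      have h1 : ((T / (d / 16) : ℕ) : ℝ) ≤ T / ((d / 16 : ℕ) : ℝ) := Nat.cast_div_le
      have h2 : (T:ℝ) / ((d / 16 : ℕ) : ℝ) ≤ 32 * c * l := by
        rw [div_le_iff₀ (by linarith)]
        have h3 : c * d * l ≤ 32 * c * l * ((d / 16 : ℕ) : ℝ) := by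
          have : 0 ≤ 32 * c * l := by positivity
          nlinarith
        linarith
      linarith
    obtain ⟨U, _, _, F, out, u0, hcard, hF, hs⟩ := hLearn d T M (d / 16) n (by omega) hN1 hTn L ε
    have hcore1 := hcore d hd0 L1 (by omega) (by
      rw [hL1r]
      nlinarith) U (by
      have h1 : (Fintype.card U : ℝ) ≤ 2 ^ M * (T + 2) := by exact_mod_cast hcard
      have h0 : (0:ℝ) < Fintype.card U := by exact_mod_cast Fintype.card_pos
      have h2 := Real.log_le_log h0 h1
      rw [Real.log_mul (by positivity) (by positivity), Real.log_pow] at h2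
      have h3 : (M:ℝ) * Real.log 2 ≤ A * (d:ℝ) ^ 2 := by
        have hM0 : (0:ℝ) ≤ M := Nat.cast_nonneg M
        nlinarith
      have h4 : (T:ℝ) + 1 ≤ (lam + 1) * (d:ℝ) ^ 2 := by
        have h5 : (T:ℝ) ≤ 1 / 8 * d * (lam * d) := by
          have : 1 / 8 * (d:ℝ) * l ≤ 1 / 8 * d * (lam * d) := by
            have : (0:ℝ) ≤ 1 / 8 * d := by positivity
            exact mul_le_mul_of_nonneg_left hcase.le this
          linarith
        have h6 : (1:ℝ) ≤ (d:ℝ) ^ 2 := by nlinarith
        have h7 : 0 ≤ lam * (d:ℝ) ^ 2 := by positivity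
        nlinarith
      linarith) n (by rw [hn]; exact Nat.le_add_left 1 _) (by
      have h1 : l / 2 ≤ L1 := by
        rw [hL1r]
        have : 2 * ((q:ℝ) + 1) + L0 + 4 / c' + 1 < l := by rw [← hCA]; exact hlCA
        linarith
      have h2 : 32 * c * l ≤ c' * l / 4 := by nlinarith
      have h3 : 1 ≤ c' * l / 4 := by
        have h5 : 4 / c' ≤ l := by
          have : 2 * ((q:ℝ) + 1) + L0 + 4 / c' + 1 < l := by rw [← hCA]; exact hlCA
          linarith
        rw [div_le_iff₀ hc'] at h5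
        linarith
      have h4 : c' * (l / 2) ≤ c' * L1 := mul_le_mul_of_nonneg_left h1 hc'.le
      linarith) F hF out u0
    have hεle : ε ≤ (2:ℝ)⁻¹ ^ (L1 + q) := by
      rw [hL1q]
      have h1 : Real.log ε ≤ Real.log ((2:ℝ)⁻¹ ^ K) := by
        rw [hlε, Real.log_pow, Real.log_inv]
        rw [le_div_iff₀ hlog2] at hK1
        linarith
      exact (Real.log_le_log_iff hε (by positivity)).mp h1
    have h1 : ∫ s, val F out ε n u0 s ∂(Pm d) ≤
        ∫ s, val F out ((2:ℝ)⁻¹ ^ (L1 + q)) n u0 s ∂(Pm d) :=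
      integral_mono (val_integrable hV hp F hF out _ n u0) (val_integrable hV hp F hF out _ n u0)
        (fun s => val_mono F out hεle n u0 s)
    linarith

end Crest.Agent.R322
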