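import Crest.Agent.R322.Defs

set_option autoImplicit false

open MeasureTheory ProbabilityTheory

namespace Crest.Agent.R322

namespace MIApp

lemma continuous_xlx : Continuous xlx := Real.continuous_mul_log

lemma xlx_unif {ε : ℝ} (hε : 0 < ε) : ∃ B : ℝ, 0 ≤ B ∧ ∀ x y : ℝ, 0 ≤ x → x ≤ 1 → 0 ≤ y → y ≤ 1 →
    |xlx x - xlx y| ≤ ε + B * |x - y| := by
  have hcomp : IsCompact (Set.Icc (0:ℝ) 1) := isCompact_Icc
  obtain ⟨M, hM⟩ := hcomp.exists_bound_of_continuousOn continuous_xlx.continuousOn
  have huc := hcomp.uniformContinuousOn_of_continuous continuous_xlx.continuousOn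
  rw [Metric.uniformContinuousOn_iff] at huc
  obtain ⟨δ, hδ, huc⟩ := huc ε hε
  have hM0 : 0 ≤ M := le_trans (norm_nonneg _) (hM 0 ⟨le_refl _, zero_le_one⟩)
  refine ⟨2 * M / δ, by positivity, ?_⟩
  intro x y hx0 hx1 hy0 hy1
  by_cases h : dist x y < δ
  · have h1 := huc x ⟨hx0, hx1⟩ y ⟨hy0, hy1⟩ h
    rw [Real.dist_eq] at h1
    have h2 : 0 ≤ 2 * M / δ * |x - y| := by positivity
    linarith
  · push Not at h
    rw [Real.dist_eq] at h
    have h1 : |xlx x - xlx y| ≤ 2 * M := by
      have h3 := hM x ⟨hx0, hx1⟩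
      have h4 := hM y ⟨hy0, hy1⟩
      rw [Real.norm_eq_abs] at h3 h4
      have := abs_sub (xlx x) (xlx y)
      linarith
    have h2 : 2 * M ≤ 2 * M / δ * |x - y| := by
      rw [div_mul_eq_mul_div, le_div_iff₀ hδ]
      gcongr
    linarith

lemma measurable_meas {d N : ℕ} : Measurable (fun q : E d × (Fin N → E d) =>
    ((q.2, meas q.2 q.1) : (Fin N → E d) × (Fin N → ℝ))) := by
  refine Measurable.prodMk measurable_snd ?_
  rw [measurable_pi_iff]
  intro n
  unfold meas
  exact Measurable.inner ((measurable_pi_apply n).comp measurable_snd) measurable_fst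

lemma measurable_meas' {d N : ℕ} (z : E d) : Measurable (fun X : Fin N → E d =>
    ((X, meas X z) : (Fin N → E d) × (Fin N → ℝ))) :=
  measurable_meas.comp (measurable_const.prodMk measurable_id)

instance {d N : ℕ} : IsProbabilityMeasure (rows d N) := by
  unfold rows; infer_instance

lemma measurableSet_ne {d N : ℕ} {U : Type} [Fintype U]
    {F F' : (Fin N → E d) × (Fin N → ℝ) → U} (hF : MeasFin F) (hF' : MeasFin F') :
    MeasurableSet {p | F p ≠ F' p} := by
  have : {p | F p ≠ F' p} = ⋃ v ∈ (Finset.univ : Finset U), (F ⁻¹' {v}) \ (F' ⁻¹' {v}) := by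
    ext p
    simp only [Set.mem_iUnion, Set.mem_diff, Set.mem_preimage, Set.mem_singleton_iff]
    constructor
    · intro h
      exact ⟨F p, Finset.mem_univ _, rfl, fun h' => h h'.symm⟩
    · rintro ⟨v, -, h1, h2⟩ h3
      exact h2 (h3 ▸ h1)
  rw [this]
  exact Finset.measurableSet_biUnion _ fun v _ => (hF v).diff (hF' v)

lemma kap_sub_le {d N : ℕ} {U : Type} [Fintype U]
    {F F' : (Fin N → E d) × (Fin N → ℝ) → U} (hF : MeasFin F) (hF' : MeasFin F') (z : E d) (v : U) :
    |kap F z v - kap F' z v| ≤ (rows d N).real {X | F (X, meas X z) ≠ F' (X, meas X z)} := by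
  unfold kap
  have h1 : MeasurableSet {X : Fin N → E d | F (X, meas X z) = v} := measurable_meas' z (hF v)
  have h2 : MeasurableSet {X : Fin N → E d | F' (X, meas X z) = v} := measurable_meas' z (hF' v)
  refine (abs_measureReal_sub_le_measureReal_symmDiff h1.nullMeasurableSet
    h2.nullMeasurableSet).trans ?_
  refine measureReal_mono ?_ (measure_ne_top _ _)
  intro X hX
  rcases hX with ⟨h, h'⟩ | ⟨h, h'⟩
  · exact fun heq => h' (heq.symm.trans h)
  · exact fun heq => h' (heq.trans h)

lemma measFin_Bx {d N : ℕ} (τ : ℝ) (S : Finset ((Fin d → ℤ) × ℤ)) :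
    MeasFin (Bx (d := d) (N := N) τ S) := by
  classical
  have hidx : ∀ n : Fin N, Measurable (fun p : (Fin N → E d) × (Fin N → ℝ) =>
      idx τ (p.1 n) (p.2 n)) := by
    intro n
    unfold idx ixx
    refine Measurable.prodMk ?_ ?_
    · rw [measurable_pi_iff]
      intro i
      refine Int.measurable_floor.comp ?_
      refine Measurable.div_const (Measurable.mul_const ?_ _) _
      have h1 : Measurable (fun x : E d => x i) := by fun_prop
      exact h1.comp ((measurable_pi_apply n).comp measurable_fst)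
    · refine Int.measurable_floor.comp ?_
      exact Measurable.div_const ((measurable_pi_apply n).comp measurable_snd) _
  intro y
  cases y with
  | none =>
    have : Bx (d := d) (N := N) τ S ⁻¹' {none} = {p | ∀ n, idx τ (p.1 n) (p.2 n) ∈ S}ᶜ := by
      ext p
      rw [Set.mem_preimage, Set.mem_singleton_iff, Set.mem_compl_iff]
      unfold Bx
      by_cases h : ∀ n, idx τ (p.1 n) (p.2 n) ∈ S
      · rw [dif_pos h]
        simp only [reduceCtorEq, false_iff, not_not]
        exact h
      · rw [dif_neg h]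
        simp only [true_iff]
        exact h
    rw [this]
    refine MeasurableSet.compl ?_
    have h2 : {p : (Fin N → E d) × (Fin N → ℝ) | ∀ n, idx τ (p.1 n) (p.2 n) ∈ S} =
        ⋂ n, {p | idx τ (p.1 n) (p.2 n) ∈ S} := by
      ext p; simp
    rw [h2]
    exact MeasurableSet.iInter fun n => hidx n (Set.to_countable _).measurableSet
  | some f =>
    have : Bx (d := d) (N := N) τ S ⁻¹' {some f} =
        ⋂ n, {p | idx τ (p.1 n) (p.2 n) = (f n).1} := by
      ext p
      rw [Set.mem_preimage, Set.mem_singleton_iff, Set.mem_iInter]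
      unfold Bx
      by_cases h : ∀ n, idx τ (p.1 n) (p.2 n) ∈ S
      · rw [dif_pos h, Option.some_inj]
        constructor
        · intro h' n
          exact congrArg Subtype.val (congrFun h' n)
        · intro h'
          funext n
          exact Subtype.ext (h' n)
      · rw [dif_neg h]
        simp only [reduceCtorEq, false_iff]
        intro h'
        exact h fun n => by
          have h3 : idx τ (p.1 n) (p.2 n) = (f n).1 := h' n
          rw [h3]; exact (f n).2
    rw [this]
    exact MeasurableSet.iInter fun n => hidx n (measurableSet_singleton _)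

open Classical in
lemma kap_comp {d N : ℕ} {U : Type} [Fintype U] (τ : ℝ) (S : Finset ((Fin d → ℤ) × ℤ))
    (ψ : Option (Fin N → S) → U) (z : E d) (v : U) :
    kap (fun p => ψ (Bx τ S p)) z v = ∑ y with ψ y = v, rhoN N τ S y z := by
  unfold kap rhoN
  have : {X : Fin N → E d | ψ (Bx τ S (X, meas X z)) = v} =
      ⋃ y ∈ (Finset.univ.filter fun y => ψ y = v), {X : Fin N → E d | Bx τ S (X, meas X z) = y} := by
    ext X
    simp
  rw [this, measureReal_biUnion_finset]
  · intro y _ y' _ hne
    refine Set.disjoint_left.2 fun X hX hX' => hne ?_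
    exact (show Bx τ S (X, meas X z) = y from hX).symm.trans hX'
  · intro y _
    exact measurable_meas' z (measFin_Bx τ S y)

lemma measFin_comp {d N : ℕ} {U : Type} [Fintype U] (τ : ℝ) (S : Finset ((Fin d → ℤ) × ℤ))
    (ψ : Option (Fin N → S) → U) : MeasFin (fun p => ψ (Bx τ S p)) := by
  classical
  intro v
  have : (fun p => ψ (Bx τ S p)) ⁻¹' {v} =
      ⋃ y ∈ (Finset.univ.filter fun y => ψ y = v), (Bx (d := d) (N := N) τ S) ⁻¹' {y} := by
    ext X
    simp
  rw [this]
  exact Finset.measurableSet_biUnion _ fun y _ => measFin_Bx τ S y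

end MIApp

open MIApp

theorem miapp : StApp → StKap → StMIApp := by
  intro happ hkap d N U _ _ F hd hF Q _ ε hε
  have hcard : (0:ℝ) < Fintype.card U := by exact_mod_cast Fintype.card_pos
  set cU : ℝ := (Fintype.card U : ℝ) with hcU
  obtain ⟨B, hB, hxlx⟩ := xlx_unif (ε := ε / (4 * cU)) (by positivity)
  set Φ : E d × (Fin N → E d) → (Fin N → E d) × (Fin N → ℝ) := fun q => (q.2, meas q.2 q.1) with hΦ
  have hΦm : Measurable Φ := measurable_meas
  set μ := (Q.prod (rows d N)).map Φ with hμ
  haveI : IsProbabilityMeasure μ := Measure.isProbabilityMeasure_map hΦm.aemeasurable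
  obtain ⟨τ, hτ0, hτ1, S, ψ, hψ⟩ := happ d N U F hd hF μ (ε / (4 * cU * (B + 1))) (by positivity)
  refine ⟨τ, hτ0, hτ1, S, ψ, ?_⟩
  set F' : (Fin N → E d) × (Fin N → ℝ) → U := fun p => ψ (Bx τ S p) with hF'
  have hF'm : MeasFin F' := measFin_comp τ S ψ
  obtain ⟨hk1, hk2, hk3, -⟩ := hkap d N U F hF
  obtain ⟨hk1', hk2', hk3', -⟩ := hkap d N U F' hF'm
  have hne : MeasurableSet {p | F p ≠ F' p} := measurableSet_ne hF hF'm
  -- the error function
  set e : E d → ℝ := fun z => (rows d N).real {X | F (X, meas X z) ≠ F' (X, meas X z)} with he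
  have hem : Measurable e := by
    have h1 : Measurable fun z => (rows d N) (Prod.mk z ⁻¹' (Φ ⁻¹' {p | F p ≠ F' p})) :=
      measurable_measure_prodMk_left (hΦm hne)
    exact h1.ennreal_toReal
  have he0 : ∀ z, 0 ≤ e z := fun z => measureReal_nonneg
  have he1 : ∀ z, e z ≤ 1 := fun z => measureReal_le_one
  have hei : Integrable e Q := by
    refine Integrable.of_bound (C := 1) hem.aestronglyMeasurable ?_
    exact Filter.Eventually.of_forall fun z => by
      rw [Real.norm_eq_abs, abs_of_nonneg (he0 z)]; exact he1 z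
  have heint : ∫ z, e z ∂Q = μ.real {p | F p ≠ F' p} := by
    rw [measureReal_def, hμ, Measure.map_apply hΦm hne, Measure.prod_apply (hΦm hne)]
    rw [integral_eq_lintegral_of_nonneg_ae (Filter.Eventually.of_forall he0)
      hem.aestronglyMeasurable]
    congr 1
    refine lintegral_congr fun z => ?_
    rw [he]
    simp only [measureReal_def]
    rw [ENNReal.ofReal_toReal (measure_ne_top _ _)]
    rfl
  have heint' : B * ∫ z, e z ∂Q ≤ ε / (4 * cU) := by
    rw [heint]
    calc B * μ.real {p | F p ≠ F' p} ≤ (B + 1) * (ε / (4 * cU * (B + 1))) := by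
          gcongr
          linarith
      _ = ε / (4 * cU) := by field_simp
  have hbd : ∀ {f : E d → ℝ}, Measurable f → (∀ z, 0 ≤ f z) → (∀ z, f z ≤ 1) → Integrable f Q := by
    intro f hf h0 h1
    refine Integrable.of_bound (C := 1) hf.aestronglyMeasurable ?_
    exact Filter.Eventually.of_forall fun z => by
      rw [Real.norm_eq_abs, abs_of_nonneg (h0 z)]; exact h1 z
  have hbdx : ∀ {f : E d → ℝ}, Measurable f → (∀ z, 0 ≤ f z) → (∀ z, f z ≤ 1) →
      Integrable (fun z => xlx (f z)) Q := by
    intro f hf h0 h1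
    obtain ⟨M, hM⟩ := (isCompact_Icc : IsCompact (Set.Icc (0:ℝ) 1)).exists_bound_of_continuousOn
      continuous_xlx.continuousOn
    refine Integrable.of_bound (C := M)
      (continuous_xlx.measurable.comp hf).aestronglyMeasurable ?_
    exact Filter.Eventually.of_forall fun z => hM _ ⟨h0 z, h1 z⟩
  -- main estimate
  have hmain : ∀ v, (∫ z, xlx (kap F z v) ∂Q) - xlx (∫ z, kap F z v ∂Q) ≤
      ((∫ z, xlx (kap F' z v) ∂Q) - xlx (∫ z, kap F' z v ∂Q)) + ε / cU := by
    intro v
    have hI : Integrable (fun z => kap F z v) Q := hbd (hk1 v) (fun z => hk2 z v) (fun z => hk3 z v)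
    have hI' : Integrable (fun z => kap F' z v) Q :=
      hbd (hk1' v) (fun z => hk2' z v) (fun z => hk3' z v)
    have hX : Integrable (fun z => xlx (kap F z v)) Q :=
      hbdx (hk1 v) (fun z => hk2 z v) (fun z => hk3 z v)
    have hX' : Integrable (fun z => xlx (kap F' z v)) Q :=
      hbdx (hk1' v) (fun z => hk2' z v) (fun z => hk3' z v)
    have h1 : (∫ z, xlx (kap F z v) ∂Q) - (∫ z, xlx (kap F' z v) ∂Q) ≤
        ε / (4 * cU) + B * ∫ z, e z ∂Q := by
      rw [← integral_sub hX hX']
      have h2 : ∫ z, (xlx (kap F z v) - xlx (kap F' z v)) ∂Q ≤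
          ∫ z, (ε / (4 * cU) + B * e z) ∂Q := by
        refine integral_mono (hX.sub hX') ((integrable_const _).add (hei.const_mul B)) ?_
        intro z
        have h3 := hxlx (kap F z v) (kap F' z v) (hk2 z v) (hk3 z v) (hk2' z v) (hk3' z v)
        have h4 : |kap F z v - kap F' z v| ≤ e z := kap_sub_le hF hF'm z v
        have h5 := le_abs_self (xlx (kap F z v) - xlx (kap F' z v))
        have h6 : B * |kap F z v - kap F' z v| ≤ B * e z := by gcongr
        simp only
        linarith
      refine h2.trans (le_of_eq ?_)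
      rw [integral_add (integrable_const _) (hei.const_mul B), integral_const_mul]
      simp
    have hi0 : 0 ≤ ∫ z, kap F z v ∂Q := integral_nonneg fun z => hk2 z v
    have hi0' : 0 ≤ ∫ z, kap F' z v ∂Q := integral_nonneg fun z => hk2' z v
    have hle1 : ∀ {f : E d → ℝ}, Integrable f Q → (∀ z, f z ≤ 1) → ∫ z, f z ∂Q ≤ 1 := by
      intro f hf h
      calc ∫ z, f z ∂Q ≤ ∫ _z, (1:ℝ) ∂Q := integral_mono hf (integrable_const _) h
        _ = 1 := by simp
    have hi1 : ∫ z, kap F z v ∂Q ≤ 1 := hle1 hI fun z => hk3 z v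
    have hi1' : ∫ z, kap F' z v ∂Q ≤ 1 := hle1 hI' fun z => hk3' z v
    have h7 : xlx (∫ z, kap F' z v ∂Q) - xlx (∫ z, kap F z v ∂Q) ≤
        ε / (4 * cU) + B * ∫ z, e z ∂Q := by
      have h8 := hxlx (∫ z, kap F' z v ∂Q) (∫ z, kap F z v ∂Q) hi0' hi1' hi0 hi1
      have h9 := le_abs_self (xlx (∫ z, kap F' z v ∂Q) - xlx (∫ z, kap F z v ∂Q))
      have h10 : |(∫ z, kap F' z v ∂Q) - ∫ z, kap F z v ∂Q| ≤ ∫ z, e z ∂Q := by
        rw [← integral_sub hI' hI]
        refine (abs_integral_le_integral_abs).trans ?_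
        refine integral_mono (hI'.sub hI).abs hei ?_
        intro z
        simp only
        rw [abs_sub_comm]
        exact kap_sub_le hF hF'm z v
      have h11 : B * |(∫ z, kap F' z v ∂Q) - ∫ z, kap F z v ∂Q| ≤ B * ∫ z, e z ∂Q := by gcongr
      linarith
    have h12 : ε / cU = 4 * (ε / (4 * cU)) := by field_simp
    rw [h12]
    linarith
  unfold MI
  calc ∑ v, ((∫ z, xlx (kap F z v) ∂Q) - xlx (∫ z, kap F z v ∂Q))
      ≤ ∑ v, (((∫ z, xlx (kap F' z v) ∂Q) - xlx (∫ z, kap F' z v ∂Q)) + ε / cU) :=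
        Finset.sum_le_sum fun v _ => hmain v
    _ = (∑ v, ((∫ z, xlx (kap F' z v) ∂Q) - xlx (∫ z, kap F' z v ∂Q))) + ε := by
        rw [Finset.sum_add_distrib, Finset.sum_const, nsmul_eq_mul, Finset.card_univ, ← hcU]
        field_simp
    _ = _ := by
        congr 1
        refine Finset.sum_congr rfl fun v _ => ?_
        simp only [hF', kap_comp]

end Crest.Agent.R322
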