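import Crest.Agent.R322.Defs

set_option autoImplicit false

open MeasureTheory ProbabilityTheory
open scoped ENNReal

namespace Crest.Agent.R322

namespace MOM

/-- distance to the span of a finite family, as a countable infimum -/
theorem infDist_span_eq {d : ℕ} {ι : Type} [Fintype ι] (x : E d) (f : ι → E d) :
    Metric.infDist x (Submodule.span ℝ (Set.range f) : Set (E d)) =
      ⨅ q : ι → ℚ, dist x (∑ i, (q i : ℝ) • f i) := by
  set g : (ι → ℚ) → E d := fun q => ∑ i, (q i : ℝ) • f i with hg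
  have h1 : Set.range g ⊆ (Submodule.span ℝ (Set.range f) : Set (E d)) := by
    rintro _ ⟨q, rfl⟩
    exact Submodule.mem_span_range_iff_exists_fun ℝ |>.2 ⟨fun i => (q i : ℝ), rfl⟩
  have h2 : (Submodule.span ℝ (Set.range f) : Set (E d)) ⊆ closure (Set.range g) := by
    intro y hy
    obtain ⟨c, rfl⟩ := (Submodule.mem_span_range_iff_exists_fun ℝ).1 hy
    have hd : DenseRange (Pi.map fun (_ : ι) (q : ℚ) => (q : ℝ)) :=
      DenseRange.piMap fun _ => Rat.denseRange_cast
    have hc : Continuous fun c : ι → ℝ => ∑ i, c i • f i := by fun_prop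
    have := hd c
    have h3 := image_closure_subset_closure_image hc (Set.mem_image_of_mem _ this)
    refine closure_mono ?_ h3
    rintro _ ⟨_, ⟨q, rfl⟩, rfl⟩
    exact ⟨q, rfl⟩
  have h3 : Metric.infDist x (Submodule.span ℝ (Set.range f) : Set (E d)) =
      Metric.infDist x (Set.range g) := by
    apply le_antisymm
    · exact Metric.infDist_le_infDist_of_subset h1 (Set.range_nonempty g)
    · rw [← Metric.infDist_closure (s := Set.range g)]
      exact Metric.infDist_le_infDist_of_subset h2 ⟨0, Submodule.zero_mem _⟩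
  rw [h3, Metric.infDist_eq_iInf]
  exact iInf_range' (fun y => dist x y) g

theorem dl_eq {d m : ℕ} (w : Fin m → E d) (k : Fin m) :
    dl w k = ⨅ q : {i : Fin m // i < k} → ℚ, dist (w k) (∑ i, (q i : ℝ) • w i.1) := by
  unfold dl
  rw [← infDist_span_eq]
  congr 3
  ext v
  constructor
  · rintro ⟨i, hi, rfl⟩
    exact ⟨⟨i, hi⟩, rfl⟩
  · rintro ⟨i, rfl⟩
    exact ⟨i.1, i.2, rfl⟩

end MOM

theorem measurable_dl {d m : ℕ} (k : Fin m) : Measurable (fun w : Fin m → E d => dl w k) := by
  simp_rw [MOM.dl_eq]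
  refine Measurable.iInf fun q => ?_
  have : Continuous fun w : Fin m → E d => dist (w k) (∑ i, (q i : ℝ) • w i.1) := by fun_prop
  exact this.measurable

theorem measurable_del {d m : ℕ} (k : Fin m) :
    Measurable (fun z : Fin (m + 1) → E d => del z k) := by
  unfold del
  have : Continuous fun (z : Fin (m + 1) → E d) (i : Fin m) => z i.succ - z 0 := by fun_prop
  exact (measurable_dl k).comp this.measurable

namespace MOM

theorem del_castSucc {d m : ℕ} (z : Fin (m + 2) → E d) (k : Fin m) :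
    del z k.castSucc = del (fun i : Fin (m + 1) => z i.castSucc) k := by
  unfold del dl
  simp only [Fin.succ_castSucc, Fin.castSucc_zero]
  congr 3
  ext v
  constructor
  · rintro ⟨i, hi, rfl⟩
    have hi' : (i : ℕ) < k := hi
    refine ⟨⟨i, by omega⟩, ?_, rfl⟩
    exact hi'
  · rintro ⟨i, hi, rfl⟩
    exact ⟨i.castSucc, hi, rfl⟩

theorem del_last {d m : ℕ} (z : Fin (m + 2) → E d) :
    del z (Fin.last m) = Metric.infDist (z (Fin.last (m + 1)) - z (Fin.castSucc 0))
      (Submodule.span ℝ (Set.range fun i : Fin m => z (Fin.castSucc i.succ) - z (Fin.castSucc 0)) :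
        Set (E d)) := by
  unfold del dl
  simp only [Fin.succ_last, Fin.castSucc_zero]
  congr 3
  ext v
  constructor
  · rintro ⟨i, hi, rfl⟩
    have hi' : (i : ℕ) < m := hi
    exact ⟨⟨i, hi'⟩, rfl⟩
  · rintro ⟨i, rfl⟩
    exact ⟨i.castSucc, i.castSucc_lt_last, rfl⟩

theorem mom_aux {d : ℕ} {Q : Measure (E d)} (K : ℝ≥0∞) (hK : K ≠ ⊤) [IsProbabilityMeasure Q]
    (hsupp : ∀ᵐ z ∂Q, cell d 0 z = 0)
    (h : ∀ (V : Submodule ℝ (E d)), Module.finrank ℝ V ≤ d / 16 → ∀ z0 : E d, cell d 0 z0 = 0 →
      ∫⁻ z, (ENNReal.ofReal (Metric.infDist (z - z0) (V : Set (E d)))) ^ (-((d:ℝ) / 4)) ∂Q ≤ K) :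
    ∀ m : ℕ, m ≤ d / 16 + 1 →
      ∫⁻ z, ∏ k, (ENNReal.ofReal (del z k)) ^ (-((d:ℝ) / 4))
        ∂(Measure.pi fun _ : Fin (m + 1) => Q) ≤ K ^ m
  | 0, _ => by simp
  | m + 1, hm => by
    have IH := mom_aux K hK hsupp h m (by omega)
    set φ : ℝ → ℝ≥0∞ := fun r => (ENNReal.ofReal r) ^ (-((d:ℝ) / 4)) with hφ
    have hφm : Measurable φ := by fun_prop
    set V : (Fin (m + 1) → E d) → Submodule ℝ (E d) := fun z' =>
      Submodule.span ℝ (Set.range fun i : Fin m => z' i.succ - z' 0) with hV
    set G : (Fin (m + 1) → E d) × E d → ℝ≥0∞ := fun p =>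
      (∏ k, φ (del p.1 k)) * φ (Metric.infDist (p.2 - p.1 0) (V p.1 : Set (E d))) with hG
    have e1 : ∀ z : Fin (m + 2) → E d, ∏ k, φ (del z k) =
        (fun p : E d × (Fin (m + 1) → E d) => G p.swap)
          (MeasurableEquiv.piFinSuccAbove (fun _ => E d) (Fin.last (m + 1)) z) := by
      intro z
      rw [Fin.prod_univ_castSucc]
      have e2 : MeasurableEquiv.piFinSuccAbove (fun _ => E d) (Fin.last (m + 1)) z =
          (z (Fin.last (m + 1)), fun i => z ((Fin.last (m + 1)).succAbove i)) := rfl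
      simp only [e2, Fin.succAbove_last, hG, Prod.swap, hV]
      rw [del_last]
      congr 1
      refine Finset.prod_congr rfl fun k _ => ?_
      rw [del_castSucc]
    calc ∫⁻ z, ∏ k, φ (del z k) ∂(Measure.pi fun _ : Fin (m + 2) => Q)
        = ∫⁻ p, G p.swap ∂(Q.prod (Measure.pi fun _ : Fin (m + 1) => Q)) := by
          rw [lintegral_congr e1]
          exact (measurePreserving_piFinSuccAbove (fun _ => Q) (Fin.last (m + 1))).lintegral_map_equiv
            (fun p : E d × (Fin (m + 1) → E d) => G p.swap) _ |>.symm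
      _ = ∫⁻ p, G p ∂((Measure.pi fun _ : Fin (m + 1) => Q).prod Q) :=
          (Measure.measurePreserving_swap.lintegral_comp_emb
            MeasurableEquiv.prodComm.measurableEmbedding G)
      _ ≤ ∫⁻ z', ∫⁻ x, G (z', x) ∂Q ∂(Measure.pi fun _ : Fin (m + 1) => Q) :=
          lintegral_prod_le G
      _ ≤ ∫⁻ z', (∏ k, φ (del z' k)) * K ∂(Measure.pi fun _ : Fin (m + 1) => Q) := by
          refine lintegral_mono_ae ?_
          have h0 : ∀ᵐ z' ∂(Measure.pi fun _ : Fin (m + 1) => Q), cell d 0 (z' 0) = 0 :=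
            (measurePreserving_eval (fun _ : Fin (m + 1) => Q) 0).quasiMeasurePreserving.ae hsupp
          filter_upwards [h0] with z' hz'
          simp only [hG]
          rw [lintegral_const_mul]
          · refine mul_le_mul_right ?_ _
            refine h (V z') ?_ (z' 0) hz'
            have := finrank_range_le_card (R := ℝ) (fun i : Fin m => z' i.succ - z' 0)
            rw [Set.finrank, Fintype.card_fin] at this
            exact this.trans (by omega)
          · exact hφm.comp (by
              have : Continuous fun x : E d => Metric.infDist (x - z' 0) (V z' : Set (E d)) :=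
                (Metric.continuous_infDist_pt _).comp (by fun_prop)
              exact this.measurable)
      _ = (∫⁻ z', (∏ k, φ (del z' k)) ∂(Measure.pi fun _ : Fin (m + 1) => Q)) * K :=
          lintegral_mul_const' _ _ hK
      _ ≤ K ^ m * K := by gcongr
      _ = K ^ (m + 1) := (pow_succ _ _).symm

end MOM

theorem mom : StAff → StMom := by
  rintro ⟨C, hC, H⟩
  refine ⟨C, hC, fun d m Q a hd hQ hm => ?_⟩
  have := hQ.prob
  exact MOM.mom_aux _ ENNReal.ofReal_ne_top hQ.supp (fun V hV z0 hz0 => H d Q a hd hQ V hV z0 hz0)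
    m (by omega)

end Crest.Agent.R322
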