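import Crest.Agent.R322.Defs

set_option autoImplicit false

open MeasureTheory ProbabilityTheory Set Metric
open scoped Pointwise ENNReal

namespace Crest.Agent.R322

namespace PMaux

/-- the cone constant -/
lemma vol_ball_ne_zero (d : ℕ) : (volume : Measure (E d)) (ball (0 : E d) 1) ≠ 0 :=
  (Metric.measure_ball_pos _ _ one_pos).ne'

lemma vol_ball_ne_top (d : ℕ) : (volume : Measure (E d)) (ball (0 : E d) 1) ≠ ∞ :=
  measure_ball_lt_top.ne

lemma finrank_E (d : ℕ) : Module.finrank ℝ (E d) = d := by simp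

/-- Cone formula: for measurable `A`, `Pm d A = vol (cone over A ∩ sphere) / vol (ball 0 1)`. -/
lemma Pm_apply (d : ℕ) (hd : 1 ≤ d) {A : Set (E d)} (hA : MeasurableSet A) :
    Pm d A = ((volume : Measure (E d)) (ball (0 : E d) 1))⁻¹ *
      (volume : Measure (E d)) (Ioo (0 : ℝ) 1 • (A ∩ sphere (0 : E d) 1)) := by
  have hd0 : ((d : ℕ) : ℝ≥0∞) ≠ 0 := by
    simp only [ne_eq, Nat.cast_eq_zero]; omega
  have hdt : ((d : ℕ) : ℝ≥0∞) ≠ ∞ := ENNReal.natCast_ne_top d
  have hA' : MeasurableSet ((Subtype.val : sphere (0 : E d) 1 → E d) ⁻¹' A) :=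
    measurable_subtype_coe hA
  rw [Pm, Measure.map_apply measurable_subtype_coe hA, Crest.StreamLearn.sphereUniform,
    Measure.smul_apply, Measure.toSphere_apply' _ hA', Measure.toSphere_apply_univ, finrank_E,
    Subtype.image_preimage_coe, smul_eq_mul, inter_comm (sphere (0 : E d) 1) A,
    ENNReal.mul_inv (Or.inl hd0) (Or.inl hdt), mul_assoc, mul_left_comm _ (d : ℝ≥0∞) _,
    ← mul_assoc (d : ℝ≥0∞)⁻¹ (d : ℝ≥0∞), ENNReal.inv_mul_cancel hd0 hdt, one_mul]

lemma Pm_univ (d : ℕ) (hd : 1 ≤ d) : Pm d univ = 1 := by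
  have hd0 : ((d : ℕ) : ℝ≥0∞) ≠ 0 := by
    simp only [ne_eq, Nat.cast_eq_zero]; omega
  have hdt : ((d : ℕ) : ℝ≥0∞) ≠ ∞ := ENNReal.natCast_ne_top d
  rw [Pm, Measure.map_apply measurable_subtype_coe MeasurableSet.univ, preimage_univ,
    Crest.StreamLearn.sphereUniform, Measure.smul_apply, Measure.toSphere_apply_univ, finrank_E,
    smul_eq_mul]
  exact ENNReal.inv_mul_cancel (mul_ne_zero hd0 (vol_ball_ne_zero d))
    (ENNReal.mul_ne_top hdt (vol_ball_ne_top d))

lemma Pm_norm (d : ℕ) : ∀ᵐ s ∂(Pm d), ‖s‖ = 1 := by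
  rw [Pm]
  have hm : MeasurableSet {x : E d | ‖x‖ = 1} := measurableSet_eq_fun measurable_norm measurable_const
  rw [ae_map_iff measurable_subtype_coe.aemeasurable hm]
  exact Filter.Eventually.of_forall fun x => by simp

lemma Pm_map (d : ℕ) (hd : 1 ≤ d) (f : E d ≃ₗᵢ[ℝ] E d) : (Pm d).map f = Pm d := by
  have hfm : Measurable (f : E d → E d) := f.continuous.measurable
  ext A hA
  rw [Measure.map_apply hfm hA, Pm_apply d hd (hfm hA), Pm_apply d hd hA]
  congr 1
  have hmp : MeasurePreserving (f : E d → E d) volume volume := f.measurePreserving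
  have hemb : MeasurableEmbedding (f : E d → E d) := f.toHomeomorph.measurableEmbedding
  rw [← hmp.measure_preimage_emb hemb (Ioo (0 : ℝ) 1 • (A ∩ sphere (0 : E d) 1))]
  congr 1
  ext x
  simp only [Set.mem_smul, mem_preimage, mem_inter_iff, mem_sphere_iff_norm, sub_zero]
  constructor
  · rintro ⟨t, ht, y, ⟨hyA, hy1⟩, rfl⟩
    exact ⟨t, ht, f y, ⟨hyA, by rw [f.norm_map, hy1]⟩, by rw [map_smul]⟩
  · rintro ⟨t, ht, y, ⟨hyA, hy1⟩, hx⟩
    refine ⟨t, ht, f.symm y, ⟨by simpa using hyA, by rw [f.symm.norm_map, hy1]⟩, ?_⟩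
    apply f.injective
    rw [map_smul, f.apply_symm_apply, hx]

end PMaux

theorem pm : StPm := by
  intro d hd
  exact ⟨⟨PMaux.Pm_univ d hd⟩, PMaux.Pm_norm d, PMaux.Pm_map d hd⟩

end Crest.Agent.R322
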