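import Crest.Agent.R322.Defs

set_option autoImplicit false

open MeasureTheory ProbabilityTheory

namespace Crest.Agent.R322

namespace POTNN

theorem meas_cs (d k : ℕ) (c : Fin d → ℤ) : MeasurableSet (cs d k c) := by
  have h : cs d k c = ⋂ i, {s : E d | ⌊(2:ℝ) ^ k * Real.sqrt d * s i⌋ = c i} := by
    ext s
    simp only [cs, cell, Set.mem_setOf_eq, Set.mem_iInter]
    exact funext_iff
  rw [h]
  refine MeasurableSet.iInter fun i => ?_
  have h1 : Measurable fun s : E d => ⌊(2:ℝ) ^ k * Real.sqrt d * s i⌋ := by
    refine Int.measurable_floor.comp ?_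
    refine Measurable.const_mul ?_ _
    exact (EuclideanSpace.proj i : E d →L[ℝ] ℝ).continuous.measurable
  exact h1 (measurableSet_singleton (c i))

theorem xlx_bound {x : ℝ} (h0 : 0 ≤ x) (h1 : x ≤ 1) : |xlx x| ≤ 1 := by
  rcases h0.eq_or_lt with h | h
  · rw [← h]; simp [xlx]
  · have := Real.abs_log_mul_self_lt x h h1
    rw [xlx, mul_comm]
    exact this.le

theorem meas_xlx : Measurable xlx := measurable_id.mul Real.measurable_log

theorem xlx_ge {x w : ℝ} (hx : 0 ≤ x) (hw : 0 < w) : x * Real.log w + x - w ≤ xlx x := by
  rcases hx.eq_or_lt with h | h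
  · rw [← h]; simp [xlx]; exact hw.le
  · have h1 : Real.log (w / x) ≤ w / x - 1 := Real.log_le_sub_one_of_pos (by positivity)
    rw [Real.log_div hw.ne' h.ne'] at h1
    have h2 : x * (Real.log w - Real.log x) ≤ x * (w / x - 1) := mul_le_mul_of_nonneg_left h1 hx
    have h3 : x * (w / x - 1) = w - x := by field_simp
    rw [h3] at h2
    unfold xlx
    linarith

end POTNN

open POTNN in
theorem potnn : StPm → StPotNN := by
  intro hPm d k c g a hd hD
  haveI : IsProbabilityMeasure (Pm d) := (hPm d hd).1
  have hcs := meas_cs d k c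
  have hg : Integrable g (Pm d) := by
    refine Integrable.of_bound (C := 1) hD.meas.aestronglyMeasurable ?_
    refine Filter.Eventually.of_forall fun s => ?_
    rw [Real.norm_eq_abs, abs_of_nonneg (hD.nn s)]
    exact hD.le1 s
  have hx : Integrable (fun s => xlx (g s)) (Pm d) := by
    refine Integrable.of_bound (C := 1) (meas_xlx.comp hD.meas).aestronglyMeasurable ?_
    refine Filter.Eventually.of_forall fun s => ?_
    rw [Real.norm_eq_abs]
    exact xlx_bound (hD.nn s) (hD.le1 s)
  by_cases hZ : Zm g = 0
  · have h1 : g =ᵐ[Pm d] 0 := by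
      rw [← integral_eq_zero_iff_of_nonneg (fun s => hD.nn s) hg]
      exact hZ
    have h2 : ∫ s, xlx (g s) ∂(Pm d) = 0 := by
      rw [integral_congr_ae (g := fun _ => (0:ℝ))]
      · simp
      · filter_upwards [h1] with s hs
        rw [hs]; simp [xlx]
    unfold Pot
    rw [h2, hZ]
    simp [xlx]
  · have hZ0 : 0 ≤ Zm g := integral_nonneg hD.nn
    have hZp : 0 < Zm g := lt_of_le_of_ne hZ0 (Ne.symm hZ)
    have hP0 : 0 ≤ (Pm d).real (cs d k c) := measureReal_nonneg
    have hle : Zm g ≤ (Pm d).real (cs d k c) := by
      have h1 : Zm g ≤ ∫ s, (cs d k c).indicator (fun _ => (1:ℝ)) s ∂(Pm d) := by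
        refine integral_mono hg ?_ fun s => ?_
        · exact (integrable_const (1:ℝ)).indicator hcs
        · by_cases hs : s ∈ cs d k c
          · rw [Set.indicator_of_mem hs]; exact hD.le1 s
          · rw [Set.indicator_of_notMem hs]
            by_contra hne
            push Not at hne
            exact hs (hD.supp s hne.ne')
      rw [integral_indicator hcs] at h1
      simpa using h1
    have hP : 0 < (Pm d).real (cs d k c) := lt_of_lt_of_le hZp hle
    set P := (Pm d).real (cs d k c) with hPdef
    set w := Zm g / P with hw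
    have hwp : 0 < w := by positivity
    have h1 : ∫ s, (g s * Real.log w + g s - (cs d k c).indicator (fun _ => w) s) ∂(Pm d) ≤
        ∫ s, xlx (g s) ∂(Pm d) := by
      refine integral_mono ?_ hx fun s => ?_
      · exact ((hg.mul_const _).add hg).sub ((integrable_const w).indicator hcs)
      · by_cases hs : s ∈ cs d k c
        · show g s * Real.log w + g s - (cs d k c).indicator (fun _ => w) s ≤ _
          rw [Set.indicator_of_mem hs]
          exact xlx_ge (hD.nn s) hwp
        · have h0 : g s = 0 := by
            by_contra hne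
            exact hs (hD.supp s hne)
          show g s * Real.log w + g s - (cs d k c).indicator (fun _ => w) s ≤ xlx (g s)
          rw [Set.indicator_of_notMem hs, h0]
          simp [xlx]
    have hA : Integrable (fun s => g s * Real.log w) (Pm d) := hg.mul_const _
    have hB : Integrable (fun s => g s * Real.log w + g s) (Pm d) := hA.add hg
    have hC : Integrable (fun s => (cs d k c).indicator (fun _ => w) s) (Pm d) :=
      (integrable_const w).indicator hcs
    rw [integral_sub hB hC, integral_add hA hg, integral_mul_const, integral_indicator hcs] at h1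
    simp only [integral_const, MeasurableSet.univ, measureReal_restrict_apply, Set.univ_inter,
      smul_eq_mul] at h1
    have h2 : P * w = Zm g := by rw [hw]; field_simp
    have h3 : ∫ s, g s ∂(Pm d) = Zm g := rfl
    rw [← hPdef, h2, h3, hw, Real.log_div hZp.ne' hP.ne'] at h1
    unfold Pot xlx
    unfold xlx at h1
    rw [← hPdef]
    linarith

end Crest.Agent.R322
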