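import Crest.Agent.R322.Defs

set_option autoImplicit false

open MeasureTheory ProbabilityTheory Set Metric
open scoped ENNReal

namespace Crest.Agent.R322

namespace REFLaux

/-- the section map `(s, X) ↦ (X, meas X s)` is measurable -/
lemma measurable_sec (d N : ℕ) :
    Measurable (fun p : E d × (Fin N → E d) => (p.2, meas p.2 p.1)) := by
  refine Measurable.prodMk measurable_snd ?_
  refine measurable_pi_lambda _ fun n => ?_
  have : Continuous fun p : E d × (Fin N → E d) => (inner ℝ (p.2 n) p.1 : ℝ) := by fun_prop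
  exact this.measurable

lemma measurable_sec1 {d N : ℕ} (s : E d) :
    Measurable (fun X : Fin N → E d => (X, meas X s)) := by
  have h := measurable_sec d N
  exact h.comp (measurable_const.prodMk measurable_id)

instance (d N : ℕ) : IsProbabilityMeasure (rows d N) := by
  unfold rows; infer_instance

open Classical in
/-- the success set of one window -/
def A {d N : ℕ} {U : Type} (G : (Fin N → E d) × (Fin N → ℝ) → U) (out : U → E d) (r : ℝ) :
    Set (E d × (Fin N → E d)) := {p | dist p.1 (out (G (p.2, meas p.2 p.1))) ≤ r}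

lemma A_meas {d N : ℕ} {U : Type} [Fintype U] (G : (Fin N → E d) × (Fin N → ℝ) → U)
    (hG : MeasFin G) (out : U → E d) (r : ℝ) : MeasurableSet (A G out r) := by
  have : A G out r = ⋃ v : U, ({p : E d × (Fin N → E d) | dist p.1 (out v) ≤ r} ∩
      (fun p : E d × (Fin N → E d) => (p.2, meas p.2 p.1)) ⁻¹' (G ⁻¹' {v})) := by
    ext p
    simp [A]
  rw [this]
  refine MeasurableSet.iUnion fun v => ?_
  refine MeasurableSet.inter ?_ (measurable_sec d N (hG v))
  exact measurableSet_le (by fun_prop) measurable_const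

open Classical in
lemma val_one {d N : ℕ} {U : Type} [Fintype U] (F : ℕ → U → (Fin N → E d) × (Fin N → ℝ) → U)
    (hF : ∀ i u, MeasFin (F i u)) (out : U → E d) (r : ℝ) (u0 : U) (s : E d) :
    val F out r 1 u0 s = (rows d N).real {X | (s, X) ∈ A (F 0 u0) out r} := by
  have h1 : val F out r 1 u0 s = ∑ v, kap (F 0 u0) s v * (if dist s (out v) ≤ r then 1 else 0) := by
    simp [val]
  rw [h1]
  have h2 : {X : Fin N → E d | (s, X) ∈ A (F 0 u0) out r} =
      ⋃ v ∈ (Finset.univ.filter (fun v : U => dist s (out v) ≤ r)),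
        {X | F 0 u0 (X, meas X s) = v} := by
    ext X
    simp [A]
  rw [h2, measureReal_biUnion_finset]
  · rw [Finset.sum_filter]
    refine Finset.sum_congr rfl fun v _ => ?_
    split_ifs with h
    · rw [mul_one]; rfl
    · rw [mul_zero]
  · intro v _ w _ hvw
    rw [Function.onFun, Set.disjoint_left]
    intro X hX hX'
    exact hvw (Eq.trans (Eq.symm hX) hX')
  · intro v _
    exact measurable_sec1 s (hF 0 u0 v)

/-- second moments of the marginals do not depend on the direction -/
lemma sq_dir {d : ℕ} (hrot : ∀ f : E d ≃ₗᵢ[ℝ] E d, (Pm d).map f = Pm d) (e e' : E d)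
    (h : ‖e‖ = ‖e'‖) : ∫ s, (inner ℝ e s : ℝ) ^ 2 ∂(Pm d) = ∫ s, (inner ℝ e' s : ℝ) ^ 2 ∂(Pm d) := by
  set K : Submodule ℝ (E d) := (ℝ ∙ (e - e'))ᗮ
  have h1 : K.reflection e = e' := Submodule.reflection_sub h
  have hc : Measurable (K.reflection : E d → E d) := K.reflection.continuous.measurable
  have h2 : ∫ s, (inner ℝ e' s : ℝ) ^ 2 ∂(Pm d) =
      ∫ s, (inner ℝ e' (K.reflection s) : ℝ) ^ 2 ∂(Pm d) := by
    conv_lhs => rw [← hrot K.reflection]
    rw [integral_map hc.aemeasurable]
    have : Continuous fun s : E d => (inner ℝ e' s : ℝ) ^ 2 := by fun_prop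
    exact this.aestronglyMeasurable
  rw [h2]
  refine integral_congr_ae (Filter.Eventually.of_forall fun s => ?_)
  have h3 : (inner ℝ (K.reflection e) (K.reflection s) : ℝ) = inner ℝ e s :=
    LinearIsometryEquiv.inner_map_map _ _ _
  rw [h1] at h3
  simp only
  rw [h3]

lemma int_sq {d : ℕ} (hp : IsProbabilityMeasure (Pm d)) (hn : ∀ᵐ s ∂(Pm d), ‖s‖ = 1) (e : E d) :
    Integrable (fun s => (inner ℝ e s : ℝ) ^ 2) (Pm d) := by
  have hc : Continuous fun s : E d => (inner ℝ e s : ℝ) ^ 2 := by fun_prop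
  refine Integrable.mono' (integrable_const (‖e‖ ^ 2)) hc.aestronglyMeasurable ?_
  filter_upwards [hn] with s hs
  rw [Real.norm_eq_abs, abs_of_nonneg (sq_nonneg _), ← sq_abs]
  have := abs_real_inner_le_norm e s
  rw [hs, mul_one] at this
  exact pow_le_pow_left₀ (abs_nonneg _) this 2

lemma sq_unit {d : ℕ} (hd : 1 ≤ d) (hp : IsProbabilityMeasure (Pm d))
    (hn : ∀ᵐ s ∂(Pm d), ‖s‖ = 1)
    (hrot : ∀ f : E d ≃ₗᵢ[ℝ] E d, (Pm d).map f = Pm d) (e : E d) (he : ‖e‖ = 1) :
    ∫ s, (inner ℝ e s : ℝ) ^ 2 ∂(Pm d) = 1 / d := by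
  let b := EuclideanSpace.basisFun (Fin d) ℝ
  have h1 : ∫ s, ∑ i, (inner ℝ (b i) s : ℝ) ^ 2 ∂(Pm d) = 1 := by
    have : (fun s : E d => ∑ i, (inner ℝ (b i) s : ℝ) ^ 2) =ᵐ[Pm d] fun _ => (1 : ℝ) := by
      filter_upwards [hn] with s hs
      have h2 := b.sum_sq_norm_inner_right s
      simp only [Real.norm_eq_abs, sq_abs] at h2
      rw [h2, hs, one_pow]
    rw [integral_congr_ae this]
    simp
  rw [integral_finsetSum _ (fun i _ => int_sq hp hn (b i))] at h1
  have h2 : ∀ i, ∫ s, (inner ℝ (b i) s : ℝ) ^ 2 ∂(Pm d) = ∫ s, (inner ℝ e s : ℝ) ^ 2 ∂(Pm d) :=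
    fun i => sq_dir hrot _ _ (by rw [he]; exact b.norm_eq_one i)
  simp only [h2, Finset.sum_const, Finset.card_univ, Fintype.card_fin, nsmul_eq_mul] at h1
  have hd' : (d : ℝ) ≠ 0 := by positivity
  field_simp
  linarith

lemma proj_sq {d : ℕ} (hd : 1 ≤ d) (hp : IsProbabilityMeasure (Pm d))
    (hn : ∀ᵐ s ∂(Pm d), ‖s‖ = 1)
    (hrot : ∀ f : E d ≃ₗᵢ[ℝ] E d, (Pm d).map f = Pm d) (V : Submodule ℝ (E d)) :
    ∫ s, ‖V.starProjection s‖ ^ 2 ∂(Pm d) = Module.finrank ℝ V / d := by
  let b := stdOrthonormalBasis ℝ V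
  have h1 : ∀ s : E d, ‖V.starProjection s‖ ^ 2 = ∑ i, (inner ℝ ((b i : V) : E d) s : ℝ) ^ 2 := by
    intro s
    have h2 := b.sum_sq_norm_inner_right (V.orthogonalProjectionOnto s)
    simp only [Real.norm_eq_abs, sq_abs] at h2
    have h3 : ‖V.starProjection s‖ = ‖V.orthogonalProjectionOnto s‖ := by
      rw [Submodule.starProjection_apply]; rfl
    rw [h3, ← h2]
    refine Finset.sum_congr rfl fun i _ => ?_
    rw [Submodule.inner_orthogonalProjectionOnto_eq_of_mem_left]
  simp only [h1]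
  rw [integral_finsetSum _ (fun i _ => int_sq hp hn _)]
  rw [Finset.sum_congr rfl (fun i _ => sq_unit hd hp hn hrot _ (by
    have := b.norm_eq_one i
    rwa [← Submodule.coe_norm] at *))]
  simp [div_eq_mul_inv]

lemma rho_inv {d N : ℕ} (X : Fin N → E d) (s : E d) :
    meas X ((Submodule.span ℝ (range X)).reflection s) = meas X s := by
  funext n
  have h1 : (Submodule.span ℝ (range X)).reflection (X n) = X n :=
    Submodule.reflection_mem_subspace_eq_self (Submodule.subset_span (mem_range_self n))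
  have h2 : (inner ℝ ((Submodule.span ℝ (range X)).reflection (X n))
      ((Submodule.span ℝ (range X)).reflection s) : ℝ) = inner ℝ (X n) s :=
    LinearIsometryEquiv.inner_map_map _ _ _
  rw [h1] at h2
  exact h2

lemma both {d : ℕ} (V : Submodule ℝ (E d)) (s o : E d) (hs : ‖s‖ = 1) (h1 : dist s o ≤ 1 / 10)
    (h2 : dist (V.reflection s) o ≤ 1 / 10) : 99 / 100 ≤ ‖V.starProjection s‖ ^ 2 := by
  have h3 : dist s (V.reflection s) ≤ 1 / 5 := by
    have := dist_triangle_right s (V.reflection s) o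
    linarith
  have h4 : s - V.reflection s = (2 : ℝ) • (s - V.starProjection s) := by
    rw [Submodule.reflection_apply, two_smul, two_smul]
    abel
  rw [dist_eq_norm, h4, norm_smul] at h3
  have h5 : ‖s - V.starProjection s‖ ≤ 1 / 10 := by
    rw [Real.norm_eq_abs, abs_of_pos (by norm_num : (0:ℝ) < 2)] at h3
    linarith
  have h6 := Submodule.norm_sq_eq_add_norm_sq_starProjection s V
  have h7 : Vᗮ.starProjection s = s - V.starProjection s := by
    have := V.starProjection_add_starProjection_orthogonal s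
    rw [eq_sub_iff_add_eq, add_comm]; exact this
  rw [h7, hs] at h6
  have h8 : ‖s - V.starProjection s‖ ^ 2 ≤ (1 / 10) ^ 2 :=
    pow_le_pow_left₀ (norm_nonneg _) h5 2
  linarith

lemma fixX {d N : ℕ} (hd : 16 ≤ d) (hN : 8 * N ≤ d) (hp : IsProbabilityMeasure (Pm d))
    (hn : ∀ᵐ s ∂(Pm d), ‖s‖ = 1)
    (hrot : ∀ f : E d ≃ₗᵢ[ℝ] E d, (Pm d).map f = Pm d)
    {U : Type} [Fintype U] (G : (Fin N → E d) × (Fin N → ℝ) → U)
    (hG : MeasFin G) (out : U → E d) (X : Fin N → E d) :
    (Pm d).real {s | (s, X) ∈ A G out (1 / 10)} ≤ 3 / 5 := by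
  set V : Submodule ℝ (E d) := Submodule.span ℝ (range X) with hV
  set S : Set (E d) := {s | (s, X) ∈ A G out (1 / 10)} with hS
  have hSm : MeasurableSet S := by
    have hm : Measurable fun s : E d => (s, X) := measurable_id.prodMk measurable_const
    exact hm (A_meas G hG out (1 / 10))
  have hc : Measurable (V.reflection : E d → E d) := V.reflection.continuous.measurable
  have hS2 : (Pm d).real (V.reflection ⁻¹' S) = (Pm d).real S := by
    rw [measureReal_def, measureReal_def, ← Measure.map_apply hc hSm, hrot]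
  have hcap : (Pm d).real (S ∩ V.reflection ⁻¹' S) ≤
      (Pm d).real {s | 99 / 100 ≤ ‖V.starProjection s‖ ^ 2} := by
    refine ENNReal.toReal_mono (measure_ne_top _ _) (measure_mono_ae ?_)
    filter_upwards [hn] with s hs hmem
    obtain ⟨h1, h2⟩ := hmem
    have h1' : dist s (out (G (X, meas X s))) ≤ 1 / 10 := h1
    have h2' : dist (V.reflection s) (out (G (X, meas X (V.reflection s)))) ≤ 1 / 10 := h2
    rw [hV, rho_inv X s, ← hV] at h2'
    exact both V s _ hs h1' h2'
  have hmk : 99 / 100 * (Pm d).real {s | 99 / 100 ≤ ‖V.starProjection s‖ ^ 2} ≤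
      ∫ s, ‖V.starProjection s‖ ^ 2 ∂(Pm d) := by
    refine mul_meas_ge_le_integral_of_nonneg (Filter.Eventually.of_forall fun s => by positivity)
      ?_ _
    have hcont : Continuous fun s : E d => ‖V.starProjection s‖ ^ 2 := by fun_prop
    refine Integrable.mono' (integrable_const (1 : ℝ)) hcont.aestronglyMeasurable ?_
    filter_upwards [hn] with s hs
    rw [Real.norm_eq_abs, abs_of_nonneg (by positivity)]
    have := V.norm_starProjection_apply_le s
    rw [hs] at this
    exact pow_le_one₀ (norm_nonneg _) this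
  rw [proj_sq (by omega) hp hn hrot] at hmk
  have hfr : (Module.finrank ℝ V : ℝ) / d ≤ 1 / 8 := by
    have h1 : Module.finrank ℝ V ≤ N := by
      have := finrank_range_le_card (R := ℝ) X
      rw [Fintype.card_fin] at this
      exact this
    have h2 : (8 : ℝ) * N ≤ d := by exact_mod_cast hN
    have h3 : (Module.finrank ℝ V : ℝ) ≤ N := by exact_mod_cast h1
    have hd' : (0 : ℝ) < d := by
      have : 0 < d := by omega
      exact_mod_cast this
    rw [div_le_iff₀ hd']
    linarith
  have hun := measureReal_union_add_inter (μ := Pm d) (s := S) (hc hSm)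
  have hle1 : (Pm d).real (S ∪ V.reflection ⁻¹' S) ≤ 1 := measureReal_le_one
  rw [hS2] at hun
  linarith

end REFLaux

open REFLaux in
theorem refl : StPm → StKap → StRefl := by
  intro hPm _ d N U _ F out u0 hd hN hF
  obtain ⟨hp, hn, hrot⟩ := hPm d (by omega)
  have h1 : ∀ s, val F out (1 / 10) 1 u0 s =
      (rows d N).real {X | (s, X) ∈ A (F 0 u0) out (1 / 10)} := val_one F hF out _ u0
  simp only [h1]
  have hA := A_meas (F 0 u0) (hF 0 u0) out (1 / 10)
  have h2 : ∫ s, (rows d N).real {X | (s, X) ∈ A (F 0 u0) out (1 / 10)} ∂(Pm d) =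
      (((Pm d).prod (rows d N)) (A (F 0 u0) out (1 / 10))).toReal := by
    rw [Measure.prod_apply hA]
    rw [integral_eq_lintegral_of_nonneg_ae (Filter.Eventually.of_forall fun s => by positivity)]
    · congr 1
      refine lintegral_congr fun s => ?_
      rw [measureReal_def, ENNReal.ofReal_toReal (measure_ne_top _ _)]
      rfl
    · exact ((measurable_measure_prodMk_left hA).ennreal_toReal).aestronglyMeasurable
  rw [h2, Measure.prod_apply_symm hA]
  refine ENNReal.toReal_le_of_le_ofReal (by norm_num) ?_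
  calc ∫⁻ X, (Pm d) ((fun s => (s, X)) ⁻¹' A (F 0 u0) out (1 / 10)) ∂(rows d N)
      ≤ ∫⁻ _X, ENNReal.ofReal (3 / 5) ∂(rows d N) := by
        refine lintegral_mono fun X => ?_
        have := fixX hd hN hp hn hrot (F 0 u0) (hF 0 u0) out X
        rw [← ENNReal.ofReal_toReal (measure_ne_top (Pm d) _)]
        exact ENNReal.ofReal_le_ofReal this
    _ = ENNReal.ofReal (3 / 5) := by simp

end Crest.Agent.R322
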