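import Crest.Agent.R322.Defs

set_option autoImplicit false
set_option linter.unusedVariables false
set_option linter.unusedSectionVars false

open MeasureTheory ProbabilityTheory Set
open scoped ENNReal

namespace Crest.Agent.R322

namespace REPaux

lemma xlx_zero : xlx 0 = 0 := by simp [xlx]

lemma xlx_abs_le {x : ℝ} (h0 : 0 ≤ x) (h1 : x ≤ 1) : |xlx x| ≤ 1 := by
  rcases h0.eq_or_lt with h | h
  · rw [← h, xlx_zero]; simp
  · have := Real.abs_log_mul_self_lt x h h1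
    rw [xlx, mul_comm]; exact this.le

lemma measurable_xlx : Measurable xlx := measurable_id.mul Real.measurable_log

/-- `a log b - a log a ≤ b - a` -/
lemma key {a b : ℝ} (ha : 0 ≤ a) (hb : 0 ≤ b) (hab : a ≠ 0 → b ≠ 0) :
    a * Real.log b - a * Real.log a ≤ b - a := by
  rcases ha.eq_or_lt with h | h
  · rw [← h]; simpa using hb
  · have hb' : 0 < b := lt_of_le_of_ne hb (Ne.symm (hab h.ne'))
    have h1 := Real.log_le_sub_one_of_pos (div_pos hb' h)
    rw [Real.log_div hb'.ne' h.ne'] at h1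
    have h2 := mul_le_mul_of_nonneg_left h1 ha
    have h3 : a * (b / a - 1) = b - a := by field_simp
    linarith [h2, h3, mul_sub a (Real.log b) (Real.log a)]

section
variable {Z : Type} [MeasurableSpace Z] (Q : Measure Z) [IsProbabilityMeasure Q] (m : ℕ)

/-- the product measure on `m+1` copies -/
noncomputable abbrev QQ : Measure (Fin (m + 1) → Z) := Measure.pi fun _ => Q

lemma int_prod (f : Z → ℝ) : ∫ z, ∏ j, f (z j) ∂(QQ Q m) = (∫ z, f z ∂Q) ^ (m + 1) := by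
  rw [QQ, integral_fintype_prod_eq_pow, Fintype.card_fin]

lemma int_prod_mul (f g : Z → ℝ) (k : Fin (m + 1)) :
    ∫ z, (∏ j, f (z j)) * g (z k) ∂(QQ Q m) = (∫ z, f z ∂Q) ^ m * ∫ z, f z * g z ∂Q := by
  have h1 : ∀ z : Fin (m + 1) → Z, (∏ j, f (z j)) * g (z k) =
      ∏ j, (fun j (x : Z) => f x * (if j = k then g x else 1)) j (z j) := by
    intro z
    simp only
    rw [Finset.prod_mul_distrib, Finset.prod_ite_eq' Finset.univ k]
    simp
  rw [integral_congr_ae (Filter.Eventually.of_forall h1)]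
  rw [QQ, integral_fintype_prod_eq_prod (f := fun j (x : Z) => f x * (if j = k then g x else 1))]
  rw [← Finset.mul_prod_erase Finset.univ _ (Finset.mem_univ k)]
  have h2 : ∏ x ∈ Finset.univ.erase k, ∫ (x_1 : Z), f x_1 * (if x = k then g x_1 else 1) ∂Q =
      (∫ z, f z ∂Q) ^ m := by
    rw [Finset.prod_congr rfl (g := fun _ => ∫ z, f z ∂Q)]
    · rw [Finset.prod_const, Finset.card_erase_of_mem (Finset.mem_univ k)]
      simp
    · intro x hx
      simp [Finset.ne_of_mem_erase hx]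
  rw [h2, mul_comm]
  simp

lemma ae_coord {p : Z → Prop} (h : ∀ᵐ z ∂Q, p z) (k : Fin (m + 1)) :
    ∀ᵐ z ∂(QQ Q m), p (z k) :=
  (Measure.quasiMeasurePreserving_eval (μ := fun _ : Fin (m + 1) => Q) k).ae h

end

section
variable {Z : Type} [MeasurableSpace Z] (Q : Measure Z) [IsProbabilityMeasure Q]
  {Y U : Type} [Fintype Y] [Fintype U] (ρ : Y → Z → ℝ) (ψ : Y → U) (m : ℕ)

/-- the mass of `y` -/
noncomputable def q (y : Y) : ℝ := ∫ z, ρ y z ∂Q

/-- `w_y(z) = ∏ ρ_y(z_j) / q_y^m` -/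
noncomputable def w (y : Y) (z : Fin (m + 1) → Z) : ℝ := (∏ j, ρ y (z j)) / (q Q ρ y) ^ m

structure Hyp : Prop where
  meas : ∀ y, Measurable (ρ y)
  nn : ∀ y z, 0 ≤ ρ y z
  sum : ∀ z, ∑ y, ρ y z = 1

variable {Q ρ}

lemma Hyp.le1 (h : Hyp ρ) (y : Y) (z : Z) : ρ y z ≤ 1 := by
  rw [← h.sum z]
  exact Finset.single_le_sum (fun i _ => h.nn i z) (Finset.mem_univ y)

lemma Hyp.int (h : Hyp ρ) (y : Y) : Integrable (ρ y) Q :=
  Integrable.of_bound (h.meas y).aestronglyMeasurable 1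
    (Filter.Eventually.of_forall fun z => by
      rw [Real.norm_eq_abs, abs_of_nonneg (h.nn y z)]; exact h.le1 y z)

lemma Hyp.q_nn (h : Hyp ρ) (y : Y) : 0 ≤ q Q ρ y := integral_nonneg (h.nn y)

lemma Hyp.q_le1 (h : Hyp ρ) (y : Y) : q Q ρ y ≤ 1 := by
  have := integral_mono (h.int (Q := Q) y) (integrable_const (1:ℝ)) (h.le1 y)
  simpa [q] using this

lemma Hyp.q_sum (h : Hyp ρ) : ∑ y, q Q ρ y = 1 := by
  unfold q
  rw [← integral_finsetSum _ (fun y _ => h.int y)]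
  simp [h.sum]

lemma Hyp.w_nn (h : Hyp ρ) (y : Y) (z : Fin (m + 1) → Z) : 0 ≤ w Q ρ m y z :=
  div_nonneg (Finset.prod_nonneg fun j _ => h.nn y _) (pow_nonneg (h.q_nn y) m)

lemma Hyp.prod_le1 (h : Hyp ρ) (y : Y) (z : Fin (m + 1) → Z) : ∏ j, ρ y (z j) ≤ 1 :=
  Finset.prod_le_one (fun j _ => h.nn y _) (fun j _ => h.le1 y _)

lemma Hyp.w_le (h : Hyp ρ) (y : Y) (z : Fin (m + 1) → Z) : w Q ρ m y z ≤ ((q Q ρ y) ^ m)⁻¹ := by
  rw [w, div_eq_mul_inv]
  have h1 : 0 ≤ ((q Q ρ y) ^ m)⁻¹ := inv_nonneg.2 (pow_nonneg (h.q_nn y) m)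
  have := mul_le_mul_of_nonneg_right (h.prod_le1 m y z) h1
  simpa using this

lemma Hyp.w_meas (h : Hyp ρ) (y : Y) : Measurable (w Q ρ m y) := by
  unfold w
  exact (Finset.measurable_prod _ fun j _ => (h.meas y).comp (measurable_pi_apply j)).div_const _

lemma Hyp.int_w (h : Hyp ρ) (y : Y) : ∫ z, w Q ρ m y z ∂(QQ Q m) = q Q ρ y := by
  unfold w
  rw [integral_div, int_prod]
  change (q Q ρ y) ^ (m + 1) / (q Q ρ y) ^ m = q Q ρ y
  by_cases h0 : q Q ρ y = 0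
  · rw [h0]; simp
  · rw [pow_succ]; field_simp

lemma Hyp.w_int (h : Hyp ρ) (y : Y) : Integrable (w Q ρ m y) (QQ Q m) :=
  Integrable.of_bound (h.w_meas m y).aestronglyMeasurable ((q Q ρ y) ^ m)⁻¹
    (Filter.Eventually.of_forall fun z => by
      rw [Real.norm_eq_abs, abs_of_nonneg (h.w_nn m y z)]; exact h.w_le m y z)

/-- a.e. in `Z`: `q_y = 0 → ρ_y z = 0` -/
lemma Hyp.ae_zero (h : Hyp ρ) : ∀ᵐ z ∂Q, ∀ y, q Q ρ y = 0 → ρ y z = 0 := by
  rw [ae_all_iff]
  intro y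
  by_cases h0 : q Q ρ y = 0
  · have := (integral_eq_zero_iff_of_nonneg (h.nn y) (h.int (Q := Q) y)).1 h0
    filter_upwards [this] with z hz _
    exact hz
  · exact Filter.Eventually.of_forall fun z h1 => absurd h1 h0

lemma Hyp.ae_zero' (h : Hyp ρ) : ∀ᵐ z ∂(QQ Q m), ∀ j, ∀ y, q Q ρ y = 0 → ρ y (z j) = 0 := by
  rw [ae_all_iff]
  intro j
  exact ae_coord Q m h.ae_zero j

lemma Hyp.w_ne (h : Hyp ρ) {z : Fin (m + 1) → Z}
    (hz : ∀ j, ∀ y, q Q ρ y = 0 → ρ y (z j) = 0) {y : Y} (hw : w Q ρ m y z ≠ 0) :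
    0 < q Q ρ y ∧ ∀ j, 0 < ρ y (z j) := by
  have h1 : ∀ j, ρ y (z j) ≠ 0 := by
    intro j hj
    apply hw
    rw [w, Finset.prod_eq_zero (Finset.mem_univ j) hj, zero_div]
  refine ⟨lt_of_le_of_ne (h.q_nn y) fun h0 => ?_, fun j => lt_of_le_of_ne (h.nn y _) (h1 j).symm⟩
  exact h1 0 (hz 0 y h0.symm)

variable (Q ρ)

/-- total density -/
noncomputable def R (z : Fin (m + 1) → Z) : ℝ := ∑ y, w Q ρ m y z

open Classical in
noncomputable def Rv (v : U) (z : Fin (m + 1) → Z) : ℝ := ∑ y with ψ y = v, w Q ρ m y z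

open Classical in
noncomputable def pv (v : U) (z : Z) : ℝ := ∑ y with ψ y = v, ρ y z

noncomputable def qv (v : U) : ℝ := ∫ z, pv ρ ψ v z ∂Q

variable {Q ρ}

lemma Hyp.R_nn (h : Hyp ρ) (z : Fin (m + 1) → Z) : 0 ≤ R Q ρ m z :=
  Finset.sum_nonneg fun y _ => h.w_nn m y z

lemma Hyp.Rv_nn (h : Hyp ρ) (v : U) (z : Fin (m + 1) → Z) : 0 ≤ Rv Q ρ ψ m v z :=
  Finset.sum_nonneg fun y _ => h.w_nn m y z

lemma Hyp.Rv_le (h : Hyp ρ) (v : U) (z : Fin (m + 1) → Z) : Rv Q ρ ψ m v z ≤ R Q ρ m z := by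
  classical
  exact Finset.sum_le_sum_of_subset_of_nonneg (Finset.filter_subset _ _) fun y _ _ => h.w_nn m y z

lemma Hyp.sum_Rv (z : Fin (m + 1) → Z) : ∑ v, Rv Q ρ ψ m v z = R Q ρ m z := by
  classical
  unfold Rv R
  exact Finset.sum_fiberwise Finset.univ ψ _

/-- bound for the total density -/
noncomputable def KK (Q : Measure Z) (ρ : Y → Z → ℝ) (m : ℕ) : ℝ := ∑ y, ((q Q ρ y) ^ m)⁻¹

lemma Hyp.R_le (h : Hyp ρ) (z : Fin (m + 1) → Z) : R Q ρ m z ≤ KK Q ρ m :=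
  Finset.sum_le_sum fun y _ => h.w_le m y z

lemma Hyp.R_meas (h : Hyp ρ) : Measurable (R Q ρ m) :=
  Finset.measurable_sum _ fun y _ => h.w_meas m y

lemma Hyp.Rv_meas (h : Hyp ρ) (v : U) : Measurable (Rv Q ρ ψ m v) :=
  Finset.measurable_sum _ fun y _ => h.w_meas m y

lemma Hyp.pv_meas (h : Hyp ρ) (v : U) : Measurable (pv ρ ψ v) :=
  Finset.measurable_sum _ fun y _ => h.meas y

lemma Hyp.pv_nn (h : Hyp ρ) (v : U) (z : Z) : 0 ≤ pv ρ ψ v z :=
  Finset.sum_nonneg fun y _ => h.nn y z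

lemma Hyp.pv_le1 (h : Hyp ρ) (v : U) (z : Z) : pv ρ ψ v z ≤ 1 := by
  classical
  rw [← h.sum z]
  exact Finset.sum_le_sum_of_subset_of_nonneg (Finset.filter_subset _ _) fun y _ _ => h.nn y z

lemma Hyp.rho_le_pv (h : Hyp ρ) (y : Y) (z : Z) : ρ y z ≤ pv ρ ψ (ψ y) z :=
  Finset.single_le_sum (f := fun y => ρ y z) (fun i _ => h.nn i z) (by simp)

lemma Hyp.pv_int (h : Hyp ρ) (v : U) : Integrable (pv ρ ψ v) Q :=
  integrable_finsetSum _ fun y _ => h.int y

open Classical in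
lemma Hyp.qv_eq (h : Hyp ρ) (v : U) : qv Q ρ ψ v = ∑ y with ψ y = v, q Q ρ y := by
  unfold qv pv q
  rw [integral_finsetSum _ fun y _ => h.int y]

lemma Hyp.qv_nn (h : Hyp ρ) (v : U) : 0 ≤ qv Q ρ ψ v := integral_nonneg (h.pv_nn ψ v)

lemma Hyp.sum_qv (h : Hyp ρ) : ∑ v, qv Q ρ ψ v = 1 := by
  classical
  simp_rw [h.qv_eq ψ]
  rw [Finset.sum_fiberwise Finset.univ ψ (fun y => q Q ρ y), h.q_sum]

lemma Hyp.R_int (h : Hyp ρ) : Integrable (R Q ρ m) (QQ Q m) :=
  integrable_finsetSum _ fun y _ => h.w_int m y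

lemma Hyp.Rv_int (h : Hyp ρ) (v : U) : Integrable (Rv Q ρ ψ m v) (QQ Q m) :=
  integrable_finsetSum _ fun y _ => h.w_int m y

lemma Hyp.int_R (h : Hyp ρ) : ∫ z, R Q ρ m z ∂(QQ Q m) = 1 := by
  unfold R
  rw [integral_finsetSum _ fun y _ => h.w_int m y]
  simp_rw [h.int_w m]
  exact h.q_sum

lemma Hyp.int_Rv (h : Hyp ρ) (v : U) : ∫ z, Rv Q ρ ψ m v z ∂(QQ Q m) = qv Q ρ ψ v := by
  classical
  unfold Rv
  rw [integral_finsetSum _ fun y _ => h.w_int m y]
  simp_rw [h.int_w m]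
  exact (h.qv_eq ψ v).symm

/-- `x log x` of a bounded nonnegative measurable function is integrable -/
lemma xlx_integrable {α : Type} [MeasurableSpace α] (μ : Measure α) [IsFiniteMeasure μ]
    {f : α → ℝ} (hf : Measurable f) {K : ℝ} (h0 : ∀ x, 0 ≤ f x) (hK : ∀ x, f x ≤ K) :
    Integrable (fun x => xlx (f x)) μ := by
  refine Integrable.of_bound (measurable_xlx.comp hf).aestronglyMeasurable
    (1 + |K| * |Real.log K|) (Filter.Eventually.of_forall fun x => ?_)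
  rw [Real.norm_eq_abs]
  rcases le_or_gt (f x) 1 with h1 | h1
  · have := xlx_abs_le (h0 x) h1
    have h2 : 0 ≤ |K| * |Real.log K| := by positivity
    linarith
  · have hlog : 0 ≤ Real.log (f x) := Real.log_nonneg h1.le
    rw [xlx, abs_mul, abs_of_nonneg (h0 x), abs_of_nonneg hlog]
    have h3 : f x ≤ |K| := (hK x).trans (le_abs_self K)
    have h4 : Real.log (f x) ≤ |Real.log K| :=
      (Real.log_le_log (by linarith) (hK x)).trans (le_abs_self _)
    have := mul_le_mul h3 h4 hlog (abs_nonneg K)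
    linarith

end

section
variable {Z : Type} [MeasurableSpace Z] {Q : Measure Z} [IsProbabilityMeasure Q]
  {Y U : Type} [Fintype Y] [Fintype U] {ρ : Y → Z → ℝ} (ψ : Y → U) (m : ℕ)

/-- log of `M_v` -/
lemma Hyp.pointA (h : Hyp ρ) (v : U) (z : Fin (m + 1) → Z)
    (hz : ∀ j, ∀ y, q Q ρ y = 0 → ρ y (z j) = 0) :
    ∑ j, Rv Q ρ ψ m v z * Real.log (pv ρ ψ v (z j)) -
      m * (Rv Q ρ ψ m v z * Real.log (qv Q ρ ψ v)) - xlx (Rv Q ρ ψ m v z) ≤
      (∏ j, pv ρ ψ v (z j)) / (qv Q ρ ψ v) ^ m - Rv Q ρ ψ m v z := by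
  classical
  have hM : 0 ≤ (∏ j, pv ρ ψ v (z j)) / (qv Q ρ ψ v) ^ m :=
    div_nonneg (Finset.prod_nonneg fun j _ => h.pv_nn ψ v _) (pow_nonneg (h.qv_nn ψ v) m)
  rcases (h.Rv_nn (Q := Q) ψ m v z).eq_or_lt with h0 | h0
  · rw [← h0]; simpa [xlx_zero] using hM
  · have hex : ∃ y, ψ y = v ∧ w Q ρ m y z ≠ 0 := by
      by_contra hcon
      push Not at hcon
      have : Rv Q ρ ψ m v z = 0 := Finset.sum_eq_zero fun y hy => hcon y (by simpa using hy)
      exact h0.ne' this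
    obtain ⟨y, rfl, hy⟩ := hex
    obtain ⟨hq, hr⟩ := h.w_ne m hz hy
    have hqv : 0 < qv Q ρ ψ (ψ y) := by
      rw [h.qv_eq (Q := Q) ψ]
      exact lt_of_lt_of_le hq
        (Finset.single_le_sum (f := fun y => q Q ρ y) (fun i _ => h.q_nn i) (by simp))
    have hpv : ∀ j, 0 < pv ρ ψ (ψ y) (z j) := fun j => lt_of_lt_of_le (hr j) (h.rho_le_pv ψ y _)
    have hlog : Real.log ((∏ j, pv ρ ψ (ψ y) (z j)) / (qv Q ρ ψ (ψ y)) ^ m) =
        ∑ j, Real.log (pv ρ ψ (ψ y) (z j)) - m * Real.log (qv Q ρ ψ (ψ y)) := by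
      rw [Real.log_div (Finset.prod_ne_zero_iff.2 fun j _ => (hpv j).ne') (pow_ne_zero _ hqv.ne'),
        Real.log_prod (fun j _ => (hpv j).ne'), Real.log_pow]
    have hk := key h0.le hM (fun _ =>
      (div_pos (Finset.prod_pos fun j _ => hpv j) (pow_pos hqv m)).ne')
    rw [hlog] at hk
    rw [← Finset.mul_sum, xlx]
    calc _ = _ := by ring
      _ ≤ _ := hk

lemma Hyp.rholog_le (h : Hyp ρ) (y : Y) (z : Z) : |ρ y z * Real.log (pv ρ ψ (ψ y) z)| ≤ 1 := by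
  rw [abs_mul, abs_of_nonneg (h.nn y z)]
  have h1 := mul_le_mul_of_nonneg_right (h.rho_le_pv ψ y z) (abs_nonneg (Real.log (pv ρ ψ (ψ y) z)))
  have h2 := xlx_abs_le (h.pv_nn ψ (ψ y) z) (h.pv_le1 ψ (ψ y) z)
  rw [xlx, abs_mul, abs_of_nonneg (h.pv_nn ψ (ψ y) z)] at h2
  exact h1.trans h2

lemma Hyp.rholog_int (h : Hyp ρ) (y : Y) :
    Integrable (fun z => ρ y z * Real.log (pv ρ ψ (ψ y) z)) Q :=
  Integrable.of_bound ((h.meas y).mul (Real.measurable_log.comp (h.pv_meas ψ (ψ y)))).aestronglyMeasurable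
    1 (Filter.Eventually.of_forall fun z => h.rholog_le ψ y z)

lemma Hyp.wlog_int (h : Hyp ρ) (y : Y) (j : Fin (m + 1)) :
    Integrable (fun z => w Q ρ m y z * Real.log (pv ρ ψ (ψ y) (z j))) (QQ Q m) := by
  have hq : 0 ≤ ((q Q ρ y) ^ m)⁻¹ := inv_nonneg.2 (pow_nonneg (h.q_nn y) m)
  refine Integrable.of_bound ((h.w_meas m y).mul (Real.measurable_log.comp
    ((h.pv_meas ψ (ψ y)).comp (measurable_pi_apply j)))).aestronglyMeasurable
    ((q Q ρ y) ^ m)⁻¹ (Filter.Eventually.of_forall fun z => ?_)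
  rw [Real.norm_eq_abs, w, div_mul_eq_mul_div, div_eq_mul_inv, abs_mul, abs_of_nonneg hq]
  have h1 : |(∏ i, ρ y (z i)) * Real.log (pv ρ ψ (ψ y) (z j))| ≤ 1 := by
    rw [abs_mul, abs_of_nonneg (Finset.prod_nonneg fun i _ => h.nn y _)]
    have h2 : ∏ i, ρ y (z i) ≤ ρ y (z j) := by
      rw [← Finset.mul_prod_erase Finset.univ _ (Finset.mem_univ j)]
      have h3 : ∏ x ∈ Finset.univ.erase j, ρ y (z x) ≤ 1 :=
        Finset.prod_le_one (fun i _ => h.nn y _) (fun i _ => h.le1 y _)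
      have := mul_le_mul_of_nonneg_left h3 (h.nn y (z j))
      simpa using this
    have h4 := h.rholog_le ψ y (z j)
    rw [abs_mul, abs_of_nonneg (h.nn y (z j))] at h4
    exact (mul_le_mul_of_nonneg_right h2 (abs_nonneg _)).trans h4
  have := mul_le_mul_of_nonneg_right h1 hq
  simpa using this

lemma Hyp.int_wlog (h : Hyp ρ) (y : Y) (j : Fin (m + 1)) :
    ∫ z, w Q ρ m y z * Real.log (pv ρ ψ (ψ y) (z j)) ∂(QQ Q m) =
      ∫ z, ρ y z * Real.log (pv ρ ψ (ψ y) z) ∂Q := by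
  have h1 : ∀ z : Fin (m + 1) → Z, w Q ρ m y z * Real.log (pv ρ ψ (ψ y) (z j)) =
      ((∏ i, ρ y (z i)) * Real.log (pv ρ ψ (ψ y) (z j))) / (q Q ρ y) ^ m := by
    intro z; rw [w]; ring
  simp_rw [h1]
  rw [integral_div, int_prod_mul Q m (ρ y) (fun z => Real.log (pv ρ ψ (ψ y) z)) j]
  change (q Q ρ y) ^ m * _ / (q Q ρ y) ^ m = _
  by_cases h0 : q Q ρ y = 0
  · have h2 : ∫ z, ρ y z * Real.log (pv ρ ψ (ψ y) z) ∂Q = 0 := by
      apply integral_eq_zero_of_ae
      filter_upwards [h.ae_zero (Q := Q)] with z hz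
      rw [hz y h0]; simp
    rw [h2]; simp
  · field_simp

lemma Hyp.sum_rholog (h : Hyp ρ) (v : U) :
    Integrable (fun z => xlx (pv ρ ψ v z)) Q :=
  xlx_integrable Q (h.pv_meas ψ v) (h.pv_nn ψ v) (h.pv_le1 ψ v)

lemma Hyp.Rvlog_int (h : Hyp ρ) (v : U) (j : Fin (m + 1)) :
    Integrable (fun z => Rv Q ρ ψ m v z * Real.log (pv ρ ψ v (z j))) (QQ Q m) := by
  classical
  have h1 : (fun z => Rv Q ρ ψ m v z * Real.log (pv ρ ψ v (z j))) =
      fun z => ∑ y with ψ y = v, w Q ρ m y z * Real.log (pv ρ ψ (ψ y) (z j)) := by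
    funext z
    unfold Rv
    rw [Finset.sum_mul]
    refine Finset.sum_congr (by congr) fun y hy => ?_
    rw [(Finset.mem_filter.1 hy).2]
  rw [h1]
  exact integrable_finsetSum _ fun y _ => h.wlog_int ψ m y j

lemma Hyp.int_Rvlog (h : Hyp ρ) (v : U) (j : Fin (m + 1)) :
    ∫ z, Rv Q ρ ψ m v z * Real.log (pv ρ ψ v (z j)) ∂(QQ Q m) = ∫ z, xlx (pv ρ ψ v z) ∂Q := by
  classical
  have h1 : (fun z => Rv Q ρ ψ m v z * Real.log (pv ρ ψ v (z j))) =
      fun z => ∑ y with ψ y = v, w Q ρ m y z * Real.log (pv ρ ψ (ψ y) (z j)) := by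
    funext z
    unfold Rv
    rw [Finset.sum_mul]
    refine Finset.sum_congr (by congr) fun y hy => ?_
    rw [(Finset.mem_filter.1 hy).2]
  have h2 : (fun z => xlx (pv ρ ψ v z)) =
      fun z => ∑ y with ψ y = v, ρ y z * Real.log (pv ρ ψ (ψ y) z) := by
    funext z
    unfold xlx
    conv_lhs => rw [pv]
    rw [Finset.sum_mul]
    refine Finset.sum_congr (by congr) fun y hy => ?_
    rw [(Finset.mem_filter.1 hy).2]
    congr
  rw [h1, h2, integral_finsetSum _ fun y _ => h.wlog_int ψ m y j,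
    integral_finsetSum _ fun y _ => h.rholog_int ψ y]
  exact Finset.sum_congr rfl fun y _ => h.int_wlog ψ m y j

lemma Hyp.int_M (h : Hyp ρ) (v : U) :
    ∫ z, (∏ j, pv ρ ψ v (z j)) / (qv Q ρ ψ v) ^ m ∂(QQ Q m) = qv Q ρ ψ v := by
  rw [integral_div, int_prod]
  change (qv Q ρ ψ v) ^ (m + 1) / (qv Q ρ ψ v) ^ m = qv Q ρ ψ v
  by_cases h0 : qv Q ρ ψ v = 0
  · rw [h0]; simp
  · rw [pow_succ]; field_simp

lemma Hyp.M_int (h : Hyp ρ) (v : U) :
    Integrable (fun z => (∏ j, pv ρ ψ v (z j)) / (qv Q ρ ψ v) ^ m) (QQ Q m) := by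
  refine Integrable.div_const ?_ _
  refine Integrable.of_bound (Finset.measurable_prod _ fun j _ =>
    (h.pv_meas ψ v).comp (measurable_pi_apply j)).aestronglyMeasurable 1
    (Filter.Eventually.of_forall fun z => ?_)
  rw [Real.norm_eq_abs, abs_of_nonneg (Finset.prod_nonneg fun j _ => h.pv_nn ψ v _)]
  exact Finset.prod_le_one (fun j _ => h.pv_nn ψ v _) (fun j _ => h.pv_le1 ψ v _)

lemma Hyp.xlxRv_int (h : Hyp ρ) (v : U) :
    Integrable (fun z => xlx (Rv Q ρ ψ m v z)) (QQ Q m) :=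
  xlx_integrable _ (h.Rv_meas ψ m v) (h.Rv_nn ψ m v)
    (fun z => (h.Rv_le ψ m v z).trans (h.R_le m z))

lemma Hyp.xlxR_int (h : Hyp ρ) :
    Integrable (fun z => xlx (R Q ρ m z)) (QQ Q m) :=
  xlx_integrable _ (h.R_meas m) (h.R_nn m) (fun z => h.R_le m z)

lemma Hyp.stepA (h : Hyp ρ) (v : U) :
    ((m:ℝ) + 1) * ∫ z, xlx (pv ρ ψ v z) ∂Q - m * xlx (qv Q ρ ψ v) ≤
      ∫ z, xlx (Rv Q ρ ψ m v z) ∂(QQ Q m) := by
  have hI1 : Integrable (fun z => ∑ j, Rv Q ρ ψ m v z * Real.log (pv ρ ψ v (z j))) (QQ Q m) :=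
    integrable_finsetSum _ fun j _ => h.Rvlog_int ψ m v j
  have hI2 : Integrable (fun z => (m:ℝ) * (Rv Q ρ ψ m v z * Real.log (qv Q ρ ψ v))) (QQ Q m) :=
    ((h.Rv_int ψ m v).mul_const _).const_mul _
  have hI3 := h.xlxRv_int (Q := Q) ψ m v
  have hI4 := h.M_int (Q := Q) ψ m v
  have hI5 := h.Rv_int (Q := Q) ψ m v
  have hae := integral_mono_ae ((hI1.sub hI2).sub hI3) (hI4.sub hI5)
    (by filter_upwards [h.ae_zero' (Q := Q) m] with z hz using h.pointA ψ m v z hz)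
  rw [integral_sub' (hI1.sub hI2) hI3, integral_sub' hI1 hI2, integral_sub' hI4 hI5, h.int_M,
    h.int_Rv, sub_self, integral_finsetSum _ fun j _ => h.Rvlog_int ψ m v j,
    integral_const_mul, integral_mul_const, h.int_Rv] at hae
  simp_rw [h.int_Rvlog ψ m v] at hae
  rw [Finset.sum_const, Finset.card_univ, Fintype.card_fin, nsmul_eq_mul] at hae
  push_cast at hae
  have e : xlx (qv Q ρ ψ v) = qv Q ρ ψ v * Real.log (qv Q ρ ψ v) := rfl
  rw [e]
  linarith

/-- entropy bound -/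
lemma entropy_le {U : Type} [Fintype U] [Nonempty U] (p : U → ℝ) (h0 : ∀ v, 0 ≤ p v)
    (h1 : ∑ v, p v = 1) : - ∑ v, xlx (p v) ≤ Real.log (Fintype.card U) := by
  have hc : (0:ℝ) < Fintype.card U := by exact_mod_cast Fintype.card_pos
  have h2 : ∀ v, p v * Real.log ((Fintype.card U : ℝ)⁻¹) - p v * Real.log (p v) ≤
      (Fintype.card U : ℝ)⁻¹ - p v := fun v =>
    key (h0 v) (inv_nonneg.2 hc.le) (fun _ => (inv_pos.2 hc).ne')
  have h3 := Finset.sum_le_sum fun v (_ : v ∈ Finset.univ) => h2 v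
  rw [Finset.sum_sub_distrib, Finset.sum_sub_distrib, ← Finset.sum_mul, h1, Finset.sum_const,
    Finset.card_univ, nsmul_eq_mul, mul_inv_cancel₀ hc.ne', Real.log_inv] at h3
  have e : ∑ v, xlx (p v) = ∑ v, p v * Real.log (p v) := rfl
  rw [e]
  linarith

lemma xlx_mono_log {a b : ℝ} (ha : 0 ≤ a) (hab : a ≤ b) : xlx a ≤ a * Real.log b := by
  rcases ha.eq_or_lt with h | h
  · rw [← h, xlx_zero]; simp
  · exact mul_le_mul_of_nonneg_left (Real.log_le_log h hab) ha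

open Classical in
lemma Hyp.MI_eq (h : Hyp ρ) : MI Q (fun z v => ∑ y with ψ y = v, ρ y z) =
    ∑ v, ((∫ z, xlx (pv ρ ψ v z) ∂Q) - xlx (qv Q ρ ψ v)) := rfl

open Classical in
/-- Step 1 -/
lemma Hyp.step1 [Nonempty U] (h : Hyp ρ) :
    ((m:ℝ) + 1) * MI Q (fun z v => ∑ y with ψ y = v, ρ y z) ≤
      Real.log (Fintype.card U) + ∫ z, xlx (R Q ρ m z) ∂(QQ Q m) := by
  rw [h.MI_eq ψ]
  have h1 : ∑ v, (((m:ℝ) + 1) * ∫ z, xlx (pv ρ ψ v z) ∂Q - m * xlx (qv Q ρ ψ v)) ≤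
      ∑ v, ∫ z, xlx (Rv Q ρ ψ m v z) ∂(QQ Q m) :=
    Finset.sum_le_sum fun v _ => h.stepA ψ m v
  have h2 : ∑ v, ∫ z, xlx (Rv Q ρ ψ m v z) ∂(QQ Q m) ≤ ∫ z, xlx (R Q ρ m z) ∂(QQ Q m) := by
    rw [← integral_finsetSum _ fun v _ => h.xlxRv_int ψ m v]
    refine integral_mono (integrable_finsetSum _ fun v _ => h.xlxRv_int ψ m v) (h.xlxR_int m)
      fun z => ?_
    calc ∑ v, xlx (Rv Q ρ ψ m v z) ≤ ∑ v, Rv Q ρ ψ m v z * Real.log (R Q ρ m z) :=
          Finset.sum_le_sum fun v _ => xlx_mono_log (h.Rv_nn ψ m v z) (h.Rv_le ψ m v z)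
      _ = xlx (R Q ρ m z) := by
          rw [← Finset.sum_mul, Hyp.sum_Rv, xlx]
  have h3 := entropy_le (fun v => qv Q ρ ψ v) (h.qv_nn ψ) (h.sum_qv ψ)
  rw [Finset.sum_sub_distrib, ← Finset.mul_sum, ← Finset.mul_sum] at h1
  rw [Finset.sum_sub_distrib]
  linarith

end

section
variable {Z : Type} [MeasurableSpace Z] {Q : Measure Z} [IsProbabilityMeasure Q]
  {Y : Type} [Fintype Y] {ρ : Y → Z → ℝ} (m : ℕ)

/-- Step 2, pointwise -/
lemma Hyp.point2 (h : Hyp ρ) (lam : Y → ℝ) (hl : ∀ y, 0 ≤ lam y)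
    (hlz : ∀ y z, lam y = 0 → ρ y z = 0) (z : Fin (m + 1) → Z)
    (hz : ∀ j, ∀ y, q Q ρ y = 0 → ρ y (z j) = 0) {B : ℝ}
    (hB : ∑ y, (∏ j, ρ y (z j)) / (lam y) ^ m ≤ B) :
    xlx (R Q ρ m z) ≤ R Q ρ m z * Real.log B +
      m * ∑ y, w Q ρ m y z * Real.log (lam y / q Q ρ y) := by
  have hb : ∀ y, 0 ≤ (∏ j, ρ y (z j)) / (lam y) ^ m := fun y =>
    div_nonneg (Finset.prod_nonneg fun j _ => h.nn y _) (pow_nonneg (hl y) m)
  rcases (h.R_nn (Q := Q) m z).eq_or_lt with h0 | h0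
  · have hw : ∀ y, w Q ρ m y z = 0 := by
      intro y
      exact (Finset.sum_eq_zero_iff_of_nonneg fun y _ => h.w_nn m y z).1 h0.symm y (Finset.mem_univ y)
    rw [← h0, xlx_zero]
    simp [hw]
  · set G := ∑ y, (∏ j, ρ y (z j)) / (lam y) ^ m with hG
    have hpt : ∀ y, w Q ρ m y z ≠ 0 → 0 < q Q ρ y ∧ (∀ j, 0 < ρ y (z j)) ∧ 0 < lam y := by
      intro y hy
      obtain ⟨h1, h2⟩ := h.w_ne m hz hy
      refine ⟨h1, h2, lt_of_le_of_ne (hl y) fun h3 => ?_⟩
      exact (h2 0).ne' (hlz y _ h3.symm)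
    have hGpos : 0 < G := by
      have hex : ∃ y, w Q ρ m y z ≠ 0 := by
        by_contra hcon
        push Not at hcon
        exact h0.ne' (Finset.sum_eq_zero fun y _ => hcon y)
      obtain ⟨y, hy⟩ := hex
      obtain ⟨_, h2, h3⟩ := hpt y hy
      exact lt_of_lt_of_le (div_pos (Finset.prod_pos fun j _ => h2 j) (pow_pos h3 m))
        (Finset.single_le_sum (f := fun y => (∏ j, ρ y (z j)) / (lam y) ^ m)
          (fun i _ => hb i) (Finset.mem_univ y))
    have hterm : ∀ y, w Q ρ m y z * (Real.log (R Q ρ m z) - Real.log G -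
        m * Real.log (lam y / q Q ρ y)) ≤ R Q ρ m z * ((∏ j, ρ y (z j)) / (lam y) ^ m) / G -
          w Q ρ m y z := by
      intro y
      by_cases hy : w Q ρ m y z = 0
      · rw [hy, zero_mul, sub_zero]
        exact div_nonneg (mul_nonneg h0.le (hb y)) hGpos.le
      · obtain ⟨h1, h2, h3⟩ := hpt y hy
        have hP : 0 < ∏ j, ρ y (z j) := Finset.prod_pos fun j _ => h2 j
        have hwpos : 0 < w Q ρ m y z := lt_of_le_of_ne (h.w_nn m y z) (Ne.symm hy)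
        have hbpos : 0 < (∏ j, ρ y (z j)) / (lam y) ^ m := div_pos hP (pow_pos h3 m)
        have hk := key hwpos.le (div_nonneg (mul_nonneg h0.le (hb y)) hGpos.le)
          (fun _ => (div_pos (mul_pos h0 hbpos) hGpos).ne')
        rw [Real.log_div (mul_pos h0 hbpos).ne' hGpos.ne', Real.log_mul h0.ne' hbpos.ne',
          Real.log_div hP.ne' (pow_ne_zero m h3.ne'), Real.log_pow] at hk
        have hlw : Real.log (w Q ρ m y z) = Real.log (∏ j, ρ y (z j)) - m * Real.log (q Q ρ y) := by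
          rw [w, Real.log_div hP.ne' (pow_ne_zero m h1.ne'), Real.log_pow]
        rw [Real.log_div h3.ne' h1.ne']
        rw [hlw] at hk
        calc _ = _ := by ring
          _ ≤ _ := hk
    have hsum := Finset.sum_le_sum fun y (_ : y ∈ Finset.univ) => hterm y
    have e1 : ∑ y, w Q ρ m y z * (Real.log (R Q ρ m z) - Real.log G -
        m * Real.log (lam y / q Q ρ y)) = xlx (R Q ρ m z) - R Q ρ m z * Real.log G -
          m * ∑ y, w Q ρ m y z * Real.log (lam y / q Q ρ y) := by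
      have : ∀ y, w Q ρ m y z * (Real.log (R Q ρ m z) - Real.log G -
        m * Real.log (lam y / q Q ρ y)) = w Q ρ m y z * Real.log (R Q ρ m z) -
          w Q ρ m y z * Real.log G - m * (w Q ρ m y z * Real.log (lam y / q Q ρ y)) := by
        intro y; ring
      simp_rw [this]
      rw [Finset.sum_sub_distrib, Finset.sum_sub_distrib, ← Finset.sum_mul, ← Finset.sum_mul,
        ← Finset.mul_sum]
      rfl
    have e2 : ∑ y, (R Q ρ m z * ((∏ j, ρ y (z j)) / (lam y) ^ m) / G - w Q ρ m y z) = 0 := by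
      rw [Finset.sum_sub_distrib, ← Finset.sum_div, ← Finset.mul_sum, ← hG,
        mul_div_assoc, div_self hGpos.ne', mul_one]
      exact sub_self _
    rw [e1, e2] at hsum
    have hlogG : Real.log G ≤ Real.log B := Real.log_le_log hGpos hB
    have := mul_le_mul_of_nonneg_left hlogG h0.le
    linarith

end

end REPaux

open REPaux in
theorem rep : StRep := by
  classical
  intro Z _ Q _ Y U _ _ _ ρ lam ψ m N t Λ H0 D Gs hmeas hnn hsum hl hlz hGm hG1 hD ht hNt hae hint hH0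
  have h : Hyp ρ := ⟨hmeas, hnn, hsum⟩
  have hGpos : ∀ z, 0 < Gs z := fun z => lt_of_lt_of_le one_pos (hG1 z)
  have hlogG : ∀ z, 0 ≤ Real.log (Gs z) := fun z => Real.log_nonneg (hG1 z)
  have hGtm : Measurable fun z => Gs z ^ t := hGm.pow_const t
  have hGt0 : ∀ z, 0 ≤ Gs z ^ t := fun z => Real.rpow_nonneg (hGpos z).le t
  have hGtint : Integrable (fun z => Gs z ^ t) (QQ Q m) := by
    refine ⟨hGtm.aestronglyMeasurable, ?_⟩
    rw [hasFiniteIntegral_iff_ofReal (Filter.Eventually.of_forall hGt0)]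
    exact lt_of_le_of_lt hint ENNReal.ofReal_lt_top
  have hlogint : Integrable (fun z => R Q ρ m z * Real.log (Gs z)) (QQ Q m) := by
    refine Integrable.mono' ((hGtint.div_const t).const_mul (KK Q ρ m))
      ((h.R_meas m).mul (Real.measurable_log.comp hGm)).aestronglyMeasurable
      (Filter.Eventually.of_forall fun z => ?_)
    rw [Real.norm_eq_abs, abs_of_nonneg (mul_nonneg (h.R_nn m z) (hlogG z))]
    exact mul_le_mul (h.R_le m z) (Real.log_le_rpow_div (hGpos z).le ht) (hlogG z)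
      ((h.R_nn m z).trans (h.R_le m z))
  have hXint := h.xlxR_int (Q := Q) m
  have hRint := h.R_int (Q := Q) m
  set X := ∫ z, xlx (R Q ρ m z) ∂(QQ Q m) with hX
  set I := ∫ z, R Q ρ m z * Real.log (Gs z) ∂(QQ Q m) with hI
  have hs1 := h.step1 (Q := Q) ψ m
  -- step 2
  have hs2 : X ≤ Real.log D + N * I + m * H0 := by
    have hwint : Integrable (fun z => (m:ℝ) * ∑ y, w Q ρ m y z * Real.log (lam y / q Q ρ y))
        (QQ Q m) :=
      (integrable_finsetSum _ fun y _ => (h.w_int m y).mul_const _).const_mul _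
    have hR1 : Integrable (fun z => R Q ρ m z * Real.log D) (QQ Q m) := hRint.mul_const _
    have hR2 : Integrable (fun z => (N:ℝ) * (R Q ρ m z * Real.log (Gs z))) (QQ Q m) :=
      hlogint.const_mul _
    have hmono := integral_mono_ae hXint ((hR1.add hR2).add hwint) (by
      filter_upwards [h.ae_zero' (Q := Q) m, hae] with z hz hz2
      have hp := h.point2 m lam hl hlz z hz hz2
      have hlog : Real.log (D * Gs z ^ N) = Real.log D + N * Real.log (Gs z) := by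
        rw [Real.log_mul (by linarith) (pow_ne_zero _ (hGpos z).ne'), Real.log_pow]
      rw [hlog] at hp
      simp only [Pi.add_apply]
      calc xlx (R Q ρ m z) ≤ _ := hp
        _ = _ := by ring)
    rw [integral_add' (hR1.add hR2) hwint, integral_add' hR1 hR2, integral_mul_const,
      integral_const_mul, integral_const_mul, h.int_R, one_mul,
      integral_finsetSum _ fun y _ => (h.w_int m y).mul_const _] at hmono
    have e : ∑ y, ∫ z, w Q ρ m y z * Real.log (lam y / q Q ρ y) ∂(QQ Q m) =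
        ∑ y, q Q ρ y * Real.log (lam y / q Q ρ y) :=
      Finset.sum_congr rfl fun y _ => by rw [integral_mul_const, h.int_w]
    rw [e] at hmono
    have hH : (m:ℝ) * ∑ y, q Q ρ y * Real.log (lam y / q Q ρ y) ≤ m * H0 :=
      mul_le_mul_of_nonneg_left hH0 (Nat.cast_nonneg m)
    linarith
  -- step 3
  have hs3 : t * I ≤ X + Λ := by
    set c := ∫ z, Gs z ^ t ∂(QQ Q m) with hc
    have hc1 : 1 ≤ c := by
      have := integral_mono (integrable_const (1:ℝ)) hGtint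
        (fun z => Real.one_le_rpow (hG1 z) ht.le)
      simpa using this
    have hcpos : 0 < c := lt_of_lt_of_le one_pos hc1
    have hcle : c ≤ Real.exp Λ := by
      rw [hc, integral_eq_lintegral_of_nonneg_ae (Filter.Eventually.of_forall hGt0)
        hGtm.aestronglyMeasurable]
      exact ENNReal.toReal_le_of_le_ofReal (Real.exp_pos _).le hint
    have hlogc : Real.log c ≤ Λ := by
      rw [← Real.log_exp Λ]; exact Real.log_le_log hcpos hcle
    have hR1 : Integrable (fun z => t * (R Q ρ m z * Real.log (Gs z))) (QQ Q m) :=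
      hlogint.const_mul _
    have hR2 : Integrable (fun z => R Q ρ m z * Real.log c) (QQ Q m) := hRint.mul_const _
    have hG2 : Integrable (fun z => Gs z ^ t / c) (QQ Q m) := hGtint.div_const _
    have hmono := integral_mono ((hR1.sub hR2).sub hXint) (hG2.sub hRint) (fun z => by
      simp only [Pi.sub_apply]
      have hk := key (h.R_nn (Q := Q) m z) (div_nonneg (hGt0 z) hcpos.le)
        (fun _ => (div_pos (Real.rpow_pos_of_pos (hGpos z) t) hcpos).ne')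
      rw [Real.log_div (Real.rpow_pos_of_pos (hGpos z) t).ne' hcpos.ne',
        Real.log_rpow (hGpos z)] at hk
      rw [xlx]
      calc _ = _ := by ring
        _ ≤ _ := hk)
    rw [integral_sub' (hR1.sub hR2) hXint, integral_sub' hR1 hR2, integral_sub' hG2 hRint,
      integral_const_mul, integral_mul_const, integral_div, h.int_R, ← hc, div_self hcpos.ne',
      one_mul, sub_self] at hmono
    linarith
  have hNt' : 0 < 1 - (N:ℝ) / t := by
    rw [sub_pos, div_lt_one ht]; exact hNt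
  have hfin : X ≤ 1 / (1 - N / t) * (N / t * Λ + m * H0 + Real.log D) := by
    rw [one_div, inv_mul_eq_div, le_div_iff₀ hNt']
    have h4 : (N:ℝ) * I ≤ N / t * (X + Λ) := by
      have h5 : I ≤ (X + Λ) / t := by rw [le_div_iff₀ ht]; linarith
      calc (N:ℝ) * I ≤ N * ((X + Λ) / t) := mul_le_mul_of_nonneg_left h5 (Nat.cast_nonneg N)
        _ = _ := by ring
    linarith
  have := hs1
  calc _ ≤ _ := hs1
    _ ≤ _ := by linarith

end Crest.Agent.R322
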