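import Mathlib
import Crest.Agent.R322.Defs

/-!
# Row 322, task STAGE: decomposition of a density into Frostman pieces (helper12)
-/

set_option autoImplicit false

open MeasureTheory ProbabilityTheory

namespace Crest.Agent.R322

namespace Stage

/-- `x log (y/x) ≤ y − x` -/
theorem mul_log_div_le {x y : ℝ} (hx : 0 ≤ x) (hxy : x ≤ 0 → 0 ≤ y) (hxy' : 0 < x → 0 < y) :
    x * Real.log (y / x) ≤ y - x := by
  rcases hx.eq_or_lt with h | h
  · subst h; simpa using hxy le_rfl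
  · have hy' := hxy' h
    have h1 := Real.log_le_sub_one_of_pos (div_pos hy' h)
    have h2 : x * (y / x) = y := by field_simp
    nlinarith [mul_le_mul_of_nonneg_left h1 hx]

theorem geo (n : ℕ) : ∑ i ∈ Finset.range n, (1 / (2:ℝ)) ^ (i + 1) ≤ 1 := by
  have h := sum_geometric_two_le n
  have : ∑ i ∈ Finset.range n, (1 / (2:ℝ)) ^ (i + 1) =
      (1/2) * ∑ i ∈ Finset.range n, (1 / (2:ℝ)) ^ i := by
    rw [Finset.mul_sum]; apply Finset.sum_congr rfl; intro i _; ring
  rw [this]; linarith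

theorem star {κ : Type*} (B : Finset κ) (m0 : ℕ) (Zj Gj : ℕ × κ → ℝ) (Z : ℝ)
    (h0 : ∀ j ∈ Finset.range (m0+1) ×ˢ B, 0 ≤ Zj j ∧ Zj j ≤ Gj j)
    (hG : ∀ m, ∑ c ∈ B, Gj (m, c) ≤ Z) (hZ : 0 ≤ Z)
    (hs : ∑ j ∈ Finset.range (m0+1) ×ˢ B, Zj j = Z) :
    ∑ j ∈ Finset.range (m0+1) ×ˢ B, Zj j * Real.log (Gj j / Zj j) ≤
      Real.log 2 * (Z + ∑ j ∈ Finset.range (m0+1) ×ˢ B, (j.1:ℝ) * Zj j) := by
  have h1 : ∀ j ∈ Finset.range (m0+1) ×ˢ B, Zj j * Real.log (Gj j / Zj j) ≤
      Gj j * (1 / 2) ^ (j.1 + 1) - Zj j + ((j.1:ℝ) + 1) * Real.log 2 * Zj j := by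
    intro j hj
    obtain ⟨hz, hzg⟩ := h0 j hj
    rcases hz.eq_or_lt with h | h
    · rw [← h]; simp only [zero_mul, mul_zero, add_zero, sub_zero]
      exact mul_nonneg (hz.trans hzg) (by positivity)
    · have hg : 0 < Gj j := lt_of_lt_of_le h hzg
      have e1 : Gj j / Zj j = (Gj j * (1 / 2) ^ (j.1 + 1) / Zj j) * 2 ^ (j.1 + 1) := by
        have : ((1:ℝ) / 2) ^ (j.1 + 1) * 2 ^ (j.1 + 1) = 1 := by
          rw [← mul_pow]; norm_num
        calc Gj j / Zj j = Gj j / Zj j * (((1:ℝ) / 2) ^ (j.1 + 1) * 2 ^ (j.1 + 1)) := by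
              rw [this, mul_one]
          _ = _ := by ring
      have e2 : Real.log (Gj j / Zj j) =
          Real.log (Gj j * (1 / 2) ^ (j.1 + 1) / Zj j) + ((j.1:ℝ) + 1) * Real.log 2 := by
        rw [e1, Real.log_mul (by positivity) (by positivity), Real.log_pow]
        push_cast; ring
      have e3 := mul_log_div_le (x := Zj j) (y := Gj j * (1 / 2) ^ (j.1 + 1)) hz
        (fun h' => absurd h' (not_le.mpr h)) (fun _ => by positivity)
      rw [e2]; nlinarith
  have h2 : ∑ j ∈ Finset.range (m0+1) ×ˢ B, Gj j * (1 / 2) ^ (j.1 + 1) ≤ Z := by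
    rw [Finset.sum_product]
    calc ∑ m ∈ Finset.range (m0+1), ∑ c ∈ B, Gj (m, c) * (1 / 2) ^ (m + 1)
        = ∑ m ∈ Finset.range (m0+1), (∑ c ∈ B, Gj (m, c)) * (1 / 2) ^ (m + 1) := by
          apply Finset.sum_congr rfl; intro m _; rw [Finset.sum_mul]
      _ ≤ ∑ m ∈ Finset.range (m0+1), Z * (1 / 2) ^ (m + 1) := by
          apply Finset.sum_le_sum; intro m _
          exact mul_le_mul_of_nonneg_right (hG m) (by positivity)
      _ = Z * ∑ m ∈ Finset.range (m0+1), (1 / 2) ^ (m + 1) := by rw [Finset.mul_sum]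
      _ ≤ Z * 1 := mul_le_mul_of_nonneg_left (geo _) hZ
      _ = Z := mul_one _
  calc ∑ j ∈ Finset.range (m0+1) ×ˢ B, Zj j * Real.log (Gj j / Zj j)
      ≤ ∑ j ∈ Finset.range (m0+1) ×ˢ B,
        (Gj j * (1 / 2) ^ (j.1 + 1) - Zj j + ((j.1:ℝ) + 1) * Real.log 2 * Zj j) :=
        Finset.sum_le_sum h1
    _ = ∑ j ∈ Finset.range (m0+1) ×ˢ B, Gj j * (1 / 2) ^ (j.1 + 1) - Z +
        Real.log 2 * (Z + ∑ j ∈ Finset.range (m0+1) ×ˢ B, (j.1:ℝ) * Zj j) := by
        rw [← hs, ← Finset.sum_add_distrib, Finset.mul_sum, ← Finset.sum_sub_distrib,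
          ← Finset.sum_add_distrib]
        apply Finset.sum_congr rfl; intro j _; ring
    _ ≤ _ := by linarith

/-! ### integration facts -/

variable {d : ℕ}

theorem integrable_01 [IsProbabilityMeasure (Pm d)] {f : E d → ℝ} (hf : Measurable f)
    (h0 : ∀ s, 0 ≤ f s) (h1 : ∀ s, f s ≤ 1) : Integrable f (Pm d) :=
  Integrable.of_bound hf.aestronglyMeasurable 1
    (Filter.Eventually.of_forall fun s => by rw [Real.norm_eq_abs, abs_of_nonneg (h0 s)]; exact h1 s)

theorem xlx_bound {x : ℝ} (h0 : 0 ≤ x) (h1 : x ≤ 1) : |xlx x| ≤ 1 := by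
  unfold xlx
  rcases h0.eq_or_lt with h | h
  · rw [← h]; simp
  · have h2 := Real.one_sub_inv_le_log_of_pos h
    have h3 : Real.log x ≤ 0 := Real.log_nonpos h0 h1
    have h4 : x * x⁻¹ = 1 := mul_inv_cancel₀ h.ne'
    rw [abs_le]
    constructor
    · nlinarith [mul_le_mul_of_nonneg_left h2 h0]
    · nlinarith

theorem measurable_xlx : Measurable xlx := by
  unfold xlx; exact measurable_id.mul Real.measurable_log

theorem integrable_xlx [IsProbabilityMeasure (Pm d)] {f : E d → ℝ} (hf : Measurable f)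
    (h0 : ∀ s, 0 ≤ f s) (h1 : ∀ s, f s ≤ 1) : Integrable (fun s => xlx (f s)) (Pm d) :=
  Integrable.of_bound (measurable_xlx.comp hf).aestronglyMeasurable 1
    (Filter.Eventually.of_forall fun s => by rw [Real.norm_eq_abs]; exact xlx_bound (h0 s) (h1 s))

theorem sum_cells [IsProbabilityMeasure (Pm d)] {f : E d → ℝ} (hf : Measurable f)
    (h0 : ∀ s, 0 ≤ f s) (h1 : ∀ s, f s ≤ 1) (n : ℕ) (hms : ∀ c, MeasurableSet (cs d n c))
    (B : Finset (Fin d → ℤ)) : ∑ c ∈ B, ∫ s in cs d n c, f s ∂(Pm d) ≤ Zm f := by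
  have hi := integrable_01 hf h0 h1
  rw [← integral_biUnion_finset B (fun c _ => hms c)]
  · exact setIntegral_le_integral hi (Filter.Eventually.of_forall h0)
  · intro c _ c' _ hcc
    rw [Function.onFun, Set.disjoint_left]
    intro s hs hs'
    exact hcc (hs.symm.trans hs')
  · intro c _; exact hi.integrableOn

/-! ### powers -/

theorem powcap (hd : 1 ≤ d) (n : ℕ) :
    (2:ℝ) ^ d * ((2:ℝ)⁻¹ ^ n) ^ (d - 1) = (2:ℝ) ^ ((d:ℝ) - (n:ℝ) * ((d:ℝ) - 1)) := by
  have h2 : (0:ℝ) < 2 := by norm_num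
  rw [← pow_mul, inv_pow, ← Real.rpow_natCast 2 d, ← Real.rpow_natCast 2 (n * (d - 1)),
    ← Real.rpow_neg h2.le, ← Real.rpow_add h2]
  congr 1
  rw [Nat.cast_mul, Nat.cast_sub hd, Nat.cast_one]; ring

theorem cellcap (hd : 1 ≤ d) [IsProbabilityMeasure (Pm d)]
    (hcap : ∀ (y : E d) (r : ℝ), 0 < r → r ≤ 1 →
      (Pm d).real (Metric.closedBall y r) ≤ 2 ^ d * r ^ (d - 1))
    (n : ℕ) (hdi : ∀ s s' : E d, cell d n s = cell d n s' → dist s s' ≤ (2:ℝ)⁻¹ ^ n)
    (c : Fin d → ℤ) :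
    (Pm d).real (cs d n c) ≤ (2:ℝ) ^ ((d:ℝ) - (n:ℝ) * ((d:ℝ) - 1)) := by
  rw [← powcap hd n]
  rcases (cs d n c).eq_empty_or_nonempty with h | ⟨s0, hs0⟩
  · rw [h]; simp only [measureReal_empty]; positivity
  · have hsub : cs d n c ⊆ Metric.closedBall s0 ((2:ℝ)⁻¹ ^ n) := by
      intro s hs
      rw [Metric.mem_closedBall]
      exact hdi s s0 (hs.trans hs0.symm)
    refine (measureReal_mono hsub).trans (hcap s0 _ (by positivity) ?_)
    exact pow_le_one₀ (by norm_num) (by norm_num)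

/-! ### the construction -/

/-- heavy cells -/
def Hv (d k : ℕ) (g : E d → ℝ) (Γ : ℝ) (m : ℕ) (c' : Fin d → ℤ) : Prop :=
  (2:ℝ) ^ (-(3 / 4 : ℝ) * d * m) * Real.exp (Γ * d) * Zm g ≤ ∫ s in cs d (k + m) c', g s ∂(Pm d)

open Classical in
/-- the level of the last heavy cell -/
noncomputable def Vf (d k : ℕ) (g : E d → ℝ) (Γ : ℝ) (m0 : ℕ) (s : E d) : ℕ :=
  Nat.findGreatest (fun m => m ≤ m0 ∧ Hv d k g Γ m (cell d (k + m) s)) m0

open Classical in
/-- the pieces -/
noncomputable def hf (d k : ℕ) (g : E d → ℝ) (Γ : ℝ) (m0 : ℕ) (j : ℕ × (Fin d → ℤ)) (s : E d) : ℝ :=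
  if Vf d k g Γ m0 s = j.1 ∧ cell d (k + j.1) s = j.2 then g s else 0

open Classical in
theorem Vf_le (k : ℕ) (g : E d → ℝ) (Γ : ℝ) (m0 : ℕ) (s : E d) : Vf d k g Γ m0 s ≤ m0 :=
  Nat.findGreatest_le _

open Classical in
theorem Vf_heavy {k : ℕ} {g : E d → ℝ} {Γ : ℝ} {m0 m : ℕ} {s : E d} (h : Vf d k g Γ m0 s = m)
    (hm : m ≠ 0) : Hv d k g Γ m (cell d (k + m) s) :=
  (Nat.findGreatest_of_ne_zero h hm).2

open Classical in
theorem Vf_light {k : ℕ} {g : E d → ℝ} {Γ : ℝ} {m0 m : ℕ} {s : E d} (h : Vf d k g Γ m0 s < m)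
    (hm : ∀ m > m0, ∀ c', ¬ Hv d k g Γ m c') : ¬ Hv d k g Γ m (cell d (k + m) s) := by
  rcases le_or_gt m m0 with h1 | h1
  · intro h2
    exact Nat.findGreatest_is_greatest h h1 ⟨h1, h2⟩
  · exact hm m h1 _

theorem meas_Vf {k : ℕ} {g : E d → ℝ} {Γ : ℝ} {m0 : ℕ} (hms : ∀ n c, MeasurableSet (cs d n c))
    (href : ∀ (m : ℕ) (s s' : E d), ∀ k, cell d (k + m) s = cell d (k + m) s' →
      cell d k s = cell d k s') (m : ℕ) :
    MeasurableSet {s | Vf d k g Γ m0 s = m} := by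
  have h1 : {s | Vf d k g Γ m0 s = m} =
      ⋃ c' ∈ {c' | ∃ s, cell d (k + m0) s = c' ∧ Vf d k g Γ m0 s = m}, cs d (k + m0) c' := by
    ext s
    simp only [Set.mem_ofPred_eq, Set.mem_iUnion, cs]
    constructor
    · intro h
      exact ⟨cell d (k + m0) s, ⟨s, rfl, h⟩, rfl⟩
    · rintro ⟨c', ⟨s', hs', hv⟩, hs⟩
      have h2 : cell d (k + m0) s = cell d (k + m0) s' := hs.trans hs'.symm
      have h3 : ∀ n ≤ m0, cell d (k + n) s = cell d (k + n) s' := by
        intro n hn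
        apply href (m0 - n)
        rw [show k + n + (m0 - n) = k + m0 by omega]; exact h2
      rw [← hv]
      unfold Vf
      congr 1
      funext n
      by_cases hn : n ≤ m0
      · rw [h3 n hn]
      · simp [hn]
  rw [h1]
  exact MeasurableSet.biUnion (Set.to_countable _) fun c' _ => hms _ _

theorem meas_hf {k : ℕ} {g : E d → ℝ} {Γ : ℝ} {m0 : ℕ} (hms : ∀ n c, MeasurableSet (cs d n c))
    (href : ∀ (m : ℕ) (s s' : E d), ∀ k, cell d (k + m) s = cell d (k + m) s' →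
      cell d k s = cell d k s') (hg : Measurable g) (j : ℕ × (Fin d → ℤ)) :
    Measurable (hf d k g Γ m0 j) := by
  unfold hf
  apply Measurable.ite _ hg measurable_const
  exact (meas_Vf hms href j.1).inter (hms _ _)

/-- there are no heavy cells at high levels -/
theorem exists_m0 (hd : 16 ≤ d) (k : ℕ) {g : E d → ℝ} (Γ : ℝ) (hg : Measurable g)
    (h0 : ∀ s, 0 ≤ g s) (h1 : ∀ s, g s ≤ 1) [IsProbabilityMeasure (Pm d)]
    (hcap : ∀ n c, (Pm d).real (cs d n c) ≤ (2:ℝ) ^ ((d:ℝ) - (n:ℝ) * ((d:ℝ) - 1)))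
    (hZ : 0 < Zm g) :
    ∃ m0, ∀ m > m0, ∀ c', ¬ Hv d k g Γ m c' := by
  have hpos : 0 < Real.exp (Γ * d) * Zm g / 2 ^ d := by positivity
  obtain ⟨m0, hm0⟩ := exists_pow_lt_of_lt_one hpos (by norm_num : (1/2:ℝ) < 1)
  refine ⟨m0, fun m hm c' hv => ?_⟩
  have hd' : (16:ℝ) ≤ d := by exact_mod_cast hd
  have h2 : ∫ s in cs d (k + m) c', g s ∂(Pm d) ≤ (Pm d).real (cs d (k + m) c') := by
    have h3 : ∫ s in cs d (k + m) c', g s ∂(Pm d) ≤ ∫ s in cs d (k + m) c', (1:ℝ) ∂(Pm d) :=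
      setIntegral_mono (integrable_01 hg h0 h1).integrableOn (integrable_const _).integrableOn h1
    simpa using h3
  have h4 := hv.trans (h2.trans (hcap (k + m) c'))
  have h5 : (2:ℝ) ^ ((d:ℝ) - ((k + m : ℕ):ℝ) * ((d:ℝ) - 1)) ≤
      (2:ℝ) ^ (-(3 / 4 : ℝ) * d * m) * (2 ^ d * (1/2) ^ m) := by
    rw [show ((1:ℝ)/2) ^ m = (2:ℝ) ^ (-(m:ℝ)) by
      rw [Real.rpow_neg (by norm_num), Real.rpow_natCast, one_div, inv_pow],
      ← Real.rpow_natCast 2 d, ← Real.rpow_add (by norm_num), ← Real.rpow_add (by norm_num)]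
    apply Real.rpow_le_rpow_of_exponent_le (by norm_num)
    push_cast
    have hk : (0:ℝ) ≤ k := Nat.cast_nonneg _
    have hm' : (0:ℝ) ≤ m := Nat.cast_nonneg _
    nlinarith [mul_nonneg hk (by linarith : (0:ℝ) ≤ (d:ℝ) - 1),
      mul_nonneg hm' (by linarith : (0:ℝ) ≤ (d:ℝ)/4 - 2)]
  have h6 : Real.exp (Γ * d) * Zm g ≤ 2 ^ d * (1/2) ^ m := by
    have h7 := h4.trans h5
    rw [mul_assoc] at h7
    exact le_of_mul_le_mul_left h7 (by positivity)
  have h8 : ((1:ℝ)/2) ^ m ≤ (1/2) ^ m0 := pow_le_pow_of_le_one (by norm_num) (by norm_num) hm.le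
  have h9 : Real.exp (Γ * d) * Zm g / 2 ^ d ≤ (1/2) ^ m := by
    rw [div_le_iff₀ (by positivity)]; linarith
  linarith

theorem hf_nonneg {k : ℕ} {g : E d → ℝ} {Γ : ℝ} {m0 : ℕ} (h0 : ∀ s, 0 ≤ g s)
    (j : ℕ × (Fin d → ℤ)) (s : E d) : 0 ≤ hf d k g Γ m0 j s := by
  unfold hf; split_ifs
  · exact h0 s
  · exact le_rfl

theorem hf_le {k : ℕ} {g : E d → ℝ} {Γ : ℝ} {m0 : ℕ} (h0 : ∀ s, 0 ≤ g s)
    (j : ℕ × (Fin d → ℤ)) (s : E d) : hf d k g Γ m0 j s ≤ g s := by
  unfold hf; split_ifs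
  · exact le_rfl
  · exact h0 s

theorem hf_ne {k : ℕ} {g : E d → ℝ} {Γ : ℝ} {m0 : ℕ}
    {j : ℕ × (Fin d → ℤ)} {s : E d} (h : hf d k g Γ m0 j s ≠ 0) :
    Vf d k g Γ m0 s = j.1 ∧ cell d (k + j.1) s = j.2 ∧ g s ≠ 0 := by
  unfold hf at h
  split_ifs at h with h1
  · exact ⟨h1.1, h1.2, h⟩
  · exact absurd rfl h

theorem sum_phi {k : ℕ} {g : E d → ℝ} {Γ : ℝ} {m0 : ℕ} {c : Fin d → ℤ}
    (hgs : ∀ s, g s ≠ 0 → cell d k s = c)
    (B : Finset (Fin d → ℤ)) (hB : ∀ s m, m ≤ m0 → cell d k s = c → cell d (k + m) s ∈ B)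
    (φ : ℝ → ℝ) (hφ : φ 0 = 0) (s : E d) :
    ∑ j ∈ Finset.range (m0 + 1) ×ˢ B, φ (hf d k g Γ m0 j s) = φ (g s) := by
  classical
  by_cases hg : g s = 0
  · have h1 : ∀ j, hf d k g Γ m0 j s = 0 := by
      intro j; unfold hf; split_ifs
      · exact hg
      · rfl
    simp only [h1, hφ, hg, Finset.sum_const_zero]
  · have hc := hgs s hg
    rw [Finset.sum_eq_single (Vf d k g Γ m0 s, cell d (k + Vf d k g Γ m0 s) s)]
    · congr 1
      unfold hf
      simp
    · intro j _ hj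
      have : hf d k g Γ m0 j s = 0 := by
        by_contra h2
        obtain ⟨h3, h4, -⟩ := hf_ne h2
        apply hj
        rw [h3, h4]
      rw [this, hφ]
    · intro h2
      exfalso; apply h2
      rw [Finset.mem_product]
      refine ⟨Finset.mem_range.mpr (Nat.lt_succ_of_le (Vf_le _ _ _ _ _)), ?_⟩
      exact hB s _ (Vf_le _ _ _ _ _) hc

/-- the facts on heavy pieces -/
theorem heavy_facts (hd : 16 ≤ d) {k L : ℕ} {g : E d → ℝ} {Γ : ℝ} {m : ℕ} {c c' : Fin d → ℤ}
    [IsProbabilityMeasure (Pm d)]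
    (hcap : ∀ n c, (Pm d).real (cs d n c) ≤ (2:ℝ) ^ ((d:ℝ) - (n:ℝ) * ((d:ℝ) - 1)))
    (hZ : 0 < Zm g) (hkL : k ≤ L) (hΓ : 6 * (d:ℝ) + L ≤ Γ * d)
    (hPc : Real.exp (-5 * d) * ((2:ℝ) ^ (k * d))⁻¹ ≤ (Pm d).real (cs d k c))
    (hv : Hv d k g Γ m c') :
    (2:ℝ) ^ (-(3 / 4 : ℝ) * d * m) * Zm g ≤ ∫ s in cs d (k + m) c', g s ∂(Pm d) ∧
    Zm g * (Pm d).real (cs d (k + m) c') ≤
      (2:ℝ) ^ (-((d:ℝ) / 4 - 1) * m) * (∫ s in cs d (k + m) c', g s ∂(Pm d)) *
        (Pm d).real (cs d k c) := by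
  have hd' : (16:ℝ) ≤ d := by exact_mod_cast hd
  have hLn : (0:ℝ) ≤ L := Nat.cast_nonneg _
  have hk' : (k:ℝ) ≤ L := by exact_mod_cast hkL
  unfold Hv at hv
  constructor
  · refine le_trans ?_ hv
    have h1 : 1 ≤ Real.exp (Γ * d) := Real.one_le_exp (by linarith)
    have h2 : (2:ℝ) ^ (-(3 / 4 : ℝ) * d * m) * Zm g * 1 ≤
        (2:ℝ) ^ (-(3 / 4 : ℝ) * d * m) * Zm g * Real.exp (Γ * d) :=
      mul_le_mul_of_nonneg_left h1 (by positivity)
    nlinarith
  · calc Zm g * (Pm d).real (cs d (k + m) c')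
        ≤ Zm g * (2:ℝ) ^ ((d:ℝ) - ((k + m : ℕ):ℝ) * ((d:ℝ) - 1)) :=
          mul_le_mul_of_nonneg_left (hcap _ _) hZ.le
      _ ≤ Zm g * ((2:ℝ) ^ (-((d:ℝ) / 4 - 1) * m) * ((2:ℝ) ^ (-(3 / 4 : ℝ) * d * m) *
          Real.exp (Γ * d)) * (Real.exp (-5 * d) * ((2:ℝ) ^ (k * d))⁻¹)) := by
          apply mul_le_mul_of_nonneg_left _ hZ.le
          have e1 : ((2:ℝ) ^ (k * d))⁻¹ = (2:ℝ) ^ (-((k:ℝ) * d)) := by
            rw [Real.rpow_neg (by norm_num), ← Nat.cast_mul, Real.rpow_natCast]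
          have e2 : (2:ℝ) ^ (-((d:ℝ) / 4 - 1) * m) * ((2:ℝ) ^ (-(3 / 4 : ℝ) * d * m) *
              Real.exp (Γ * d)) * (Real.exp (-5 * d) * ((2:ℝ) ^ (k * d))⁻¹) =
              (2:ℝ) ^ ((m:ℝ) - d * m - k * d) * Real.exp (Γ * d - 5 * d) := by
            rw [e1, show Γ * d - 5 * d = Γ * d + -5 * d by ring, Real.exp_add,
              show (m:ℝ) - d * m - k * d = (-((d:ℝ) / 4 - 1) * m) + (-(3 / 4 : ℝ) * d * m) +
                (-((k:ℝ) * d)) by ring, Real.rpow_add (by norm_num), Real.rpow_add (by norm_num)]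
            ring
          rw [e2]
          have e3 : (2:ℝ) ^ ((d:ℝ) - ((k + m : ℕ):ℝ) * ((d:ℝ) - 1)) =
              (2:ℝ) ^ ((m:ℝ) - d * m - k * d) * (2:ℝ) ^ ((d:ℝ) + k) := by
            rw [← Real.rpow_add (by norm_num)]
            congr 1; push_cast; ring
          rw [e3]
          apply mul_le_mul_of_nonneg_left _ (by positivity)
          rw [Real.rpow_def_of_pos (by norm_num)]
          apply Real.exp_le_exp.mpr
          have hl2 : Real.log 2 ≤ 1 := by
            have := Real.log_le_sub_one_of_pos (by norm_num : (0:ℝ) < 2); linarith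
          have hk0 : (0:ℝ) ≤ k := Nat.cast_nonneg _
          have : Real.log 2 * ((d:ℝ) + k) ≤ 1 * ((d:ℝ) + k) :=
            mul_le_mul_of_nonneg_right hl2 (by linarith)
          linarith
      _ ≤ (2:ℝ) ^ (-((d:ℝ) / 4 - 1) * m) * (∫ s in cs d (k + m) c', g s ∂(Pm d)) *
        (Pm d).real (cs d k c) := by
          have h1 : (2:ℝ) ^ (-((d:ℝ) / 4 - 1) * m) * ((2:ℝ) ^ (-(3 / 4 : ℝ) * d * m) *
              Real.exp (Γ * d) * Zm g) ≤
              (2:ℝ) ^ (-((d:ℝ) / 4 - 1) * m) * (∫ s in cs d (k + m) c', g s ∂(Pm d)) :=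
            mul_le_mul_of_nonneg_left hv (by positivity)
          have h2 := mul_le_mul h1 hPc (by positivity) (le_trans (by positivity) h1)
          calc _ = (2:ℝ) ^ (-((d:ℝ) / 4 - 1) * m) * ((2:ℝ) ^ (-(3 / 4 : ℝ) * d * m) *
              Real.exp (Γ * d) * Zm g) * (Real.exp (-5 * d) * ((2:ℝ) ^ (k * d))⁻¹) := by ring
            _ ≤ _ := h2

end Stage

open Stage in
theorem stage : StPm → StCap → StCell → StStage := by
  intro hPm hCap hCell d k L c g Γ hd hgm hg0 hg1 hgs hkL hΓ hPc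
  classical
  have hd1 : 1 ≤ d := by omega
  have hd' : (16:ℝ) ≤ d := by exact_mod_cast hd
  obtain ⟨hprob, -, -⟩ := hPm d hd1
  haveI := hprob
  have hms : ∀ n c, MeasurableSet (cs d n c) := fun n => (hCell d n hd1).1
  have hdi : ∀ n (s s' : E d), cell d n s = cell d n s' → dist s s' ≤ (2:ℝ)⁻¹ ^ n :=
    fun n => (hCell d n hd1).2.1
  have href : ∀ (m : ℕ) (s s' : E d), ∀ k, cell d (k + m) s = cell d (k + m) s' →
      cell d k s = cell d k s' := fun m s s' k => (hCell d k hd1).2.2.1 m s s'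
  have hfin := (hCell d k hd1).2.2.2.1
  have hcap : ∀ n c, (Pm d).real (cs d n c) ≤ (2:ℝ) ^ ((d:ℝ) - (n:ℝ) * ((d:ℝ) - 1)) :=
    fun n c => cellcap hd1 (hCap d hd1) n (hdi n) c
  have hZ0 : 0 ≤ Zm g := integral_nonneg hg0
  have hgi := integrable_01 hgm hg0 hg1
  rcases hZ0.eq_or_lt with hZ | hZ
  · -- `Z = 0`
    refine ⟨{(0, c)}, fun _ => g, fun _ => 1, ?_, ?_, ?_, ?_⟩
    · intro j hj
      rw [Finset.mem_singleton] at hj
      subst hj
      refine ⟨hgm, hg0, hg1, hgs, le_rfl, fun m c' => ?_⟩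
      have h1 : ∫ s in cs d (k + 0 + m) c', g s ∂(Pm d) ≤ Zm g :=
        setIntegral_le_integral hgi (Filter.Eventually.of_forall hg0)
      rw [← hZ] at h1 ⊢
      simpa using h1
    · intro s; simp
    · simp only [Finset.sum_singleton, Real.log_one, mul_zero, Nat.cast_zero, zero_mul, add_zero,
        ← hZ]; exact le_rfl
    · simp [← hZ]
  · -- `Z > 0`
    obtain ⟨m0, hm0⟩ := exists_m0 hd k Γ hgm hg0 hg1 hcap hZ
    set B : Finset (Fin d → ℤ) := (Finset.range (m0+1)).biUnion (fun m => (hfin c m).toFinset)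
      with hBdef
    have hB : ∀ s m, m ≤ m0 → cell d k s = c → cell d (k + m) s ∈ B := by
      intro s m hm hs
      rw [hBdef, Finset.mem_biUnion]
      refine ⟨m, Finset.mem_range.mpr (Nat.lt_succ_of_le hm), ?_⟩
      rw [Set.Finite.mem_toFinset]
      exact ⟨s, hs, rfl⟩
    set J := Finset.range (m0+1) ×ˢ B with hJ
    set h := hf d k g Γ m0 with hh
    set Gj : ℕ × (Fin d → ℤ) → ℝ := fun j => ∫ s in cs d (k + j.1) j.2, g s ∂(Pm d) with hGj
    have hhm : ∀ j, Measurable (h j) := fun j => meas_hf hms href hgm j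
    have hh0 : ∀ j s, 0 ≤ h j s := fun j s => hf_nonneg hg0 j s
    have hhg : ∀ j s, h j s ≤ g s := fun j s => hf_le hg0 j s
    have hh1 : ∀ j s, h j s ≤ 1 := fun j s => (hhg j s).trans (hg1 s)
    have hhi : ∀ j, Integrable (h j) (Pm d) := fun j => integrable_01 (hhm j) (hh0 j) (hh1 j)
    have hZj0 : ∀ j, 0 ≤ Zm (h j) := fun j => integral_nonneg (hh0 j)
    have hZG : ∀ j, Zm (h j) ≤ Gj j := by
      intro j
      rw [hGj]
      simp only
      rw [← integral_indicator (hms _ _)]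
      apply integral_mono (hhi j) (hgi.indicator (hms _ _))
      intro s
      by_cases h1 : h j s = 0
      · rw [h1]; exact Set.indicator_nonneg (fun s _ => hg0 s) s
      · obtain ⟨-, h3, -⟩ := hf_ne h1
        rw [Set.indicator_of_mem (show s ∈ cs d (k + j.1) j.2 from h3)]
        exact hhg j s
    have hGsum : ∀ m, ∑ c' ∈ B, Gj (m, c') ≤ Zm g := fun m =>
      sum_cells hgm hg0 hg1 (k + m) (hms _) B
    have hsum : ∀ s, ∑ j ∈ J, h j s = g s := fun s =>
      sum_phi hgs B hB (fun x => x) rfl s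
    have hZs : ∑ j ∈ J, Zm (h j) = Zm g := by
      unfold Zm
      rw [← integral_finsetSum J (fun j _ => hhi j)]
      congr 1; funext s; exact hsum s
    have hXs : ∑ j ∈ J, ∫ s, xlx (h j s) ∂(Pm d) = ∫ s, xlx (g s) ∂(Pm d) := by
      rw [← integral_finsetSum J (fun j _ => integrable_xlx (hhm j) (hh0 j) (hh1 j))]
      congr 1; funext s
      exact sum_phi hgs B hB xlx (by simp [xlx]) s
    have hstar := star B m0 (fun j => Zm (h j)) Gj (Zm g) (fun j _ => ⟨hZj0 j, hZG j⟩) hGsum hZ.le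
      hZs
    -- facts on the pieces of positive mass
    have hpos : ∀ j, 0 < Zm (h j) →
        (2:ℝ) ^ (-(3 / 4 : ℝ) * d * j.1) * Zm g ≤ Gj j ∧
        Zm g * (Pm d).real (cs d (k + j.1) j.2) ≤
          (2:ℝ) ^ (-((d:ℝ) / 4 - 1) * j.1) * Gj j * (Pm d).real (cs d k c) := by
      intro j hj
      have h1 : ∃ s, h j s ≠ 0 := by
        by_contra h2
        push Not at h2
        have : Zm (h j) = 0 := by unfold Zm; simp [h2]
        linarith
      obtain ⟨s, hs⟩ := h1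
      obtain ⟨hV, hc', hgne⟩ := hf_ne hs
      obtain ⟨m, c'⟩ := j
      simp only at hV hc'
      by_cases hm : m = 0
      · subst hm
        have hcc : c' = c := by rw [← hc']; exact hgs s hgne
        have hG : Gj (0, c') = Zm g := by
          rw [hGj, hcc]
          simp only [add_zero]
          unfold Zm
          rw [← integral_indicator (hms _ _)]
          congr 1; funext s
          by_cases h3 : g s = 0
          · by_cases h4 : s ∈ cs d k c
            · rw [Set.indicator_of_mem h4]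
            · rw [Set.indicator_of_notMem h4, h3]
          · rw [Set.indicator_of_mem (show s ∈ cs d k c from hgs s h3)]
        constructor
        · rw [hG]; simp
        · rw [hG, hcc]; simp
      · have hv := Vf_heavy hV hm
        rw [hc'] at hv
        exact heavy_facts hd hcap hZ hkL hΓ hPc hv
    have hΓd : 0 ≤ Γ * d := by
      have hLn : (0:ℝ) ≤ L := Nat.cast_nonneg _
      linarith
    have hl2 : Real.log 2 ≤ 1 := by
      have := Real.log_le_sub_one_of_pos (by norm_num : (0:ℝ) < 2); linarith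
    have hl20 : 0 ≤ Real.log 2 := Real.log_nonneg (by norm_num)
    have hmZ : 0 ≤ ∑ j ∈ J, (j.1:ℝ) * Zm (h j) :=
      Finset.sum_nonneg fun j _ => mul_nonneg (Nat.cast_nonneg _) (hZj0 j)
    refine ⟨J, h, fun j => if Zm (h j) = 0 then 1 else Real.exp (Γ * d) * Gj j / Zm (h j),
      ?_, hsum, ?_, ?_⟩
    · -- `Dens`
      intro j _
      rcases (hZj0 j).eq_or_lt with hj | hj
      · simp only [← hj, if_true]
        refine ⟨hhm j, hh0 j, hh1 j, fun s hs => (hf_ne hs).2.1, le_rfl, fun m c' => ?_⟩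
        have h1 : ∫ s in cs d (k + j.1 + m) c', h j s ∂(Pm d) ≤ Zm (h j) :=
          setIntegral_le_integral (hhi j) (Filter.Eventually.of_forall (hh0 j))
        rw [← hj] at h1 ⊢
        simpa using h1
      · simp only [hj.ne', if_false]
        have hG : 0 < Gj j := lt_of_lt_of_le hj (hZG j)
        refine ⟨hhm j, hh0 j, hh1 j, fun s hs => (hf_ne hs).2.1, ?_, fun m c' => ?_⟩
        · rw [le_div_iff₀ hj, one_mul]
          calc Zm (h j) ≤ Gj j := hZG j
            _ = 1 * Gj j := (one_mul _).symm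
            _ ≤ Real.exp (Γ * d) * Gj j :=
              mul_le_mul_of_nonneg_right (Real.one_le_exp hΓd) hG.le
        · have e1 : Real.exp (Γ * d) * Gj j / Zm (h j) * (2:ℝ) ^ (-(3 / 4 : ℝ) * d * m) *
              Zm (h j) = (2:ℝ) ^ (-(3 / 4 : ℝ) * d * m) * (Real.exp (Γ * d) * Gj j) := by
            field_simp
          rw [e1]
          rcases Nat.eq_zero_or_pos m with hm | hm
          · subst hm
            have h1 : ∫ s in cs d (k + j.1 + 0) c', h j s ∂(Pm d) ≤ Zm (h j) :=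
              setIntegral_le_integral (hhi j) (Filter.Eventually.of_forall (hh0 j))
            refine h1.trans ((hZG j).trans ?_)
            simp only [Nat.cast_zero, mul_zero, Real.rpow_zero, one_mul]
            calc Gj j = 1 * Gj j := (one_mul _).symm
              _ ≤ Real.exp (Γ * d) * Gj j :=
                mul_le_mul_of_nonneg_right (Real.one_le_exp hΓd) hG.le
          · by_cases hex : ∃ s ∈ cs d (k + j.1 + m) c', h j s ≠ 0
            · obtain ⟨s, hs, hsn⟩ := hex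
              obtain ⟨hV, -, -⟩ := hf_ne hsn
              have hl := Vf_light (m := j.1 + m) (by rw [hV]; omega) hm0
              rw [← add_assoc, show cell d (k + j.1 + m) s = c' from hs] at hl
              unfold Hv at hl
              rw [not_le, ← add_assoc] at hl
              have h2 : ∫ s in cs d (k + j.1 + m) c', h j s ∂(Pm d) ≤
                  ∫ s in cs d (k + j.1 + m) c', g s ∂(Pm d) :=
                setIntegral_mono (hhi j).integrableOn hgi.integrableOn (hhg j)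
              refine h2.trans (hl.le.trans ?_)
              have h3 := (hpos j hj).1
              calc (2:ℝ) ^ (-(3 / 4 : ℝ) * d * ((j.1 + m : ℕ):ℝ)) * Real.exp (Γ * d) * Zm g
                  = (2:ℝ) ^ (-(3 / 4 : ℝ) * d * m) * (Real.exp (Γ * d) *
                    ((2:ℝ) ^ (-(3 / 4 : ℝ) * d * j.1) * Zm g)) := by
                    rw [show -(3 / 4 : ℝ) * d * ((j.1 + m : ℕ):ℝ) =
                      -(3 / 4 : ℝ) * d * m + -(3 / 4 : ℝ) * d * j.1 by push_cast; ring,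
                      Real.rpow_add (by norm_num)]
                    ring
                _ ≤ _ := by
                    apply mul_le_mul_of_nonneg_left _ (by positivity)
                    exact mul_le_mul_of_nonneg_left h3 (Real.exp_pos _).le
            · push Not at hex
              rw [setIntegral_eq_zero_of_forall_eq_zero hex]
              positivity
    · -- (i)
      have h1 : ∀ j ∈ J, Zm (h j) * Real.log (if Zm (h j) = 0 then 1 else
          Real.exp (Γ * d) * Gj j / Zm (h j)) =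
          Γ * d * Zm (h j) + Zm (h j) * Real.log (Gj j / Zm (h j)) := by
        intro j _
        rcases (hZj0 j).eq_or_lt with hj | hj
        · simp [← hj]
        · have hG : 0 < Gj j := lt_of_lt_of_le hj (hZG j)
          simp only [hj.ne', if_false]
          rw [mul_div_assoc, Real.log_mul (Real.exp_pos _).ne' (div_pos hG hj).ne', Real.log_exp]
          ring
      rw [Finset.sum_congr rfl h1, Finset.sum_add_distrib, ← Finset.mul_sum, hZs]
      have h2 : Real.log 2 * (Zm g + ∑ j ∈ J, (j.1:ℝ) * Zm (h j)) ≤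
          1 * (Zm g + ∑ j ∈ J, (j.1:ℝ) * Zm (h j)) :=
        mul_le_mul_of_nonneg_right hl2 (by linarith)
      have h3 := hstar
      nlinarith
    · -- (ii)
      have hP : 0 < (Pm d).real (cs d k c) := lt_of_lt_of_le (by positivity) hPc
      have h1 : ∀ j ∈ J, Zm (h j) * Real.log ((Pm d).real (cs d (k + j.1) j.2)) - xlx (Zm (h j)) ≤
          Zm (h j) * (Real.log ((Pm d).real (cs d k c)) - Real.log (Zm g)) +
          (Zm (h j) * Real.log (Gj j / Zm (h j)) - (d / 4 - 1) * Real.log 2 *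
            ((j.1:ℝ) * Zm (h j))) := by
        intro j _
        rcases (hZj0 j).eq_or_lt with hj | hj
        · simp [← hj, xlx]
        · have hG : 0 < Gj j := lt_of_lt_of_le hj (hZG j)
          have hPj : 0 < (Pm d).real (cs d (k + j.1) j.2) := by
            refine lt_of_lt_of_le hG ?_
            have h3 : ∫ s in cs d (k + j.1) j.2, g s ∂(Pm d) ≤
                ∫ s in cs d (k + j.1) j.2, (1:ℝ) ∂(Pm d) :=
              setIntegral_mono hgi.integrableOn (integrable_const _).integrableOn hg1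
            simpa using h3
          have h2 := (hpos j hj).2
          have h4 : Real.log (Zm g) + Real.log ((Pm d).real (cs d (k + j.1) j.2)) ≤
              -((d:ℝ) / 4 - 1) * j.1 * Real.log 2 + Real.log (Gj j) +
                Real.log ((Pm d).real (cs d k c)) := by
            rw [← Real.log_mul hZ.ne' hPj.ne', ← Real.log_rpow (by norm_num),
              ← Real.log_mul (by positivity) hG.ne', ← Real.log_mul (by positivity) hP.ne']
            exact Real.log_le_log (by positivity) h2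
          rw [Real.log_div hG.ne' hj.ne']
          unfold xlx
          nlinarith [mul_le_mul_of_nonneg_left h4 hj.le]
      have h2 := Finset.sum_le_sum h1
      rw [Finset.sum_sub_distrib, Finset.sum_add_distrib, Finset.sum_sub_distrib,
        ← Finset.sum_mul, ← Finset.mul_sum, hZs] at h2
      have h3 : ∑ j ∈ J, Pot (k + j.1) j.2 (h j) =
          ∫ s, xlx (g s) ∂(Pm d) + (∑ j ∈ J, Zm (h j) * Real.log ((Pm d).real (cs d (k + j.1) j.2)) -
            ∑ j ∈ J, xlx (Zm (h j))) := by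
        rw [← hXs]
        unfold Pot
        rw [← Finset.sum_sub_distrib, ← Finset.sum_add_distrib]
        apply Finset.sum_congr rfl; intro j _; ring
      rw [h3]
      unfold Pot
      have h4 := hstar
      have h5 : xlx (Zm g) = Zm g * Real.log (Zm g) := rfl
      rw [h5]
      nlinarith [mul_le_mul_of_nonneg_right hl2 hmZ, mul_le_mul_of_nonneg_right hl2 hZ.le]

end Crest.Agent.R322
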