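import Mathlib
import Crest.Agent.R322.Defs
import Crest.Agent.R322.PM

set_option autoImplicit false

open MeasureTheory ProbabilityTheory

namespace Crest.Agent.R322

theorem STEPaux.sum_Zm {d N : ℕ} (hPm : IsProbabilityMeasure (Pm d)) (hKap : StKap) {k : ℕ}
    {c : Fin d → ℤ} {g : E d → ℝ} {a : ℝ} (hg : Dens k c g a) {U : Type} [Fintype U]
    (F : (Fin N → E d) × (Fin N → ℝ) → U) (hF : MeasFin F) :
    ∑ v, Zm (fun s => g s * kap F s v) = Zm g := by
  obtain ⟨hkm, hk0, hk1, hks⟩ := hKap d N U F hF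
  have hi : ∀ v, Integrable (fun s => g s * kap F s v) (Pm d) := by
    intro v
    refine Integrable.of_bound (hg.meas.mul (hkm v)).aestronglyMeasurable 1
      (Filter.Eventually.of_forall fun s => ?_)
    rw [Real.norm_eq_abs, abs_mul, abs_of_nonneg (hg.nn s), abs_of_nonneg (hk0 s v)]
    exact mul_le_one₀ (hg.le1 s) (hk0 s v) (hk1 s v)
  simp only [Zm]
  rw [← integral_finsetSum _ (fun v _ => hi v)]
  refine integral_congr_ae (Filter.Eventually.of_forall fun s => ?_)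
  simp only
  rw [← Finset.mul_sum, hks, mul_one]

theorem STEPaux.step_aux (hPm : StPm) : StKap → StWin → StStage → StStep := by
  intro hKap hWin hStage
  obtain ⟨C1, hC1, hW⟩ := hWin
  refine ⟨C1, hC1, ?_⟩
  intro d k L c g a Γ hd hg hkL hΓ hcs U _ _ F hF
  obtain ⟨hprob, -, -⟩ := hPm d (by omega)
  obtain ⟨hkm, hk0, hk1, hks⟩ := hKap d (d / 16) U F hF
  have hst : ∀ v : U, _ := fun v => hStage d k L c (fun s => g s * kap F s v) Γ hd
    (hg.meas.mul (hkm v)) (fun s => mul_nonneg (hg.nn s) (hk0 s v))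
    (fun s => mul_le_one₀ (hg.le1 s) (hk0 s v) (hk1 s v))
    (fun s hs => hg.supp s (left_ne_zero_of_mul hs)) hkL hΓ hcs
  choose J h b h1 h2 h3 h4 using hst
  have hZ := STEPaux.sum_Zm hprob hKap hg F hF
  refine ⟨J, h, b, h1, h2, ?_, ?_⟩
  · calc ∑ v, ∑ j ∈ J v, Zm (h v j) * Real.log (b v j)
        ≤ ∑ v, ((Γ * d + 2) * Zm (fun s => g s * kap F s v) + ∑ j ∈ J v, (j.1:ℝ) * Zm (h v j)) :=
          Finset.sum_le_sum fun v _ => h3 v
      _ = _ := by
          rw [Finset.sum_add_distrib, ← Finset.mul_sum, hZ]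
  · have hP := hW d k c g a hd hg U F hF
    calc ∑ v, ∑ j ∈ J v, Pot (k + j.1) j.2 (h v j)
        ≤ ∑ v, (Pot k c (fun s => g s * kap F s v) + 2 * Zm (fun s => g s * kap F s v) +
          (1 - (d / 4 - 1) * Real.log 2) * ∑ j ∈ J v, (j.1:ℝ) * Zm (h v j)) :=
          Finset.sum_le_sum fun v _ => h4 v
      _ = (∑ v, Pot k c (fun s => g s * kap F s v)) + 2 * Zm g +
          (1 - (d / 4 - 1) * Real.log 2) * ∑ v, ∑ j ∈ J v, (j.1:ℝ) * Zm (h v j) := by
          rw [Finset.sum_add_distrib, Finset.sum_add_distrib, ← Finset.mul_sum, ← Finset.mul_sum, hZ]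
      _ ≤ _ := by linarith

theorem step : StKap → StWin → StStage → StStep := STEPaux.step_aux pm

end Crest.Agent.R322
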