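import Crest.Agent.R322.Defs

set_option autoImplicit false

open MeasureTheory ProbabilityTheory

namespace Crest.Agent.R322

theorem val_facts : StKap → StVal := by
  intro hK d N U _ F out r hF n
  classical
  induction n with
  | zero =>
    intro u
    simp only [val]
    refine ⟨Measurable.ite ?_ measurable_const measurable_const, fun s => by split_ifs <;> norm_num,
      fun s => by split_ifs <;> norm_num⟩
    exact measurableSet_le (by fun_prop : Measurable fun s : E d => dist s (out u))
      measurable_const
  | succ n ih =>
    intro u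
    obtain ⟨k1, k2, k3, k4⟩ := hK d N U (F n u) (hF n u)
    simp only [val]
    refine ⟨?_, fun s => ?_, fun s => ?_⟩
    · exact Finset.measurable_sum _ fun v _ => (k1 v).mul (ih v).1
    · exact Finset.sum_nonneg fun v _ => mul_nonneg (k2 s v) ((ih v).2.1 s)
    · calc ∑ v, kap (F n u) s v * val F out r n v s ≤ ∑ v, kap (F n u) s v * 1 :=
          Finset.sum_le_sum fun v _ => mul_le_mul_of_nonneg_left ((ih v).2.2 s) (k2 s v)
        _ = 1 := by simp only [mul_one]; exact k4 s

theorem val_mono {d N : ℕ} {U : Type} [Fintype U]
    (F : ℕ → U → (Fin N → E d) × (Fin N → ℝ) → U) (out : U → E d) {r r' : ℝ} (h : r ≤ r')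
    (n : ℕ) (u : U) (s : E d) : val F out r n u s ≤ val F out r' n u s := by
  induction n generalizing u with
  | zero =>
    simp only [val]
    split_ifs with h1 h2 h2
    · exact le_rfl
    · exact absurd (h1.trans h) h2
    · norm_num
    · exact le_rfl
  | succ n ih =>
    simp only [val]
    exact Finset.sum_le_sum fun v _ => mul_le_mul_of_nonneg_left (ih v) measureReal_nonneg

open Classical in
theorem val_le_sum (hK : StKap) {d N : ℕ} {U : Type} [Fintype U]
    (F : ℕ → U → (Fin N → E d) × (Fin N → ℝ) → U) (out : U → E d) (r : ℝ)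
    (hF : ∀ i u, MeasFin (F i u)) (n : ℕ) (u : U) (s : E d) :
    val F out r n u s ≤ ∑ u', if dist s (out u') ≤ r then (1:ℝ) else 0 := by
  induction n generalizing u with
  | zero =>
    simp only [val]
    have := Finset.single_le_sum (f := fun u' => if dist s (out u') ≤ r then (1:ℝ) else 0)
      (fun i _ => by split_ifs <;> norm_num) (Finset.mem_univ u)
    exact this
  | succ n ih =>
    simp only [val]
    obtain ⟨k1, k2, k3, k4⟩ := hK d N U (F n u) (hF n u)
    calc ∑ v, kap (F n u) s v * val F out r n v s
        ≤ ∑ v, kap (F n u) s v * ∑ u', (if dist s (out u') ≤ r then (1:ℝ) else 0) :=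
          Finset.sum_le_sum fun v _ => mul_le_mul_of_nonneg_left (ih v) (k2 s v)
      _ = ∑ u', if dist s (out u') ≤ r then (1:ℝ) else 0 := by
          rw [← Finset.sum_mul, k4 s, one_mul]

end Crest.Agent.R322
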