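import Mathlib
import Crest.Agent.R322.Defs

set_option autoImplicit false

open MeasureTheory ProbabilityTheory

namespace Crest.Agent.R322

namespace WINaux

theorem xlx_eq : xlx = fun x => x * Real.log x := rfl

theorem continuous_xlx : Continuous xlx := Real.continuous_mul_log

theorem measurable_xlx : Measurable xlx := continuous_xlx.measurable

theorem xlx_mul (a b : ℝ) : xlx (a * b) = b * xlx a + a * xlx b := by
  by_cases ha : a = 0
  · subst ha; simp [xlx]
  · by_cases hb : b = 0
    · subst hb; simp [xlx]
    · simp only [xlx]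
      rw [Real.log_mul ha hb]
      ring

theorem xlx_abs_le {x : ℝ} (h0 : 0 ≤ x) (h1 : x ≤ 1) : |xlx x| ≤ 1 := by
  rcases h0.eq_or_lt with h | h
  · subst h; simp [xlx]
  · have := Real.abs_log_mul_self_lt x h h1
    rw [xlx, mul_comm]
    exact this.le

/-- bounded measurable functions are integrable -/
theorem int_of_bdd {α : Type} [MeasurableSpace α] {μ : Measure α} [IsFiniteMeasure μ]
    {f : α → ℝ} (hf : Measurable f) (C : ℝ) (hb : ∀ x, |f x| ≤ C) : Integrable f μ :=
  Integrable.of_bound hf.aestronglyMeasurable C (Filter.Eventually.of_forall fun x => by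
    simpa [Real.norm_eq_abs] using hb x)

/-- the affine map -/
noncomputable def T (d k : ℕ) (c : Fin d → ℤ) (s : E d) : E d :=
  (2:ℝ) ^ k • s - WithLp.toLp 2 (fun i => (c i : ℝ) / Real.sqrt d)

theorem T_apply (d k : ℕ) (c : Fin d → ℤ) (s : E d) (i : Fin d) :
    T d k c s i = (2:ℝ) ^ k * s i - (c i : ℝ) / Real.sqrt d := by
  simp [T]

theorem measurable_T (d k : ℕ) (c : Fin d → ℤ) : Measurable (T d k c) := by
  unfold T
  fun_prop

theorem cell_T (d k m : ℕ) (hd : 1 ≤ d) (c : Fin d → ℤ) (s : E d) (i : Fin d) :
    cell d m (T d k c s) i = cell d (k + m) s i - 2 ^ m * c i := by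
  have hsq : Real.sqrt d ≠ 0 := by
    have : (0:ℝ) < d := by exact_mod_cast hd
    exact (Real.sqrt_pos.2 this).ne'
  simp only [cell, T_apply]
  rw [← Int.floor_sub_intCast]
  congr 1
  push_cast
  rw [pow_add]
  field_simp

end WINaux

open WINaux

theorem win : StPm → StKap → StCell → StWL0 → StWin := by
  intro hPm hKap hCell hWL
  obtain ⟨C1, hC1, hW⟩ := hWL
  refine ⟨C1, hC1, ?_⟩
  intro d k c g a hd hg U _ _ F hF
  have hd1 : 1 ≤ d := by omega
  obtain ⟨hprob, -, -⟩ := hPm d hd1
  obtain ⟨hkm, hk0, hk1, hks⟩ := hKap d (d / 16) U F hF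
  have hgi : Integrable g (Pm d) := int_of_bdd hg.meas 1 (fun x => by
    rw [abs_of_nonneg (hg.nn x)]; exact hg.le1 x)
  have hZ0 : 0 ≤ Zm g := integral_nonneg hg.nn
  rcases hZ0.eq_or_lt with hZ | hZ
  · -- zero mass
    have hZ' : Zm g = 0 := hZ.symm
    have hae : g =ᵐ[Pm d] 0 := by
      rw [Zm] at hZ'
      exact (integral_eq_zero_iff_of_nonneg hg.nn hgi).1 hZ'
    have hpot0 : ∀ f : E d → ℝ, f =ᵐ[Pm d] 0 → Pot k c f = 0 := by
      intro f hf
      have h1 : Zm f = 0 := by
        rw [Zm, integral_congr_ae hf]; simp
      have h2 : ∫ s, xlx (f s) ∂(Pm d) = 0 := by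
        rw [integral_congr_ae (g := fun _ => (0:ℝ)) (by
          filter_upwards [hf] with s hs
          simp [hs, xlx])]
        simp
      rw [Pot, h1, h2]
      simp [xlx]
    rw [hpot0 g hae, hZ', Finset.sum_eq_zero]
    · simp
    · intro v _
      apply hpot0
      filter_upwards [hae] with s hs
      simp [hs]
  · -- positive mass
    set Z := Zm g with hZdef
    set ν : Measure (E d) := (Pm d).withDensity (fun s => ENNReal.ofReal (g s / Z)) with hν
    have hgm : Measurable (fun s => g s / Z) := hg.meas.div_const _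
    have hgn : ∀ s, 0 ≤ g s / Z := fun s => div_nonneg (hg.nn s) hZ.le
    have hgZi : Integrable (fun s => g s / Z) (Pm d) := hgi.div_const _
    have hνset : ∀ A : Set (E d), MeasurableSet A → ν.real A = (∫ s in A, g s ∂(Pm d)) / Z := by
      intro A hA
      rw [Measure.real, hν, withDensity_apply _ hA,
        ← ofReal_integral_eq_lintegral_ofReal hgZi.integrableOn
          (Filter.Eventually.of_forall hgn),
        ENNReal.toReal_ofReal (integral_nonneg hgn), integral_div]
    haveI hνp : IsProbabilityMeasure ν := by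
      constructor
      have h1 : ν.real Set.univ = 1 := by
        rw [hνset _ MeasurableSet.univ, Measure.restrict_univ]
        exact div_self hZ.ne'
      have h2 : ν Set.univ ≠ ⊤ := by
        intro h
        rw [Measure.real, h] at h1
        simp at h1
      rw [Measure.real] at h1
      rw [← ENNReal.ofReal_toReal h2, h1]
      simp
    have hνint : ∀ f : E d → ℝ, Measurable f → ∫ s, f s ∂ν = (∫ s, g s * f s ∂(Pm d)) / Z := by
      intro f hf
      rw [hν, integral_withDensity_eq_integral_toReal_smul
        (hgm.ennreal_ofReal) (Filter.Eventually.of_forall fun s => ENNReal.ofReal_lt_top),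
        ← integral_div]
      refine integral_congr_ae (Filter.Eventually.of_forall fun s => ?_)
      simp only [smul_eq_mul]
      rw [ENNReal.toReal_ofReal (hgn s)]
      ring
    set Q : Measure (E d) := ν.map (T d k c) with hQ
    have hTm := measurable_T d k c
    haveI hQp : IsProbabilityMeasure Q := by
      rw [hQ]; exact Measure.isProbabilityMeasure_map hTm.aemeasurable
    have hcm : ∀ (m : ℕ) (c' : Fin d → ℤ), MeasurableSet (cs d m c') := fun m c' =>
      (hCell d m hd1).1 c'
    have hνg : ∀ᵐ s ∂ν, g s ≠ 0 := by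
      rw [hν, ae_withDensity_iff hgm.ennreal_ofReal]
      refine Filter.Eventually.of_forall fun s hs h0 => hs ?_
      rw [h0]; simp
    have hUF : UFro Q a := by
      refine ⟨hQp, ?_, hg.one_le, ?_⟩
      · rw [hQ]
        have : MeasurableSet {z : E d | cell d 0 z = 0} := hcm 0 0
        rw [ae_map_iff hTm.aemeasurable this]
        filter_upwards [hνg] with s hs
        have h1 := hg.supp s hs
        funext i
        rw [cell_T d k 0 hd1, add_zero, h1]
        simp
      · intro m c'
        rw [hQ, map_measureReal_apply hTm (hcm m c')]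
        have : T d k c ⁻¹' (cs d m c') = cs d (k + m) (fun i => c' i + 2 ^ m * c i) := by
          ext s
          simp only [Set.mem_preimage, cs, Set.mem_setOf_eq, funext_iff]
          refine forall_congr' fun i => ?_
          rw [cell_T d k m hd1]
          constructor
          · intro h; linarith
          · intro h; linarith
        rw [this, hνset _ (hcm _ _), div_le_iff₀ hZ]
        exact hg.fro m _
    -- the transported map
    set c' : E d := WithLp.toLp 2 (fun i => (c i : ℝ) / Real.sqrt d) with hc'
    set G : (Fin (d / 16) → E d) × (Fin (d / 16) → ℝ) → (Fin (d / 16) → E d) × (Fin (d / 16) → ℝ) :=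
      fun p => (p.1, fun n => ((2:ℝ) ^ k)⁻¹ * (p.2 n + inner ℝ (p.1 n) c')) with hG
    have hGm : Measurable G := by
      rw [hG]
      refine Measurable.prodMk measurable_fst (measurable_pi_lambda _ fun n => ?_)
      refine Measurable.const_mul ?_ _
      refine Measurable.add ?_ ?_
      · exact (measurable_pi_apply n).comp measurable_snd
      · exact Measurable.inner ((measurable_pi_apply n).comp measurable_fst) measurable_const
    have hFG : MeasFin (F ∘ G) := by
      intro v
      rw [Set.preimage_comp]
      exact hGm (hF v)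
    have hGmeas : ∀ (X : Fin (d / 16) → E d) (s : E d), G (X, meas X (T d k c s)) = (X, meas X s) := by
      intro X s
      rw [hG]
      refine Prod.ext rfl ?_
      funext n
      simp only [meas, T]
      rw [inner_sub_right, inner_smul_right, ← hc', sub_add_cancel, ← mul_assoc,
        inv_mul_cancel₀ (by positivity), one_mul]
    have hkapT : ∀ s v, kap (F ∘ G) (T d k c s) v = kap F s v := by
      intro s v
      simp only [kap, Function.comp, hGmeas]
    obtain ⟨hkm', -, -, -⟩ := hKap d (d / 16) U (F ∘ G) hFG
    have hMI := hW d Q a hd hUF U (F ∘ G) hFG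
    set q : U → ℝ := fun v => ∫ s, kap F s v ∂ν with hq
    have hMIeq : MI Q (kap (F ∘ G)) = ∑ v, ((∫ s, xlx (kap F s v) ∂ν) - xlx (q v)) := by
      rw [MI]
      refine Finset.sum_congr rfl fun v _ => ?_
      have e1 : ∫ z, xlx (kap (F ∘ G) z v) ∂Q = ∫ s, xlx (kap F s v) ∂ν := by
        rw [hQ, integral_map hTm.aemeasurable]
        · simp only [hkapT]
        · exact (measurable_xlx.comp (hkm' v)).aestronglyMeasurable
      have e2 : ∫ z, kap (F ∘ G) z v ∂Q = q v := by
        rw [hQ, integral_map hTm.aemeasurable]
        · simp only [hkapT, hq]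
        · exact (hkm' v).aestronglyMeasurable
      rw [e1, e2]
    have hZq : ∀ v, Zm (fun s => g s * kap F s v) = Z * q v := by
      intro v
      rw [Zm, hq]
      simp only
      rw [hνint _ (hkm v)]
      field_simp
    have hxk : ∀ v, ∫ s, g s * xlx (kap F s v) ∂(Pm d) = Z * ∫ s, xlx (kap F s v) ∂ν := by
      intro v
      have h := hνint (fun s => xlx (kap F s v)) (measurable_xlx.comp (hkm v))
      rw [h]
      field_simp
    have i1 : ∀ v, Integrable (fun s => kap F s v * xlx (g s)) (Pm d) := by
      intro v
      refine int_of_bdd ((hkm v).mul (measurable_xlx.comp hg.meas)) 1 fun s => ?_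
      rw [abs_mul, abs_of_nonneg (hk0 s v)]
      exact mul_le_one₀ (hk1 s v) (abs_nonneg _) (xlx_abs_le (hg.nn s) (hg.le1 s))
    have i2 : ∀ v, Integrable (fun s => g s * xlx (kap F s v)) (Pm d) := by
      intro v
      refine int_of_bdd (hg.meas.mul (measurable_xlx.comp (hkm v))) 1 fun s => ?_
      rw [abs_mul, abs_of_nonneg (hg.nn s)]
      exact mul_le_one₀ (hg.le1 s) (abs_nonneg _) (xlx_abs_le (hk0 s v) (hk1 s v))
    have i3 : ∀ v, Integrable (fun s => kap F s v) ν := by
      intro v
      refine int_of_bdd (hkm v) 1 fun s => ?_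
      rw [abs_of_nonneg (hk0 s v)]
      exact hk1 s v
    have hqs : ∑ v, q v = 1 := by
      simp only [hq]
      rw [← integral_finset_sum _ (fun v _ => i3 v)]
      simp only [hks]
      simp
    have hsum1 : ∑ v, ∫ s, kap F s v * xlx (g s) ∂(Pm d) = ∫ s, xlx (g s) ∂(Pm d) := by
      rw [← integral_finset_sum _ (fun v _ => i1 v)]
      refine integral_congr_ae (Filter.Eventually.of_forall fun s => ?_)
      simp only
      rw [← Finset.sum_mul, hks, one_mul]
    have key : ∑ v, Pot k c (fun s => g s * kap F s v) = Pot k c g + Z * MI Q (kap (F ∘ G)) := by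
      rw [hMIeq]
      have : ∀ v, Pot k c (fun s => g s * kap F s v) =
          (∫ s, kap F s v * xlx (g s) ∂(Pm d)) - q v * xlx Z
          + q v * (Z * Real.log ((Pm d).real (cs d k c)))
          + Z * ((∫ s, xlx (kap F s v) ∂ν) - xlx (q v)) := by
        intro v
        rw [Pot, hZq]
        have e : ∫ s, xlx (g s * kap F s v) ∂(Pm d) =
            (∫ s, kap F s v * xlx (g s) ∂(Pm d)) + Z * ∫ s, xlx (kap F s v) ∂ν := by
          rw [← hxk, ← integral_add (i1 v) (i2 v)]
          refine integral_congr_ae (Filter.Eventually.of_forall fun s => ?_)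
          simp only
          rw [xlx_mul]
        rw [e, xlx_mul]
        ring
      simp only [this]
      rw [Finset.sum_add_distrib, Finset.sum_add_distrib, Finset.sum_sub_distrib, hsum1,
        ← Finset.sum_mul, ← Finset.sum_mul, hqs, ← Finset.mul_sum, Pot, ← hZdef]
      ring
    rw [key]
    have := mul_le_mul_of_nonneg_left hMI hZ.le
    linarith

end Crest.Agent.R322
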