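import Crest.Agent.R322.MOM

/-! Row 322, task WL0: the window lemma in the unit cell. -/

set_option autoImplicit false

open MeasureTheory ProbabilityTheory
open scoped ENNReal

noncomputable section

namespace Crest.Agent.R322

namespace WL0

theorem ae_cell {d n : ℕ} (Q : Measure (E d)) [IsProbabilityMeasure Q]
    (h : ∀ᵐ z ∂Q, cell d 0 z = 0) :
    ∀ᵐ z ∂(Measure.pi fun _ : Fin n => Q), ∀ j, cell d 0 (z j) = 0 := by
  rw [ae_all_iff]
  intro j
  have := (Measure.quasiMeasurePreserving_eval (fun _ : Fin n => Q) j).ae h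
  exact this

theorem norm_le_one {d : ℕ} (hd : 1 ≤ d) (hCell : StCell) {z : E d} (hz : cell d 0 z = 0) :
    ‖z‖ ≤ 1 := by
  have h0 : cell d 0 (0 : E d) = 0 := by
    funext i; simp [cell]
  have := (hCell d 0 hd).2.1 z 0 (by rw [hz, h0])
  simpa [dist_eq_norm] using this

theorem del_le_one {d m : ℕ} (hd : 1 ≤ d) (hCell : StCell) {z : Fin (m + 1) → E d}
    (hz : ∀ j, cell d 0 (z j) = 0) (k : Fin m) : del z k ≤ 1 := by
  unfold del dl
  refine (Metric.infDist_le_dist_of_mem (Submodule.zero_mem _)).trans ?_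
  rw [dist_eq_norm, sub_zero, ← dist_eq_norm]
  have := (hCell d 0 hd).2.1 (z k.succ) (z 0) (by rw [hz, hz])
  simpa using this

theorem del_nonneg {d m : ℕ} (z : Fin (m + 1) → E d) (k : Fin m) : 0 ≤ del z k :=
  Metric.infDist_nonneg

open Classical in
theorem main (hCell : StCell) (hRep : StRep) (hGB : StGB) (hH0 : StH0) (C : ℝ) (hC1 : 1 ≤ C)
    (d m N : ℕ) (Q : Measure (E d)) (a : ℝ) (hd : 16 ≤ d) (hQ : UFro Q a)
    (hmom : ∫⁻ z, ∏ k, (ENNReal.ofReal (del z k)) ^ (-((d:ℝ) / 4))
      ∂(Measure.pi fun _ : Fin (m + 1) => Q) ≤ (ENNReal.ofReal (a * C ^ d)) ^ m)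
    (hN : N = d / 16) (hm : N = m + 1) (U : Type) [Fintype U] [Nonempty U] (τ : ℝ) (hτ0 : 0 < τ)
    (hτ1 : τ ≤ 1) (S : Finset ((Fin d → ℤ) × ℤ)) (ψ : Option (Fin N → S) → U) :
    MI Q (fun z v => ∑ y with ψ y = v, rhoN N τ S y z) + 1 ≤
      32 / d * Real.log (Fintype.card U) + (Real.log C + 2) * d + Real.log a / 3 := by
  have hprob := hQ.prob
  have ha1 := hQ.one_le
  have hla : 0 ≤ Real.log a := Real.log_nonneg ha1
  have hlC : 0 ≤ Real.log C := Real.log_nonneg hC1
  have hd1 : 1 ≤ d := by omega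
  have hdr : (16:ℝ) ≤ d := by exact_mod_cast hd
  have hNr : (N : ℝ) = (m : ℝ) + 1 := by rw [hm]; push_cast; ring
  have hN16 : (N : ℝ) ≤ (d : ℝ) / 16 := by rw [hN]; exact Nat.cast_div_le
  have hm0 : (0:ℝ) ≤ m := Nat.cast_nonneg m
  have hN1 : (1:ℝ) ≤ N := by rw [hNr]; linarith
  have hN32 : (d : ℝ) / 32 ≤ N := by
    have h1 : d < 16 * N + 16 := by omega
    have h2 : (d : ℝ) < 16 * N + 16 := by exact_mod_cast h1
    linarith
  set t : ℝ := (d : ℝ) / 4 with ht
  have ht0 : 0 < t := by rw [ht]; linarith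
  have hNt : (N : ℝ) < t := by rw [ht]; linarith
  obtain ⟨g1, g2, g3, g4, g5, g6⟩ := hGB d m N τ S hd1 hτ0 hτ1
  -- the comparison function
  set Gs : (Fin (m + 1) → E d) → ℝ := fun z => max 1 (4 * ∏ k, (3 / del z k)) with hGs
  have hGsm : Measurable Gs := by
    refine measurable_const.max ?_
    refine measurable_const.mul ?_
    refine Finset.measurable_prod _ fun k _ => ?_
    exact measurable_const.div (measurable_del k)
  set L : ℝ := (4 * 3 ^ m) ^ t * (a * C ^ d) ^ m with hL
  have haC : 1 ≤ a * C ^ d := by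
    have := one_le_pow₀ hC1 (n := d)
    nlinarith
  have h43 : (1:ℝ) ≤ 4 * 3 ^ m := by
    have := one_le_pow₀ (by norm_num : (1:ℝ) ≤ 3) (n := m)
    linarith
  have hL1 : 1 ≤ L := by
    have h1 := Real.one_le_rpow h43 ht0.le
    have h2 := one_le_pow₀ haC (n := m)
    rw [hL]; nlinarith
  set Λ : ℝ := Real.log (2 * L) with hΛ
  have hcellae := ae_cell (n := m + 1) Q hQ.supp
  -- del > 0 a.e.
  have hmeasprod : Measurable (fun z : Fin (m + 1) → E d =>
      ∏ k, (ENNReal.ofReal (del z k)) ^ (-((d:ℝ) / 4))) := by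
    refine Finset.measurable_prod _ fun k _ => ?_
    exact (ENNReal.measurable_ofReal.comp (measurable_del k)).pow_const _
  have hdelpos : ∀ᵐ z ∂(Measure.pi fun _ : Fin (m + 1) => Q), ∀ k, 0 < del z k := by
    have hfin : ∫⁻ z, ∏ k, (ENNReal.ofReal (del z k)) ^ (-((d:ℝ) / 4))
        ∂(Measure.pi fun _ : Fin (m + 1) => Q) ≠ ⊤ :=
      (lt_of_le_of_lt hmom (ENNReal.pow_lt_top ENNReal.ofReal_lt_top)).ne
    filter_upwards [ae_lt_top hmeasprod hfin] with z hz k
    by_contra hk
    have hk0 : del z k = 0 := le_antisymm (not_lt.1 hk) (del_nonneg z k)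
    have htop : ∏ k, (ENNReal.ofReal (del z k)) ^ (-((d:ℝ) / 4)) = ⊤ := by
      rw [← Finset.mul_prod_erase _ _ (Finset.mem_univ k), hk0, ENNReal.ofReal_zero,
        ENNReal.zero_rpow_of_neg (by linarith), ENNReal.top_mul]
      refine Finset.prod_ne_zero_iff.2 fun j _ => ?_
      rw [Ne, ENNReal.rpow_eq_zero_iff]
      push Not
      refine ⟨fun _ => by linarith, fun h => absurd h ENNReal.ofReal_ne_top⟩
    rw [htop] at hz
    exact lt_irrefl _ hz
  have hGs1 : ∀ z, 1 ≤ Gs z := fun z => le_max_left _ _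
  have hrep := hRep (E d) Q (Option (Fin N → S)) U (rhoN N τ S) (lamN N τ S) ψ m N t Λ (7 * N) 2
    Gs g1 g2 g3 g4 g5 hGsm hGs1 (by norm_num) ht0 hNt ?_ ?_ ?_
  · -- conclusion
    have hlog2 : Real.log 2 ≤ 1 := by
      have := Real.log_le_sub_one_of_pos (by norm_num : (0:ℝ) < 2); linarith
    have hlog3 : Real.log 3 ≤ 2 := by
      have := Real.log_le_sub_one_of_pos (by norm_num : (0:ℝ) < 3); linarith
    have hlog4 : Real.log 4 ≤ 2 := by
      have : (4:ℝ) = 2 * 2 := by norm_num
      rw [this, Real.log_mul (by norm_num) (by norm_num)]; linarith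
    have hlog20 : 0 ≤ Real.log 2 := Real.log_nonneg (by norm_num)
    have hlog30 : 0 ≤ Real.log 3 := Real.log_nonneg (by norm_num)
    have hΛe : Λ = Real.log 2 + (t * (Real.log 4 + m * Real.log 3) +
        m * (Real.log a + d * Real.log C)) := by
      rw [hΛ, Real.log_mul (by norm_num) (by linarith), hL,
        Real.log_mul (by positivity) (by positivity), Real.log_rpow (by positivity),
        Real.log_mul (by norm_num) (by positivity), Real.log_pow, Real.log_pow,
        Real.log_mul (by positivity) (by positivity), Real.log_pow]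
    have hmd : (m:ℝ) ≤ t / 4 := by rw [ht]; linarith
    have haC0 : 0 ≤ Real.log a + d * Real.log C := by positivity
    have hΛ0 : 0 ≤ Λ := Real.log_nonneg (by linarith)
    have hΛle : Λ ≤ t * (9 / 4 + d / 8 + (Real.log a + d * Real.log C) / 4) := by
      rw [hΛe]
      have e1 : (m:ℝ) * (Real.log a + d * Real.log C) ≤ t / 4 * (Real.log a + d * Real.log C) :=
        mul_le_mul_of_nonneg_right hmd haC0
      have e2 : (m:ℝ) * Real.log 3 ≤ d / 16 * 2 := by
        refine mul_le_mul (by linarith) hlog3 hlog30 (by positivity)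
      have e3 : t * (Real.log 4 + m * Real.log 3) ≤ t * (2 + d / 8) :=
        mul_le_mul_of_nonneg_left (by linarith) ht0.le
      have e4 : Real.log 2 ≤ t * (1 / 4) := by rw [ht]; linarith
      nlinarith
    set K : ℝ := (Real.log C + 2) * d + Real.log a / 3 - 1 with hK
    have hU0 : 0 ≤ Real.log (Fintype.card U) := Real.log_nonneg (by
      exact_mod_cast Fintype.card_pos)
    have hr : (N:ℝ) / t ≤ 1 / 4 := by
      rw [div_le_iff₀ ht0, ht]; linarith
    have h1r : 1 / (1 - (N:ℝ) / t) ≤ 4 / 3 := by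
      rw [div_le_iff₀ (by linarith)]; linarith
    have hB0 : 0 ≤ (N:ℝ) / t * Λ + m * (7 * N) + Real.log 2 := by positivity
    have hΛt : (N:ℝ) / t * Λ ≤ N * (9 / 4 + d / 8 + (Real.log a + d * Real.log C) / 4) := by
      rw [div_mul_eq_mul_div, div_le_iff₀ ht0]
      calc (N:ℝ) * Λ ≤ N * (t * (9 / 4 + d / 8 + (Real.log a + d * Real.log C) / 4)) :=
            mul_le_mul_of_nonneg_left hΛle (by positivity)
        _ = _ := by ring
    have hB : (N:ℝ) / t * Λ + m * (7 * N) + Real.log 2 ≤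
        N * (9 / 4 + d / 8 + (Real.log a + d * Real.log C) / 4 + 7 * (d / 16) + 1) := by
      have e5 : (m:ℝ) * (7 * N) ≤ N * (7 * (d / 16)) := by
        have : (m:ℝ) ≤ d / 16 := by linarith
        nlinarith
      nlinarith
    have hlC' : 0 ≤ d * Real.log C := by positivity
    have hBK : 4 / 3 * ((N:ℝ) / t * Λ + m * (7 * N) + Real.log 2) ≤ N * K := by
      have e6 : 4 / 3 * (9 / 4 + d / 8 + (Real.log a + d * Real.log C) / 4 + 7 * ((d:ℝ) / 16) + 1) ≤
          K := by
        rw [hK]; nlinarith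
      calc 4 / 3 * ((N:ℝ) / t * Λ + m * (7 * N) + Real.log 2) ≤
            4 / 3 * (N * (9 / 4 + d / 8 + (Real.log a + d * Real.log C) / 4 + 7 * (d / 16) + 1)) :=
            mul_le_mul_of_nonneg_left hB (by norm_num)
        _ = N * (4 / 3 * (9 / 4 + d / 8 + (Real.log a + d * Real.log C) / 4 +
              7 * ((d:ℝ) / 16) + 1)) := by ring
        _ ≤ N * K := mul_le_mul_of_nonneg_left e6 (by positivity)
    have hUN : Real.log (Fintype.card U) ≤ N * (32 / d * Real.log (Fintype.card U)) := by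
      have e7 : (1:ℝ) ≤ N * (32 / d) := by
        rw [mul_div_assoc', le_div_iff₀ (by linarith)]; linarith
      calc Real.log (Fintype.card U) = 1 * Real.log (Fintype.card U) := (one_mul _).symm
        _ ≤ N * (32 / d) * Real.log (Fintype.card U) := mul_le_mul_of_nonneg_right e7 hU0
        _ = _ := by ring
    have hfin : (N:ℝ) * MI Q (fun z v => ∑ y with ψ y = v, rhoN N τ S y z) ≤
        N * (32 / d * Real.log (Fintype.card U) + K) := by
      rw [hNr]
      refine hrep.trans ?_
      rw [← hNr]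
      have e8 : 1 / (1 - (N:ℝ) / t) * ((N:ℝ) / t * Λ + m * (7 * N) + Real.log 2) ≤
          4 / 3 * ((N:ℝ) / t * Λ + m * (7 * N) + Real.log 2) :=
        mul_le_mul_of_nonneg_right h1r hB0
      linarith
    have := le_of_mul_le_mul_left hfin (by linarith)
    rw [hK] at this
    linarith
  · filter_upwards [hdelpos, hcellae] with z hz hc
    refine (g6 z (fun j => norm_le_one hd1 hCell (hc j)) hz (del_le_one hd1 hCell hc)).trans ?_
    refine mul_le_mul_of_nonneg_left ?_ (by norm_num)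
    refine pow_le_pow_left₀ ?_ (le_max_right _ _) N
    have : 0 ≤ ∏ k, (3 / del z k) := Finset.prod_nonneg fun k _ => div_nonneg (by norm_num)
      (hz k).le
    positivity
  · -- the moment of Gs
    have hexp : Real.exp Λ = 2 * L := Real.exp_log (by linarith)
    rw [hexp]
    have hpt : ∀ᵐ z ∂(Measure.pi fun _ : Fin (m + 1) => Q), ENNReal.ofReal ((Gs z) ^ t) ≤
        1 + ENNReal.ofReal ((4 * 3 ^ m) ^ t) *
          ∏ k, (ENNReal.ofReal (del z k)) ^ (-((d:ℝ) / 4)) := by
      filter_upwards [hdelpos] with z hz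
      have hP0 : 0 < ∏ k, (3 / del z k) := Finset.prod_pos fun k _ => div_pos (by norm_num) (hz k)
      have e1 : (Gs z) ^ t ≤ 1 + (4 * ∏ k, (3 / del z k)) ^ t := by
        rcases le_total 1 (4 * ∏ k, (3 / del z k)) with h | h
        · rw [hGs]; simp only; rw [max_eq_right h]; linarith
        · rw [hGs]; simp only; rw [max_eq_left h, Real.one_rpow]
          have : 0 ≤ (4 * ∏ k, (3 / del z k)) ^ t := Real.rpow_nonneg (by positivity) _
          linarith
      have e2 : (4 * ∏ k, (3 / del z k)) ^ t =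
          (4 * 3 ^ m) ^ t * ∏ k, (del z k) ^ (-((d:ℝ) / 4)) := by
        have e3 : 4 * ∏ k, (3 / del z k) = (4 * 3 ^ m) * ∏ k, (del z k)⁻¹ := by
          rw [Finset.prod_div_distrib]
          simp only [Finset.prod_const, Finset.card_univ, Fintype.card_fin, Finset.prod_inv_distrib]
          ring
        rw [e3, Real.mul_rpow (by positivity)
          (Finset.prod_nonneg fun k _ => inv_nonneg.2 (hz k).le),
          ← Real.finset_prod_rpow _ _ (fun k _ => inv_nonneg.2 (hz k).le)]
        congr 1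
        refine Finset.prod_congr rfl fun k _ => ?_
        rw [Real.inv_rpow (hz k).le, Real.rpow_neg (hz k).le]
      refine (ENNReal.ofReal_le_ofReal e1).trans (le_of_eq ?_)
      rw [e2, ENNReal.ofReal_add zero_le_one (mul_nonneg (by positivity)
        (Finset.prod_nonneg fun k _ => Real.rpow_nonneg (hz k).le _)), ENNReal.ofReal_one,
        ENNReal.ofReal_mul (by positivity), ENNReal.ofReal_prod_of_nonneg
          (fun k _ => Real.rpow_nonneg (hz k).le _)]
      congr 2
      refine Finset.prod_congr rfl fun k _ => ?_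
      rw [ENNReal.ofReal_rpow_of_pos (hz k)]
    refine (lintegral_mono_ae hpt).trans ?_
    rw [lintegral_add_left measurable_const, lintegral_const_mul _ hmeasprod]
    simp only [lintegral_const, measure_univ, mul_one]
    calc 1 + ENNReal.ofReal ((4 * 3 ^ m) ^ t) *
          ∫⁻ z, ∏ k, (ENNReal.ofReal (del z k)) ^ (-((d:ℝ) / 4))
            ∂(Measure.pi fun _ : Fin (m + 1) => Q)
        ≤ 1 + ENNReal.ofReal ((4 * 3 ^ m) ^ t) * (ENNReal.ofReal (a * C ^ d)) ^ m := by gcongr
      _ = ENNReal.ofReal (1 + L) := by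
          rw [hL, ENNReal.ofReal_add zero_le_one (by positivity), ENNReal.ofReal_one,
            ENNReal.ofReal_mul (p := (4 * 3 ^ m) ^ t) (by positivity),
            ENNReal.ofReal_pow (p := a * C ^ d) (by positivity)]
      _ ≤ ENNReal.ofReal (2 * L) := ENNReal.ofReal_le_ofReal (by linarith)
  · refine hH0 d N τ S Q hd1 (by omega) hτ0 hτ1 ?_
    filter_upwards [hQ.supp] with z hz
    exact norm_le_one hd1 hCell hz

end WL0

open WL0 in
theorem wl0 : StCell → StKap → StRep → StGB → StH0 → StMom → StMIApp → StWL0 := by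
  classical
  intro hCell hKap hRep hGB hH0 hMom hApp
  obtain ⟨C, hC1, hMom⟩ := hMom
  have hlC : 0 ≤ Real.log C := Real.log_nonneg hC1
  refine ⟨Real.log C + 2, by linarith, ?_⟩
  intro d Q a hd hQ U _ _ F hF
  have hprob := hQ.prob
  obtain ⟨m, hm⟩ : ∃ m, d / 16 = m + 1 := ⟨d / 16 - 1, by omega⟩
  obtain ⟨τ, hτ0, hτ1, S, ψ, hMI⟩ := hApp d (d / 16) U F (by omega) hF Q 1 one_pos
  refine hMI.trans ?_
  exact main hCell hRep hGB hH0 C hC1 d m (d / 16) Q a hd hQ (hMom d m Q a hd hQ hm.symm.le) rfl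
    hm U τ hτ0 hτ1 S ψ

end Crest.Agent.R322
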